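import Mathlib

/-!
# P205: smooth isometric immersions of Riemannian tori into `ℝ⁴`: basic definitions

The plane is `ℝ × ℝ` (with coordinates `x.1`, `x.2`), the metric is `exp (2 w₀) (dx₁² + dx₂²)`.
-/

namespace Vale.Agent.P205

variable {E : Type*} [NormedAddCommGroup E] [NormedSpace ℝ E]

/-- first partial derivative -/
noncomputable def D1 (f : ℝ × ℝ → E) (x : ℝ × ℝ) : E := fderiv ℝ f x (1, 0)

/-- second partial derivative -/
noncomputable def D2 (f : ℝ × ℝ → E) (x : ℝ × ℝ) : E := fderiv ℝ f x (0, 1)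

/-- periodicity with respect to the lattice generated by `v₁`, `v₂` -/
def Per {E : Type*} (v₁ v₂ : ℝ × ℝ) (f : ℝ × ℝ → E) : Prop :=
  (∀ x, f (x + v₁) = f x) ∧ ∀ x, f (x + v₂) = f x

/-- determinant of a pair of plane vectors -/
def dt (v₁ v₂ : ℝ × ℝ) : ℝ := v₁.1 * v₂.2 - v₁.2 * v₂.1

/-- the right-hand bracket of the elliptic equation -/
noncomputable def brk (w u : ℝ × ℝ → ℝ) (x : ℝ × ℝ) : ℝ :=
  D1 (D1 w) x * D2 (D2 w) x - D1 (D2 w) x ^ 2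
    - (D1 w x ^ 2 + D2 w x ^ 2) * (D1 u x ^ 2 + D2 u x ^ 2)
    - (D1 w x * D1 u x - D2 w x * D2 u x) * (D1 (D1 w) x - D2 (D2 w) x)
    - 2 * (D1 w x * D2 u x + D2 w x * D1 u x) * D1 (D2 w) x

/-- the elliptic equation; `u = w - w₀`. -/
def PDE (ε c : ℝ) (w u : ℝ × ℝ → ℝ) : Prop :=
  ∀ x, (1 - ε * Real.exp (2 * u x) * (D1 w x ^ 2 + D2 w x ^ 2)) * (D1 (D1 u) x + D2 (D2 u) x) =
    ε * Real.exp (2 * u x) * brk w u x - c

/-- `q = √(1 - ε e^{2u} |∇w|²)` -/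
noncomputable def qq (ε : ℝ) (w u : ℝ × ℝ → ℝ) (x : ℝ × ℝ) : ℝ :=
  Real.sqrt (1 - ε * Real.exp (2 * u x) * (D1 w x ^ 2 + D2 w x ^ 2))

/-- `c = ε e^{2u} / (1 + q)` -/
noncomputable def cc (ε : ℝ) (w u : ℝ × ℝ → ℝ) (x : ℝ × ℝ) : ℝ :=
  ε * Real.exp (2 * u x) / (1 + qq ε w u x)

/-- first component of the connection form -/
noncomputable def f1 (ε : ℝ) (w u : ℝ × ℝ → ℝ) (x : ℝ × ℝ) : ℝ :=
  (D2 u x + cc ε w u x * (D1 w x * D1 (D2 w) x - D2 w x * D1 (D1 w) x)) / qq ε w u x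

/-- second component of the connection form -/
noncomputable def f2 (ε : ℝ) (w u : ℝ × ℝ → ℝ) (x : ℝ × ℝ) : ℝ :=
  (-D1 u x + cc ε w u x * (D1 w x * D2 (D2 w) x - D2 w x * D1 (D2 w) x)) / qq ε w u x

/-- first component of `dZ`, given the angle function `φ` -/
noncomputable def PP (ε : ℝ) (w u φ : ℝ × ℝ → ℝ) (x : ℝ × ℝ) : ℂ :=
  Complex.exp (Complex.I * φ x - u x) *
    (1 - cc ε w u x * D1 w x * (D1 w x + Complex.I * D2 w x))

/-- second component of `dZ`, given the angle function `φ` -/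
noncomputable def QQ (ε : ℝ) (w u φ : ℝ × ℝ → ℝ) (x : ℝ × ℝ) : ℂ :=
  Complex.exp (Complex.I * φ x - u x) *
    (Complex.I - cc ε w u x * D2 w x * (D1 w x + Complex.I * D2 w x))

/-- The positivity assumption which makes `m = e^{-2u} |dx|² - ε dw²` a metric. -/
def Pos (ε : ℝ) (w u : ℝ × ℝ → ℝ) : Prop :=
  ∀ x, 1 / 2 ≤ 1 - ε * Real.exp (2 * u x) * (D1 w x ^ 2 + D2 w x ^ 2)

/-- frequencies of the lattice generated by `v₁`, `v₂` (first coordinate) -/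
noncomputable def al (v₁ v₂ : ℝ × ℝ) (k : ℤ × ℤ) : ℝ :=
  2 * Real.pi * (k.1 * v₂.2 - k.2 * v₁.2) / dt v₁ v₂

/-- frequencies of the lattice generated by `v₁`, `v₂` (second coordinate) -/
noncomputable def be (v₁ v₂ : ℝ × ℝ) (k : ℤ × ℤ) : ℝ :=
  2 * Real.pi * (-(k.1 * v₂.1) + k.2 * v₁.1) / dt v₁ v₂

end Vale.Agent.P205
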