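import Mathlib
import Vale.Agent.Lib.P205.Basic

/-!
# P205, module GEOM: pointwise identities and the vanishing of the constant
-/

open scoped ContDiff

namespace Vale.Agent.P205

namespace Geom

variable {E : Type*} [NormedAddCommGroup E] [NormedSpace ℝ E]

theorem contDiff_D1 {f : ℝ × ℝ → E} (hf : ContDiff ℝ ∞ f) : ContDiff ℝ ∞ (D1 f) :=
  (hf.fderiv_right (m := ∞) (by simp)).clm_apply contDiff_const

theorem contDiff_D2 {f : ℝ × ℝ → E} (hf : ContDiff ℝ ∞ f) : ContDiff ℝ ∞ (D2 f) :=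
  (hf.fderiv_right (m := ∞) (by simp)).clm_apply contDiff_const

theorem diff {f : ℝ × ℝ → E} (hf : ContDiff ℝ ∞ f) (x : ℝ × ℝ) : DifferentiableAt ℝ f x :=
  hf.differentiable (by simp) x

theorem D_comm {f : ℝ × ℝ → E} (hf : ContDiff ℝ ∞ f) (x : ℝ × ℝ) : D2 (D1 f) x = D1 (D2 f) x := by
  have h1 : IsSymmSndFDerivAt ℝ f x := hf.contDiffAt.isSymmSndFDerivAt (by
    rw [minSmoothness_of_isRCLikeNormedField]
    exact ENat.LEInfty.out)
  have h2 : DifferentiableAt ℝ (fderiv ℝ f) x :=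
    diff (hf.fderiv_right (m := ∞) (by simp)) x
  have h3 : ∀ v w : ℝ × ℝ, fderiv ℝ (fun y => fderiv ℝ f y v) x w = fderiv ℝ (fderiv ℝ f) x w v := by
    intro v w
    rw [fderiv_clm_apply h2 (differentiableAt_const v)]
    simp
  unfold D1 D2
  rw [h3, h3]
  exact h1 _ _

/-- the derivative along a line -/
theorem line {f : ℝ × ℝ → E} {x : ℝ × ℝ} (hf : DifferentiableAt ℝ f x) (v : ℝ × ℝ) :
    HasDerivAt (fun t : ℝ => f (x + t • v)) (fderiv ℝ f x v) 0 := by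
  have h1 : HasDerivAt (fun t : ℝ => x + t • v) v 0 := by
    simpa using ((hasDerivAt_id (0 : ℝ)).smul_const v).const_add x
  have h2 : HasFDerivAt f (fderiv ℝ f x) (x + (0 : ℝ) • v) := by
    simpa using hf.hasFDerivAt
  exact h2.comp_hasDerivAt (0 : ℝ) h1

variable {ε : ℝ} {w u : ℝ × ℝ → ℝ}

theorem qq_pos (hpos : Pos ε w u) (x : ℝ × ℝ) : 0 < qq ε w u x := by
  unfold qq
  apply Real.sqrt_pos.2
  linarith [hpos x]

theorem qq_sq (hpos : Pos ε w u) (x : ℝ × ℝ) :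
    qq ε w u x ^ 2 = 1 - ε * Real.exp (2 * u x) * (D1 w x ^ 2 + D2 w x ^ 2) := by
  unfold qq
  rw [Real.sq_sqrt]
  linarith [hpos x]

theorem cc_mul (hpos : Pos ε w u) (x : ℝ × ℝ) :
    cc ε w u x * (1 + qq ε w u x) = ε * Real.exp (2 * u x) := by
  unfold cc
  have := qq_pos hpos x
  field_simp

theorem cc_s (hpos : Pos ε w u) (x : ℝ × ℝ) :
    qq ε w u x = 1 - cc ε w u x * (D1 w x ^ 2 + D2 w x ^ 2) := by
  have h1 := qq_pos hpos x
  have h2 := qq_sq hpos x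
  have h3 := cc_mul hpos x
  have h4 : (1 + qq ε w u x) * (qq ε w u x - (1 - cc ε w u x * (D1 w x ^ 2 + D2 w x ^ 2))) = 0 := by
    linear_combination h2 + (D1 w x ^ 2 + D2 w x ^ 2) * h3
  rcases mul_eq_zero.1 h4 with h5 | h5
  · linarith
  · linarith

theorem contDiff_qq (hw : ContDiff ℝ ∞ w) (hu : ContDiff ℝ ∞ u) (hpos : Pos ε w u) :
    ContDiff ℝ ∞ (qq ε w u) := by
  unfold qq
  apply ContDiff.sqrt
  · exact contDiff_const.sub ((contDiff_const.mul (contDiff_const.mul hu).exp).mul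
      (((contDiff_D1 hw).pow 2).add ((contDiff_D2 hw).pow 2)))
  · intro x
    have := hpos x
    linarith

/-- derivative of `q` in the direction `v` -/
theorem deriv_qq (hw : ContDiff ℝ ∞ w) (hu : ContDiff ℝ ∞ u) (hpos : Pos ε w u) (x v : ℝ × ℝ) :
    fderiv ℝ (qq ε w u) x v * qq ε w u x = - (cc ε w u x * (1 + qq ε w u x)) *
      (fderiv ℝ u x v * (D1 w x ^ 2 + D2 w x ^ 2)
        + (D1 w x * fderiv ℝ (D1 w) x v + D2 w x * fderiv ℝ (D2 w) x v)) := by
  have h1 := (line (diff hu x) v).const_mul 2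
  have h2 := (h1.exp).const_mul ε
  have h3 := ((line (diff (contDiff_D1 hw) x) v).pow 2).add
    ((line (diff (contDiff_D2 hw) x) v).pow 2)
  have h4 := (h2.mul h3).const_sub 1
  have h5 := h4.sqrt (by
    have := hpos x
    simp only [Pi.mul_apply, Pi.add_apply, Pi.pow_apply, zero_smul, add_zero]
    linarith)
  have h6 := line (diff (contDiff_qq hw hu hpos) x) v
  have h7 := h6.unique h5
  simp only [Pi.mul_apply, Pi.add_apply, Pi.pow_apply, zero_smul, add_zero] at h7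
  rw [show Real.sqrt (1 - ε * Real.exp (2 * u x) * (D1 w x ^ 2 + D2 w x ^ 2)) = qq ε w u x
    from rfl] at h7
  rw [h7]
  have h8 := qq_pos hpos x
  have h10 := cc_mul hpos x
  rw [h10]
  field_simp
  ring

theorem deriv_cc (hw : ContDiff ℝ ∞ w) (hu : ContDiff ℝ ∞ u) (hpos : Pos ε w u)
    (hcc : ContDiff ℝ ∞ (cc ε w u)) (x v : ℝ × ℝ) :
    fderiv ℝ (cc ε w u) x v * qq ε w u x =
      cc ε w u x * ((1 + qq ε w u x) * fderiv ℝ u x v
        + cc ε w u x * (D1 w x * fderiv ℝ (D1 w) x v + D2 w x * fderiv ℝ (D2 w) x v)) := by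
  have h1 := (line (diff hu x) v).const_mul 2
  have h2 := (h1.exp).const_mul ε
  have h3 := (line (diff hcc x) v).mul ((line (diff (contDiff_qq hw hu hpos) x) v).const_add 1)
  have h4 : (fun t : ℝ => cc ε w u (x + t • v)) * (fun t : ℝ => 1 + qq ε w u (x + t • v)) =
      fun t : ℝ => ε * Real.exp (2 * u (x + t • v)) := by
    funext t
    exact cc_mul hpos _
  rw [h4] at h3
  have h5 := h3.unique h2
  simp only [zero_smul, add_zero] at h5
  have h6 := cc_mul hpos x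
  have h7 := deriv_qq hw hu hpos x v
  have h8 := cc_s hpos x
  have h9 := qq_pos hpos x
  have h10 : (1 + qq ε w u x) * (fderiv ℝ (cc ε w u) x v * qq ε w u x -
      cc ε w u x * ((1 + qq ε w u x) * fderiv ℝ u x v
        + cc ε w u x * (D1 w x * fderiv ℝ (D1 w) x v + D2 w x * fderiv ℝ (D2 w) x v))) = 0 := by
    linear_combination (qq ε w u x) * h5 - (cc ε w u x) * h7
      - 2 * fderiv ℝ u x v * qq ε w u x * h6
      + (cc ε w u x * (1 + qq ε w u x) * fderiv ℝ u x v) * h8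
  rcases mul_eq_zero.1 h10 with h11 | h11
  · linarith
  · linarith

end Geom

open Geom

variable {ε : ℝ} {w u : ℝ × ℝ → ℝ}

theorem contDiff_cc {ε : ℝ} {w u : ℝ × ℝ → ℝ} (hw : ContDiff ℝ ∞ w) (hu : ContDiff ℝ ∞ u)
    (hpos : Pos ε w u) : ContDiff ℝ ∞ (cc ε w u) := by
  unfold cc
  apply ContDiff.div
  · exact contDiff_const.mul (contDiff_const.mul hu).exp
  · exact contDiff_const.add (contDiff_qq hw hu hpos)
  · intro x
    have := qq_pos hpos x
    linarith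

theorem contDiff_f1 {ε : ℝ} {w u : ℝ × ℝ → ℝ} (hw : ContDiff ℝ ∞ w) (hu : ContDiff ℝ ∞ u)
    (hpos : Pos ε w u) : ContDiff ℝ ∞ (f1 ε w u) := by
  unfold f1
  apply ContDiff.div
  · exact (contDiff_D2 hu).add ((contDiff_cc hw hu hpos).mul
      (((contDiff_D1 hw).mul (contDiff_D1 (contDiff_D2 hw))).sub
        ((contDiff_D2 hw).mul (contDiff_D1 (contDiff_D1 hw)))))
  · exact contDiff_qq hw hu hpos
  · intro x
    exact (qq_pos hpos x).ne'

theorem contDiff_f2 {ε : ℝ} {w u : ℝ × ℝ → ℝ} (hw : ContDiff ℝ ∞ w) (hu : ContDiff ℝ ∞ u)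
    (hpos : Pos ε w u) : ContDiff ℝ ∞ (f2 ε w u) := by
  unfold f2
  apply ContDiff.div
  · exact (contDiff_D1 hu).neg.add ((contDiff_cc hw hu hpos).mul
      (((contDiff_D1 hw).mul (contDiff_D2 (contDiff_D2 hw))).sub
        ((contDiff_D2 hw).mul (contDiff_D1 (contDiff_D2 hw)))))
  · exact contDiff_qq hw hu hpos
  · intro x
    exact (qq_pos hpos x).ne'

namespace Geom

/-- derivative of `f1 * q` -/
theorem deriv_f1 (hw : ContDiff ℝ ∞ w) (hu : ContDiff ℝ ∞ u) (hpos : Pos ε w u) (x : ℝ × ℝ) :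
    D2 (f1 ε w u) x * qq ε w u x + f1 ε w u x * D2 (qq ε w u) x =
      D2 (D2 u) x + (D2 (cc ε w u) x * (D1 w x * D1 (D2 w) x - D2 w x * D1 (D1 w) x)
        + cc ε w u x * (D1 (D2 w) x * D1 (D2 w) x + D1 w x * D1 (D2 (D2 w)) x
          - (D2 (D2 w) x * D1 (D1 w) x + D2 w x * D1 (D1 (D2 w)) x))) := by
  have hcc := contDiff_cc hw hu hpos
  have h1 := (line (diff (contDiff_f1 hw hu hpos) x) (0, 1)).mul
    (line (diff (contDiff_qq hw hu hpos) x) (0, 1))
  have h2 := (line (diff (contDiff_D2 hu) x) (0, 1)).add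
    ((line (diff hcc x) (0, 1)).mul
      (((line (diff (contDiff_D1 hw) x) (0, 1)).mul
        (line (diff (contDiff_D1 (contDiff_D2 hw)) x) (0, 1))).sub
        ((line (diff (contDiff_D2 hw) x) (0, 1)).mul
        (line (diff (contDiff_D1 (contDiff_D1 hw)) x) (0, 1)))))
  have h3 : (fun t : ℝ => f1 ε w u (x + t • (0, 1))) * (fun t : ℝ => qq ε w u (x + t • (0, 1))) =
      (fun t : ℝ => D2 u (x + t • (0, 1))) + (fun t : ℝ => cc ε w u (x + t • (0, 1))) *
        ((fun t : ℝ => D1 w (x + t • (0, 1))) * (fun t : ℝ => D1 (D2 w) (x + t • (0, 1))) -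
        (fun t : ℝ => D2 w (x + t • (0, 1))) * (fun t : ℝ => D1 (D1 w) (x + t • (0, 1)))) := by
    funext t
    simp only [Pi.mul_apply, Pi.add_apply, Pi.sub_apply]
    unfold f1
    rw [div_mul_cancel₀ _ (qq_pos hpos _).ne']
  rw [h3] at h1
  have h4 := h1.unique h2
  simp only [Pi.mul_apply, Pi.sub_apply, zero_smul, add_zero] at h4
  have e1 : fderiv ℝ (D1 w) x (0, 1) = D1 (D2 w) x := D_comm hw x
  have e2 : fderiv ℝ (D1 (D2 w)) x (0, 1) = D1 (D2 (D2 w)) x := D_comm (contDiff_D2 hw) x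
  have e3 : fderiv ℝ (D1 (D1 w)) x (0, 1) = D1 (D1 (D2 w)) x := by
    have h5 : D2 (D1 (D1 w)) x = D1 (D2 (D1 w)) x := D_comm (contDiff_D1 hw) x
    have h6 : D2 (D1 w) = D1 (D2 w) := funext fun y => D_comm hw y
    rw [h6] at h5
    exact h5
  rw [e1, e2, e3] at h4
  unfold D2 at h4 ⊢
  linarith [h4]

/-- derivative of `f2 * q` -/
theorem deriv_f2 (hw : ContDiff ℝ ∞ w) (hu : ContDiff ℝ ∞ u) (hpos : Pos ε w u) (x : ℝ × ℝ) :
    D1 (f2 ε w u) x * qq ε w u x + f2 ε w u x * D1 (qq ε w u) x =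
      -D1 (D1 u) x + (D1 (cc ε w u) x * (D1 w x * D2 (D2 w) x - D2 w x * D1 (D2 w) x)
        + cc ε w u x * (D1 (D1 w) x * D2 (D2 w) x + D1 w x * D1 (D2 (D2 w)) x
          - (D1 (D2 w) x * D1 (D2 w) x + D2 w x * D1 (D1 (D2 w)) x))) := by
  have hcc := contDiff_cc hw hu hpos
  have h1 := (line (diff (contDiff_f2 hw hu hpos) x) (1, 0)).mul
    (line (diff (contDiff_qq hw hu hpos) x) (1, 0))
  have h2 := (line (diff (contDiff_D1 hu) x) (1, 0)).neg.add
    ((line (diff hcc x) (1, 0)).mul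
      (((line (diff (contDiff_D1 hw) x) (1, 0)).mul
        (line (diff (contDiff_D2 (contDiff_D2 hw)) x) (1, 0))).sub
        ((line (diff (contDiff_D2 hw) x) (1, 0)).mul
        (line (diff (contDiff_D1 (contDiff_D2 hw)) x) (1, 0)))))
  have h3 : (fun t : ℝ => f2 ε w u (x + t • (1, 0))) * (fun t : ℝ => qq ε w u (x + t • (1, 0))) =
      -(fun t : ℝ => D1 u (x + t • (1, 0))) + (fun t : ℝ => cc ε w u (x + t • (1, 0))) *
        ((fun t : ℝ => D1 w (x + t • (1, 0))) * (fun t : ℝ => D2 (D2 w) (x + t • (1, 0))) -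
        (fun t : ℝ => D2 w (x + t • (1, 0))) * (fun t : ℝ => D1 (D2 w) (x + t • (1, 0)))) := by
    funext t
    simp only [Pi.mul_apply, Pi.add_apply, Pi.sub_apply, Pi.neg_apply]
    unfold f2
    rw [div_mul_cancel₀ _ (qq_pos hpos _).ne']
  rw [h3] at h1
  have h4 := h1.unique h2
  simp only [Pi.mul_apply, Pi.sub_apply, zero_smul, add_zero] at h4
  unfold D1 at h4 ⊢
  linarith [h4]

end Geom

theorem curl_f {ε : ℝ} {w u : ℝ × ℝ → ℝ} (hw : ContDiff ℝ ∞ w) (hu : ContDiff ℝ ∞ u)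
    (hpos : Pos ε w u) (x : ℝ × ℝ) :
    qq ε w u x ^ 3 * (D2 (f1 ε w u) x - D1 (f2 ε w u) x) =
      (1 - ε * Real.exp (2 * u x) * (D1 w x ^ 2 + D2 w x ^ 2)) * (D1 (D1 u) x + D2 (D2 u) x) -
        ε * Real.exp (2 * u x) * brk w u x := by
  have h1 := deriv_f1 hw hu hpos x
  have h2 := deriv_f2 hw hu hpos x
  have h3 := qq_sq hpos x
  have h4 := cc_mul hpos x
  have h5 := cc_s hpos x
  have h6 := deriv_qq hw hu hpos x (0, 1)
  have h7 := deriv_qq hw hu hpos x (1, 0)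
  have hcc := contDiff_cc hw hu hpos
  have h8 := deriv_cc hw hu hpos hcc x (0, 1)
  have h9 := deriv_cc hw hu hpos hcc x (1, 0)
  have e1 : fderiv ℝ (D1 w) x (0, 1) = D1 (D2 w) x := D_comm hw x
  have h10 : f1 ε w u x * qq ε w u x =
      D2 u x + cc ε w u x * (D1 w x * D1 (D2 w) x - D2 w x * D1 (D1 w) x) := by
    unfold f1
    rw [div_mul_cancel₀ _ (qq_pos hpos x).ne']
  have h11 : f2 ε w u x * qq ε w u x =
      -D1 u x + cc ε w u x * (D1 w x * D2 (D2 w) x - D2 w x * D1 (D2 w) x) := by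
    unfold f2
    rw [div_mul_cancel₀ _ (qq_pos hpos x).ne']
  rw [e1] at h6 h8
  change D2 (qq ε w u) x * _ = _ at h6
  change D1 (qq ε w u) x * _ = _ at h7
  change D2 (cc ε w u) x * _ = _ at h8
  change D1 (cc ε w u) x * _ = _ at h9
  change _ = - (cc ε w u x * (1 + qq ε w u x)) * (D2 u x * (D1 w x ^ 2 + D2 w x ^ 2)
    + (D1 w x * D1 (D2 w) x + D2 w x * D2 (D2 w) x)) at h6
  change _ = - (cc ε w u x * (1 + qq ε w u x)) * (D1 u x * (D1 w x ^ 2 + D2 w x ^ 2)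
    + (D1 w x * D1 (D1 w) x + D2 w x * D1 (D2 w) x)) at h7
  change _ = cc ε w u x * ((1 + qq ε w u x) * D2 u x
    + cc ε w u x * (D1 w x * D1 (D2 w) x + D2 w x * D2 (D2 w) x)) at h8
  change _ = cc ε w u x * ((1 + qq ε w u x) * D1 u x
    + cc ε w u x * (D1 w x * D1 (D1 w) x + D2 w x * D1 (D2 w) x)) at h9
  rw [← h3, ← h4]
  unfold brk
  generalize D2 (f1 ε w u) x = F1 at *
  generalize D1 (f2 ε w u) x = F2 at *
  generalize f1 ε w u x = g1 at *
  generalize f2 ε w u x = g2 at *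
  generalize D2 (qq ε w u) x = q2 at *
  generalize D1 (qq ε w u) x = q1 at *
  generalize D2 (cc ε w u) x = c2 at *
  generalize D1 (cc ε w u) x = c1 at *
  generalize qq ε w u x = q at *
  generalize cc ε w u x = c at *
  generalize D1 (D2 (D2 w)) x = w122 at *
  generalize D1 (D1 (D2 w)) x = w112 at *
  generalize D1 (D2 w) x = w12 at *
  generalize D1 (D1 w) x = w11 at *
  generalize D2 (D2 w) x = w22 at *
  generalize D1 w x = w1 at *
  generalize D2 w x = w2 at *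
  generalize D1 (D1 u) x = u11 at *
  generalize D2 (D2 u) x = u22 at *
  generalize D1 u x = u1 at *
  generalize D2 u x = u2 at *
  have k1 : q ^ 3 * (F1 - F2) = q ^ 2 * (u11 + u22) +
      q * ((c2 * q) * (w1 * w12 - w2 * w11) - (c1 * q) * (w1 * w22 - w2 * w12)) +
      2 * q ^ 2 * c * (w12 ^ 2 - w11 * w22) -
      (u2 + c * (w1 * w12 - w2 * w11)) * (q2 * q) +
      (-u1 + c * (w1 * w22 - w2 * w12)) * (q1 * q) := by
    linear_combination q ^ 2 * h1 - q ^ 2 * h2 - q * q2 * h10 + q * q1 * h11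
  rw [k1, h6, h7, h8, h9, h5]
  ring

/-- `|dZ|² = e^{-2u} |dx|² - ε dw²` -/
theorem norm_PQ {ε : ℝ} {w u φ : ℝ × ℝ → ℝ} (hpos : Pos ε w u) (x a : ℝ × ℝ) :
    ‖(a.1 : ℂ) * PP ε w u φ x + (a.2 : ℂ) * QQ ε w u φ x‖ ^ 2 =
      Real.exp (-2 * u x) * (a.1 ^ 2 + a.2 ^ 2) - ε * (a.1 * D1 w x + a.2 * D2 w x) ^ 2 := by
  have h1 : (a.1 : ℂ) * PP ε w u φ x + (a.2 : ℂ) * QQ ε w u φ x =
      Complex.exp (Complex.I * φ x - u x) *
      (((a.1 - cc ε w u x * (a.1 * D1 w x + a.2 * D2 w x) * D1 w x : ℝ) : ℂ) +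
        ((a.2 - cc ε w u x * (a.1 * D1 w x + a.2 * D2 w x) * D2 w x : ℝ) : ℂ) * Complex.I) := by
    unfold PP QQ
    push_cast
    ring
  have h2 : ‖Complex.exp (Complex.I * φ x - u x)‖ ^ 2 = Real.exp (-2 * u x) := by
    rw [Complex.norm_exp, ← Real.exp_nat_mul]
    congr 1
    simp
  have h3 := cc_mul hpos x
  have h5 := cc_s hpos x
  have h6 : Real.exp (-2 * u x) * Real.exp (2 * u x) = 1 := by
    rw [← Real.exp_add]; simp
  rw [h1, norm_mul, mul_pow, h2, Complex.sq_norm, Complex.normSq_add_mul_I]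
  have h7 : (a.1 - cc ε w u x * (a.1 * D1 w x + a.2 * D2 w x) * D1 w x) ^ 2 +
      (a.2 - cc ε w u x * (a.1 * D1 w x + a.2 * D2 w x) * D2 w x) ^ 2 =
      (a.1 ^ 2 + a.2 ^ 2) - ε * Real.exp (2 * u x) * (a.1 * D1 w x + a.2 * D2 w x) ^ 2 := by
    rw [← h3, h5]
    ring
  rw [h7]
  linear_combination -(ε * (a.1 * D1 w x + a.2 * D2 w x) ^ 2) * h6

namespace Geom

theorem contDiff_PP {φ : ℝ × ℝ → ℝ} (hw : ContDiff ℝ ∞ w) (hu : ContDiff ℝ ∞ u)
    (hφ : ContDiff ℝ ∞ φ) (hpos : Pos ε w u) : ContDiff ℝ ∞ (PP ε w u φ) := by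
  have hc := contDiff_cc hw hu hpos
  have hof : ∀ {f : ℝ × ℝ → ℝ}, ContDiff ℝ ∞ f → ContDiff ℝ ∞ fun x => (f x : ℂ) :=
    fun h => Complex.ofRealCLM.contDiff.comp h
  unfold PP
  exact (((contDiff_const.mul (hof hφ)).sub (hof hu)).cexp).mul
    (contDiff_const.sub (((hof hc).mul (hof (contDiff_D1 hw))).mul
      ((hof (contDiff_D1 hw)).add (contDiff_const.mul (hof (contDiff_D2 hw))))))

theorem contDiff_QQ {φ : ℝ × ℝ → ℝ} (hw : ContDiff ℝ ∞ w) (hu : ContDiff ℝ ∞ u)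
    (hφ : ContDiff ℝ ∞ φ) (hpos : Pos ε w u) : ContDiff ℝ ∞ (QQ ε w u φ) := by
  have hc := contDiff_cc hw hu hpos
  have hof : ∀ {f : ℝ × ℝ → ℝ}, ContDiff ℝ ∞ f → ContDiff ℝ ∞ fun x => (f x : ℂ) :=
    fun h => Complex.ofRealCLM.contDiff.comp h
  unfold QQ
  exact (((contDiff_const.mul (hof hφ)).sub (hof hu)).cexp).mul
    (contDiff_const.sub (((hof hc).mul (hof (contDiff_D2 hw))).mul
      ((hof (contDiff_D1 hw)).add (contDiff_const.mul (hof (contDiff_D2 hw))))))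

theorem deriv_PP {φ : ℝ × ℝ → ℝ} (hw : ContDiff ℝ ∞ w) (hu : ContDiff ℝ ∞ u)
    (hφ : ContDiff ℝ ∞ φ) (hpos : Pos ε w u) (x v : ℝ × ℝ) :
    fderiv ℝ (PP ε w u φ) x v = Complex.exp (Complex.I * φ x - u x) *
      ((Complex.I * (fderiv ℝ φ x v : ℝ) - (fderiv ℝ u x v : ℝ)) *
        (1 - cc ε w u x * D1 w x * (D1 w x + Complex.I * D2 w x)) -
        (((fderiv ℝ (cc ε w u) x v : ℝ) : ℂ) * D1 w x +
          cc ε w u x * (fderiv ℝ (D1 w) x v : ℝ)) * (D1 w x + Complex.I * D2 w x) -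
        cc ε w u x * D1 w x *
          ((fderiv ℝ (D1 w) x v : ℝ) + Complex.I * (fderiv ℝ (D2 w) x v : ℝ))) := by
  have hc := contDiff_cc hw hu hpos
  have k1 := (line (diff hφ x) v).ofReal_comp
  have k2 := (line (diff hu x) v).ofReal_comp
  have k3 := (line (diff hc x) v).ofReal_comp
  have k4 := (line (diff (contDiff_D1 hw) x) v).ofReal_comp
  have k5 := (line (diff (contDiff_D2 hw) x) v).ofReal_comp
  have k6 := (((k1.const_mul Complex.I).sub k2).cexp).mul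
    (((k3.mul k4).mul (k4.add (k5.const_mul Complex.I))).const_sub 1)
  have k7 := line (diff (contDiff_PP hw hu hφ hpos) x) v
  have k8 := k7.unique k6
  rw [k8]
  simp only [Pi.mul_apply, Pi.add_apply, Pi.sub_apply, zero_smul, add_zero]
  ring

theorem deriv_QQ {φ : ℝ × ℝ → ℝ} (hw : ContDiff ℝ ∞ w) (hu : ContDiff ℝ ∞ u)
    (hφ : ContDiff ℝ ∞ φ) (hpos : Pos ε w u) (x v : ℝ × ℝ) :
    fderiv ℝ (QQ ε w u φ) x v = Complex.exp (Complex.I * φ x - u x) *
      ((Complex.I * (fderiv ℝ φ x v : ℝ) - (fderiv ℝ u x v : ℝ)) *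
        (Complex.I - cc ε w u x * D2 w x * (D1 w x + Complex.I * D2 w x)) -
        (((fderiv ℝ (cc ε w u) x v : ℝ) : ℂ) * D2 w x +
          cc ε w u x * (fderiv ℝ (D2 w) x v : ℝ)) * (D1 w x + Complex.I * D2 w x) -
        cc ε w u x * D2 w x *
          ((fderiv ℝ (D1 w) x v : ℝ) + Complex.I * (fderiv ℝ (D2 w) x v : ℝ))) := by
  have hc := contDiff_cc hw hu hpos
  have k1 := (line (diff hφ x) v).ofReal_comp
  have k2 := (line (diff hu x) v).ofReal_comp
  have k3 := (line (diff hc x) v).ofReal_comp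
  have k4 := (line (diff (contDiff_D1 hw) x) v).ofReal_comp
  have k5 := (line (diff (contDiff_D2 hw) x) v).ofReal_comp
  have k6 := (((k1.const_mul Complex.I).sub k2).cexp).mul
    (((k3.mul k5).mul (k4.add (k5.const_mul Complex.I))).const_sub Complex.I)
  have k7 := line (diff (contDiff_QQ hw hu hφ hpos) x) v
  have k8 := k7.unique k6
  rw [k8]
  simp only [Pi.mul_apply, Pi.add_apply, Pi.sub_apply, zero_smul, add_zero]
  ring

/-- a continuous doubly periodic function is bounded -/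
theorem exists_bound {v₁ v₂ : ℝ × ℝ} (hv : dt v₁ v₂ ≠ 0) {f : ℝ × ℝ → ℝ} (hf : Continuous f)
    (hp : Per v₁ v₂ f) : ∃ C : ℝ, ∀ x, |f x| ≤ C := by
  have hcomp : IsCompact ((fun y : ℝ × ℝ => y.1 • v₁ + y.2 • v₂) ''
      (Set.Icc (0 : ℝ) 1 ×ˢ Set.Icc (0 : ℝ) 1)) :=
    (isCompact_Icc.prod isCompact_Icc).image (by fun_prop)
  obtain ⟨C, hC⟩ := hcomp.exists_bound_of_continuousOn hf.continuousOn
  refine ⟨C, fun x => ?_⟩
  have hint1 : ∀ (m : ℤ) (x : ℝ × ℝ), f (x + (m : ℝ) • v₁) = f x := by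
    intro m x
    induction m using Int.induction_on with
    | zero => simp
    | succ m ih =>
      rw [← ih, ← hp.1 (x + ((m : ℤ) : ℝ) • v₁)]
      congr 1
      push_cast
      module
    | pred m ih =>
      rw [← ih, ← hp.1 (x + ((-m - 1 : ℤ) : ℝ) • v₁)]
      congr 1
      push_cast
      module
  have hint2 : ∀ (m : ℤ) (x : ℝ × ℝ), f (x + (m : ℝ) • v₂) = f x := by
    intro m x
    induction m using Int.induction_on with
    | zero => simp
    | succ m ih =>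
      rw [← ih, ← hp.2 (x + ((m : ℤ) : ℝ) • v₂)]
      congr 1
      push_cast
      module
    | pred m ih =>
      rw [← ih, ← hp.2 (x + ((-m - 1 : ℤ) : ℝ) • v₂)]
      congr 1
      push_cast
      module
  set s : ℝ := (x.1 * v₂.2 - x.2 * v₂.1) / dt v₁ v₂ with hs
  set t : ℝ := (-(x.1 * v₁.2) + x.2 * v₁.1) / dt v₁ v₂ with ht
  have hx : x = s • v₁ + t • v₂ := by
    ext
    · simp only [Prod.fst_add, Prod.smul_fst, smul_eq_mul, hs, ht]
      rw [div_mul_eq_mul_div, div_mul_eq_mul_div, ← add_div, eq_div_iff hv]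
      unfold dt
      ring
    · simp only [Prod.snd_add, Prod.smul_snd, smul_eq_mul, hs, ht]
      rw [div_mul_eq_mul_div, div_mul_eq_mul_div, ← add_div, eq_div_iff hv]
      unfold dt
      ring
  have h1 : f x = f (Int.fract s • v₁ + Int.fract t • v₂) := by
    have e0 : x = (Int.fract s • v₁ + Int.fract t • v₂) + (⌊s⌋ : ℝ) • v₁ + (⌊t⌋ : ℝ) • v₂ := by
      rw [hx]
      unfold Int.fract
      module
    exact (congrArg f e0).trans ((hint2 _ _).trans (hint1 _ _))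
  rw [h1, ← Real.norm_eq_abs]
  apply hC
  refine ⟨(Int.fract s, Int.fract t), ⟨⟨Int.fract_nonneg _, (Int.fract_lt_one _).le⟩,
    ⟨Int.fract_nonneg _, (Int.fract_lt_one _).le⟩⟩, rfl⟩

theorem per_D1 {v₁ v₂ : ℝ × ℝ} {f : ℝ × ℝ → ℝ} (hp : Per v₁ v₂ f) : Per v₁ v₂ (D1 f) := by
  have h : ∀ v : ℝ × ℝ, (∀ x, f (x + v) = f x) → ∀ x, D1 f (x + v) = D1 f x := by
    intro v hv x
    unfold D1
    have h1 : (fun y => f (y + v)) = f := funext hv
    rw [← fderiv_comp_add_right v, h1]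
  exact ⟨h _ hp.1, h _ hp.2⟩

theorem per_D2 {v₁ v₂ : ℝ × ℝ} {f : ℝ × ℝ → ℝ} (hp : Per v₁ v₂ f) : Per v₁ v₂ (D2 f) := by
  have h : ∀ v : ℝ × ℝ, (∀ x, f (x + v) = f x) → ∀ x, D2 f (x + v) = D2 f x := by
    intro v hv x
    unfold D2
    have h1 : (fun y => f (y + v)) = f := funext hv
    rw [← fderiv_comp_add_right v, h1]
  exact ⟨h _ hp.1, h _ hp.2⟩

theorem per_qq {v₁ v₂ : ℝ × ℝ} (hpw : Per v₁ v₂ w) (hpu : Per v₁ v₂ u) :
    Per v₁ v₂ (qq ε w u) := by
  have h1 := per_D1 hpw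
  have h2 := per_D2 hpw
  constructor
  · intro x
    unfold qq
    rw [hpu.1, h1.1, h2.1]
  · intro x
    unfold qq
    rw [hpu.2, h1.2, h2.2]

theorem per_cc {v₁ v₂ : ℝ × ℝ} (hpw : Per v₁ v₂ w) (hpu : Per v₁ v₂ u) :
    Per v₁ v₂ (cc ε w u) := by
  have h1 := per_qq (ε := ε) hpw hpu
  constructor
  · intro x
    unfold cc
    rw [hpu.1, h1.1]
  · intro x
    unfold cc
    rw [hpu.2, h1.2]

theorem per_f1 {v₁ v₂ : ℝ × ℝ} (hpw : Per v₁ v₂ w) (hpu : Per v₁ v₂ u) :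
    Per v₁ v₂ (f1 ε w u) := by
  have h1 := per_qq (ε := ε) hpw hpu
  have h2 := per_cc (ε := ε) hpw hpu
  have h3 := per_D1 hpw
  have h4 := per_D2 hpw
  have h5 := per_D1 h3
  have h6 := per_D1 h4
  have h7 := per_D2 hpu
  constructor
  · intro x
    unfold f1
    rw [h1.1, h2.1, h3.1, h4.1, h5.1, h6.1, h7.1]
  · intro x
    unfold f1
    rw [h1.2, h2.2, h3.2, h4.2, h5.2, h6.2, h7.2]

theorem per_f2 {v₁ v₂ : ℝ × ℝ} (hpw : Per v₁ v₂ w) (hpu : Per v₁ v₂ u) :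
    Per v₁ v₂ (f2 ε w u) := by
  have h1 := per_qq (ε := ε) hpw hpu
  have h2 := per_cc (ε := ε) hpw hpu
  have h3 := per_D1 hpw
  have h4 := per_D2 hpw
  have h5 := per_D2 h4
  have h6 := per_D1 h4
  have h7 := per_D1 hpu
  constructor
  · intro x
    unfold f2
    rw [h1.1, h2.1, h3.1, h4.1, h5.1, h6.1, h7.1]
  · intro x
    unfold f2
    rw [h1.2, h2.2, h3.2, h4.2, h5.2, h6.2, h7.2]

/-- Green's theorem on the squares `[0,R]²`: a curl of bounded functions which has the form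
`-c / q ^ 3` with `q` bounded is zero. -/
theorem green_zero {f g q : ℝ × ℝ → ℝ} {c C Q : ℝ} (hf : ContDiff ℝ ∞ f) (hg : ContDiff ℝ ∞ g)
    (hfC : ∀ x, |f x| ≤ C) (hgC : ∀ x, |g x| ≤ C) (hq : Continuous q) (hq0 : ∀ x, 0 < q x)
    (hqQ : ∀ x, q x ≤ Q) (h : ∀ x, q x ^ 3 * (D2 f x - D1 g x) = -c) : c = 0 := by
  have hQ : 0 < Q := (hq0 0).trans_le (hqQ 0)
  have hC : 0 ≤ C := (abs_nonneg _).trans (hfC 0)
  have key : ∀ R : ℝ, 0 < R → |c| * R ≤ 4 * C * Q ^ 3 := by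
    intro R hR
    have hcont : Continuous fun x : ℝ × ℝ => -D1 g x + D2 f x :=
      (contDiff_D1 hg).continuous.neg.add (contDiff_D2 hf).continuous
    have hG := MeasureTheory.integral2_divergence_prod_of_hasFDerivAt (fun x => -g x) f
      (fun x => -fderiv ℝ g x) (fun x => fderiv ℝ f x) 0 0 R R hg.continuous.neg.continuousOn
      hf.continuous.continuousOn (fun x _ => (diff hg x).hasFDerivAt.neg)
      (fun x _ => (diff hf x).hasFDerivAt)
      (by
        have : (fun x : ℝ × ℝ => (-fderiv ℝ g x) (1, 0) + (fderiv ℝ f x) (0, 1)) =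
            fun x => -D1 g x + D2 f x := by
          funext x; rfl
        rw [this]
        exact (hcont.continuousOn).integrableOn_compact (isCompact_uIcc.prod isCompact_uIcc))
    have e1 : ∀ x : ℝ × ℝ, (-fderiv ℝ g x) (1, 0) + (fderiv ℝ f x) (0, 1) = -c / q x ^ 3 := by
      intro x
      have h1 := h x
      have h2 := hq0 x
      change -D1 g x + D2 f x = _
      rw [eq_div_iff (by positivity)]
      linarith
    simp only [e1] at hG
    have bnd : ∀ k : ℝ → ℝ, (∀ x, |k x| ≤ C) → |∫ x in (0 : ℝ)..R, k x| ≤ C * R := by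
      intro k hk
      have := intervalIntegral.norm_integral_le_of_norm_le_const (a := 0) (b := R) (C := C)
        (f := k) (fun x _ => hk x)
      rwa [Real.norm_eq_abs, sub_zero, abs_of_pos hR] at this
    have hR' : |∫ x in (0 : ℝ)..R, ∫ y in (0 : ℝ)..R, -c / q (x, y) ^ 3| ≤ 4 * (C * R) := by
      rw [hG]
      have b1 := bnd (fun x => f (x, R)) (fun x => hfC _)
      have b2 := bnd (fun x => f (x, 0)) (fun x => hfC _)
      have b3 := bnd (fun y => -g (R, y)) (fun x => by rw [abs_neg]; exact hgC _)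
      have b4 := bnd (fun y => -g (0, y)) (fun x => by rw [abs_neg]; exact hgC _)
      rw [abs_le] at b1 b2 b3 b4 ⊢
      constructor <;> linarith [b1.1, b1.2, b2.1, b2.2, b3.1, b3.2, b4.1, b4.2]
    have hI : (∫ x in (0 : ℝ)..R, ∫ y in (0 : ℝ)..R, -c / q (x, y) ^ 3) =
        -c * ∫ x in (0 : ℝ)..R, ∫ y in (0 : ℝ)..R, (q (x, y) ^ 3)⁻¹ := by
      simp only [div_eq_mul_inv, intervalIntegral.integral_const_mul]
    have hcq : Continuous fun p : ℝ × ℝ => (q p ^ 3)⁻¹ :=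
      (hq.pow 3).inv₀ fun x => (pow_pos (hq0 x) 3).ne'
    have hin : ∀ x : ℝ, R * (Q ^ 3)⁻¹ ≤ ∫ y in (0 : ℝ)..R, (q (x, y) ^ 3)⁻¹ := by
      intro x
      have h1 := intervalIntegral.integral_mono_on (a := 0) (b := R)
        (f := fun _ => (Q ^ 3)⁻¹) (g := fun y => (q (x, y) ^ 3)⁻¹) (μ := MeasureTheory.volume) hR.le
        (continuous_const.intervalIntegrable _ _)
        ((hcq.comp (Continuous.prodMk_right x)).intervalIntegrable _ _)
        (fun y _ => inv_anti₀ (pow_pos (hq0 _) 3) (pow_le_pow_left₀ (hq0 _).le (hqQ _) 3))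
      refine le_trans (le_of_eq ?_) h1
      simp
    have hout : R * (R * (Q ^ 3)⁻¹) ≤
        ∫ x in (0 : ℝ)..R, ∫ y in (0 : ℝ)..R, (q (x, y) ^ 3)⁻¹ := by
      have h1 := intervalIntegral.integral_mono_on (a := 0) (b := R)
        (f := fun _ => R * (Q ^ 3)⁻¹) (g := fun x => ∫ y in (0 : ℝ)..R, (q (x, y) ^ 3)⁻¹)
        (μ := MeasureTheory.volume) hR.le
        (continuous_const.intervalIntegrable _ _)
        ((intervalIntegral.continuous_parametric_intervalIntegral_of_continuous'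
          (f := fun x y => (q (x, y) ^ 3)⁻¹) hcq 0 R).intervalIntegrable _ _)
        (fun x _ => hin x)
      refine le_trans (le_of_eq ?_) h1
      simp
    rw [hI, abs_mul, abs_neg] at hR'
    have h2 : |c| * (R * (R * (Q ^ 3)⁻¹)) ≤ 4 * (C * R) := by
      refine le_trans ?_ hR'
      exact mul_le_mul_of_nonneg_left (hout.trans (le_abs_self _)) (abs_nonneg c)
    have h3 : |c| * (R * (R * (Q ^ 3)⁻¹)) * (Q ^ 3) = |c| * R * R := by
      field_simp
    have h4 : |c| * R * R ≤ 4 * C * Q ^ 3 * R := by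
      rw [← h3]
      have := mul_le_mul_of_nonneg_right h2 (pow_nonneg hQ.le 3)
      linarith
    exact le_of_mul_le_mul_right h4 hR
  by_contra hc
  have hc' : 0 < |c| := abs_pos.2 hc
  have h5 := key ((4 * C * Q ^ 3 + 1) / |c|) (by positivity)
  rw [mul_div_cancel₀ _ hc'.ne'] at h5
  linarith

end Geom

/-- Stokes on the squares `[0,R]²`: `f1`, `f2` are bounded, the curl has constant sign. -/
theorem const_eq_zero {v₁ v₂ : ℝ × ℝ} (hv : dt v₁ v₂ ≠ 0) {ε c : ℝ} {w u : ℝ × ℝ → ℝ}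
    (hw : ContDiff ℝ ∞ w) (hu : ContDiff ℝ ∞ u) (hpw : Per v₁ v₂ w) (hpu : Per v₁ v₂ u)
    (hpos : Pos ε w u) (h : PDE ε c w u) : c = 0 := by
  obtain ⟨C1, hC1⟩ := exists_bound hv (contDiff_f1 hw hu hpos).continuous (per_f1 hpw hpu)
  obtain ⟨C2, hC2⟩ := exists_bound hv (contDiff_f2 hw hu hpos).continuous (per_f2 hpw hpu)
  obtain ⟨Q, hQ⟩ := exists_bound hv (contDiff_qq hw hu hpos).continuous (per_qq hpw hpu)
  refine green_zero (C := max C1 C2) (Q := Q) (contDiff_f1 hw hu hpos) (contDiff_f2 hw hu hpos)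
    (fun x => (hC1 x).trans (le_max_left _ _)) (fun x => (hC2 x).trans (le_max_right _ _))
    (contDiff_qq hw hu hpos).continuous (qq_pos hpos) (fun x => (le_abs_self _).trans (hQ x))
    fun x => ?_
  rw [curl_f hw hu hpos, h x]
  ring

/-- the form `PP dx₁ + QQ dx₂` is closed -/
theorem closed_PQ {ε : ℝ} {w u φ : ℝ × ℝ → ℝ} (hw : ContDiff ℝ ∞ w) (hu : ContDiff ℝ ∞ u)
    (hφ : ContDiff ℝ ∞ φ) (hpos : Pos ε w u) (h1 : D1 φ = f1 ε w u) (h2 : D2 φ = f2 ε w u)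
    (x : ℝ × ℝ) : D2 (PP ε w u φ) x = D1 (QQ ε w u φ) x := by
  have hcc := contDiff_cc hw hu hpos
  have hP := deriv_PP hw hu hφ hpos x (0, 1)
  have hQ := deriv_QQ hw hu hφ hpos x (1, 0)
  have h5 := cc_s hpos x
  have hq := qq_pos hpos x
  have h8 := deriv_cc hw hu hpos hcc x (0, 1)
  have h9 := deriv_cc hw hu hpos hcc x (1, 0)
  have e1 : fderiv ℝ (D1 w) x (0, 1) = D1 (D2 w) x := D_comm hw x
  have h10 : f1 ε w u x * qq ε w u x =
      D2 u x + cc ε w u x * (D1 w x * D1 (D2 w) x - D2 w x * D1 (D1 w) x) := by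
    unfold f1
    rw [div_mul_cancel₀ _ (qq_pos hpos x).ne']
  have h11 : f2 ε w u x * qq ε w u x =
      -D1 u x + cc ε w u x * (D1 w x * D2 (D2 w) x - D2 w x * D1 (D2 w) x) := by
    unfold f2
    rw [div_mul_cancel₀ _ (qq_pos hpos x).ne']
  have e2 : fderiv ℝ φ x (0, 1) = f2 ε w u x := by
    have := congrFun h2 x
    exact this
  have e3 : fderiv ℝ φ x (1, 0) = f1 ε w u x := by
    have := congrFun h1 x
    exact this
  rw [e1] at h8 hP
  rw [e2] at hP
  rw [e3] at hQ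
  change D2 (PP ε w u φ) x = _ at hP
  change D1 (QQ ε w u φ) x = _ at hQ
  rw [hP, hQ]
  congr 1
  change D2 (cc ε w u) x * _ = cc ε w u x * ((1 + qq ε w u x) * D2 u x
    + cc ε w u x * (D1 w x * D1 (D2 w) x + D2 w x * D2 (D2 w) x)) at h8
  change D1 (cc ε w u) x * _ = cc ε w u x * ((1 + qq ε w u x) * D1 u x
    + cc ε w u x * (D1 w x * D1 (D1 w) x + D2 w x * D1 (D2 w) x)) at h9
  change (Complex.I * (f2 ε w u x) - (D2 u x : ℝ)) *
        (1 - cc ε w u x * D1 w x * (D1 w x + Complex.I * D2 w x)) -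
        (((D2 (cc ε w u) x : ℝ) : ℂ) * D1 w x +
          cc ε w u x * (D1 (D2 w) x : ℝ)) * (D1 w x + Complex.I * D2 w x) -
        cc ε w u x * D1 w x *
          ((D1 (D2 w) x : ℝ) + Complex.I * (D2 (D2 w) x : ℝ)) =
    (Complex.I * (f1 ε w u x) - (D1 u x : ℝ)) *
        (Complex.I - cc ε w u x * D2 w x * (D1 w x + Complex.I * D2 w x)) -
        (((D1 (cc ε w u) x : ℝ) : ℂ) * D2 w x +
          cc ε w u x * (D1 (D2 w) x : ℝ)) * (D1 w x + Complex.I * D2 w x) -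
        cc ε w u x * D2 w x *
          ((D1 (D1 w) x : ℝ) + Complex.I * (D1 (D2 w) x : ℝ))
  clear hP hQ e1 e2 e3 h1 h2
  generalize f1 ε w u x = g1 at *
  generalize f2 ε w u x = g2 at *
  generalize D2 (cc ε w u) x = c2 at *
  generalize D1 (cc ε w u) x = c1 at *
  generalize qq ε w u x = q at *
  generalize cc ε w u x = c at *
  generalize D1 (D2 w) x = w12 at *
  generalize D1 (D1 w) x = w11 at *
  generalize D2 (D2 w) x = w22 at *
  generalize D1 w x = w1 at *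
  generalize D2 w x = w2 at *
  generalize D1 u x = u1 at *
  generalize D2 u x = u2 at *
  subst h5
  apply Complex.ext
  · simp only [Complex.sub_re, Complex.add_re, Complex.mul_re, Complex.sub_im, Complex.add_im,
      Complex.mul_im, Complex.ofReal_re, Complex.ofReal_im, Complex.I_re, Complex.I_im,
      Complex.one_re, Complex.one_im]
    apply mul_left_cancel₀ hq.ne'
    linear_combination (c * w1 * w2) * h11 - w1 ^ 2 * h8 + (1 - c * w2 ^ 2) * h10 + w1 * w2 * h9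
  · simp only [Complex.sub_re, Complex.add_re, Complex.mul_re, Complex.sub_im, Complex.add_im,
      Complex.mul_im, Complex.ofReal_re, Complex.ofReal_im, Complex.I_re, Complex.I_im,
      Complex.one_re, Complex.one_im]
    apply mul_left_cancel₀ hq.ne'
    linear_combination (1 - c * w1 ^ 2) * h11 - w1 * w2 * h8 + c * w1 * w2 * h10 + w2 ^ 2 * h9

end Vale.Agent.P205
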