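import Vale.Agent.Lib.P205.Basic

/-!
# P205, module FOUR: Fourier series of smooth doubly periodic functions
-/

open scoped ContDiff
open MeasureTheory

namespace Vale.Agent.P205

namespace Four

/-- one-dimensional exponentials -/
noncomputable def ex (k : ℤ) (y : ℝ) : ℂ := Complex.exp (2 * Real.pi * Complex.I * k * y)

theorem norm_ex (k : ℤ) (y : ℝ) : ‖ex k y‖ = 1 := by
  unfold ex
  have h : 2 * (Real.pi : ℂ) * Complex.I * k * y = ((2 * Real.pi * k * y : ℝ) : ℂ) * Complex.I := by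
    push_cast
    ring
  rw [h, Complex.norm_exp_ofReal_mul_I]

theorem ex_zero_arg (k : ℤ) : ex k 0 = 1 := by
  unfold ex
  simp

theorem ex_one_arg (k : ℤ) : ex k 1 = 1 := by
  unfold ex
  rw [show 2 * (Real.pi : ℂ) * Complex.I * k * ((1 : ℝ) : ℂ) = k * (2 * Real.pi * Complex.I) by
    push_cast; ring]
  exact Complex.exp_int_mul_two_pi_mul_I k

theorem continuous_ex (k : ℤ) : Continuous (ex k) := by
  unfold ex
  fun_prop

theorem hasDerivAt_ex (k : ℤ) (y : ℝ) :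
    HasDerivAt (ex k) (2 * Real.pi * Complex.I * k * ex k y) y := by
  unfold ex
  have h1 : HasDerivAt (fun y : ℝ => 2 * (Real.pi : ℂ) * Complex.I * k * (y : ℂ))
      (2 * (Real.pi : ℂ) * Complex.I * k * 1) y :=
    (Complex.ofRealCLM.hasDerivAt (x := y)).const_mul _
  have h2 := h1.cexp
  refine h2.congr_deriv ?_
  ring

/-- one-dimensional Fourier coefficients -/
noncomputable def fc (g : ℝ → ℂ) (k : ℤ) : ℂ := ∫ s in (0 : ℝ)..1, ex (-k) s * g s

theorem hasSum_fc {g : ℝ → ℂ} (hg : Continuous g) (hp : ∀ x, g (x + 1) = g x)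
    (hs : Summable (fc g)) (x : ℝ) : HasSum (fun k => fc g k * ex k x) (g x) := by
  have : Fact ((0 : ℝ) < 1) := ⟨one_pos⟩
  have hper : Function.Periodic g 1 := hp
  let f : C(AddCircle (1 : ℝ), ℂ) := ⟨hper.lift, continuous_coinduced_dom.mpr hg⟩
  have hf : ∀ y : ℝ, f (y : AddCircle (1 : ℝ)) = g y := fun y => rfl
  have hc : ∀ k, fourierCoeff f k = fc g k := by
    intro k
    rw [fourierCoeff_eq_intervalIntegral f k 0]
    unfold fc
    rw [one_div, inv_one, one_smul, zero_add]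
    apply intervalIntegral.integral_congr
    intro s _
    simp only [fourier_coe_apply, hf, smul_eq_mul, ex]
    simp
  have hs' : Summable (fourierCoeff f) := by
    have : fourierCoeff f = fc g := funext hc
    rw [this]
    exact hs
  have h1 := has_pointwise_sum_fourier_series_of_summable hs' (x : AddCircle (1 : ℝ))
  rw [hf] at h1
  have h2 : (fun k => fc g k * ex k x) =
      fun i => fourierCoeff f i • (fourier i) (x : AddCircle (1 : ℝ)) := by
    funext k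
    rw [hc k, fourier_coe_apply, smul_eq_mul]
    unfold ex
    simp
  rw [h2]
  exact h1

/-- integration by parts -/
theorem fc_deriv {g g' : ℝ → ℂ} (hg : ∀ x, HasDerivAt g (g' x) x) (hg' : Continuous g')
    (hp : ∀ x, g (x + 1) = g x) (k : ℤ) :
    fc g' k = 2 * Real.pi * Complex.I * k * fc g k := by
  unfold fc
  rw [intervalIntegral.integral_mul_deriv_eq_deriv_mul
    (u := ex (-k)) (v := g) (u' := fun s => 2 * Real.pi * Complex.I * ((-k : ℤ) : ℂ) * ex (-k) s)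
    (v' := g') (fun s _ => hasDerivAt_ex (-k) s) (fun s _ => hg s)
    (Continuous.intervalIntegrable (continuous_const.mul (continuous_ex _)) _ _)
    (hg'.intervalIntegrable _ _)]
  have h1 : g 1 = g 0 := by
    have := hp 0
    rwa [zero_add] at this
  rw [ex_zero_arg, ex_one_arg, h1, sub_self, zero_sub, ← intervalIntegral.integral_neg,
    ← intervalIntegral.integral_const_mul]
  apply intervalIntegral.integral_congr
  intro s _
  simp only
  push_cast
  ring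

theorem norm_fc_le {g : ℝ → ℂ} {C : ℝ} (hC : ∀ s ∈ Set.Icc (0 : ℝ) 1, ‖g s‖ ≤ C) (k : ℤ) :
    ‖fc g k‖ ≤ C := by
  unfold fc
  have h1 := intervalIntegral.norm_integral_le_of_norm_le_const (a := (0 : ℝ)) (b := 1) (C := C)
    (f := fun s => ex (-k) s * g s) (fun s hs => by
      rw [Set.uIoc_of_le zero_le_one] at hs
      rw [norm_mul, norm_ex, one_mul]
      exact hC s ⟨hs.1.le, hs.2⟩)
  simpa using h1

theorem conj_ex (k : ℤ) (y : ℝ) : (starRingEnd ℂ) (ex k y) = ex (-k) y := by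
  unfold ex
  rw [← Complex.exp_conj]
  congr 1
  simp only [map_mul, Complex.conj_ofReal, Complex.conj_I, map_intCast, map_ofNat]
  push_cast
  ring

theorem conj_fc (g : ℝ → ℂ) (k : ℤ) :
    (starRingEnd ℂ) (fc g k) = fc (fun s => (starRingEnd ℂ) (g s)) (-k) := by
  unfold fc
  rw [← intervalIntegral.intervalIntegral_conj]
  apply intervalIntegral.integral_congr
  intro s _
  simp only [map_mul, conj_ex]

/-- two-dimensional Fourier coefficients -/
noncomputable def c2 (W : ℝ × ℝ → ℂ) (k : ℤ × ℤ) : ℂ :=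
  fc (fun t => fc (fun s => W (s, t)) k.1) k.2

theorem c2_swap {W : ℝ × ℝ → ℂ} (hW : Continuous W) (k : ℤ × ℤ) :
    c2 W k = fc (fun s => fc (fun t => W (s, t)) k.2) k.1 := by
  unfold c2 fc
  simp only [← intervalIntegral.integral_const_mul]
  rw [MeasureTheory.intervalIntegral_intervalIntegral_swap]
  · apply intervalIntegral.integral_congr
    intro s _
    apply intervalIntegral.integral_congr
    intro t _
    simp only
    ring
  · have h1 : Continuous (Function.uncurry fun t s : ℝ => ex (-k.2) t * (ex (-k.1) s * W (s, t))) := by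
      have h2 := continuous_ex (-k.2)
      have h3 := continuous_ex (-k.1)
      fun_prop
    have h2 : MeasureTheory.IntegrableOn
        (Function.uncurry fun t s : ℝ => ex (-k.2) t * (ex (-k.1) s * W (s, t)))
        (Set.Icc 0 1 ×ˢ Set.Icc 0 1) :=
      h1.continuousOn.integrableOn_compact (isCompact_Icc.prod isCompact_Icc)
    rw [Set.uIoc_of_le zero_le_one]
    exact h2.mono_set (Set.prod_mono Set.Ioc_subset_Icc_self Set.Ioc_subset_Icc_self)

/-- smooth and doubly periodic -/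
def SP (W : ℝ × ℝ → ℂ) : Prop := ContDiff ℝ ∞ W ∧ Per (1, 0) (0, 1) W

theorem per_fderiv {W : ℝ × ℝ → ℂ} {v : ℝ × ℝ} (h : ∀ x, W (x + v) = W x) (x a : ℝ × ℝ) :
    fderiv ℝ W (x + v) a = fderiv ℝ W x a := by
  have h1 : W = fun x => W (x + v) := funext fun x => (h x).symm
  have h2 : fderiv ℝ (fun x => W (x + v)) x = fderiv ℝ W (x + v) := fderiv_comp_add_right v
  rw [← h1] at h2
  rw [h2]

theorem SP.D1 {W : ℝ × ℝ → ℂ} (h : SP W) : SP (D1 W) := by
  refine ⟨?_, ?_, ?_⟩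
  · exact (h.1.fderiv_right (m := ∞) (by simp)).clm_apply contDiff_const
  · intro x
    exact per_fderiv h.2.1 x _
  · intro x
    exact per_fderiv h.2.2 x _

theorem SP.D2 {W : ℝ × ℝ → ℂ} (h : SP W) : SP (D2 W) := by
  refine ⟨?_, ?_, ?_⟩
  · exact (h.1.fderiv_right (m := ∞) (by simp)).clm_apply contDiff_const
  · intro x
    exact per_fderiv h.2.1 x _
  · intro x
    exact per_fderiv h.2.2 x _

theorem hasDerivAt_fst {W : ℝ × ℝ → ℂ} (h : SP W) (s t : ℝ) :
    HasDerivAt (fun s => W (s, t)) (Vale.Agent.P205.D1 W (s, t)) s := by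
  have h1 : HasFDerivAt W (fderiv ℝ W (s, t)) (s, t) :=
    (h.1.differentiable (by simp) (s, t)).hasFDerivAt
  exact h1.comp_hasDerivAt s ((hasDerivAt_id s).prodMk (hasDerivAt_const s t))

theorem hasDerivAt_snd {W : ℝ × ℝ → ℂ} (h : SP W) (s t : ℝ) :
    HasDerivAt (fun t => W (s, t)) (Vale.Agent.P205.D2 W (s, t)) t := by
  have h1 : HasFDerivAt W (fderiv ℝ W (s, t)) (s, t) :=
    (h.1.differentiable (by simp) (s, t)).hasFDerivAt
  exact h1.comp_hasDerivAt t ((hasDerivAt_const t s).prodMk (hasDerivAt_id t))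

theorem c2_D1 {W : ℝ × ℝ → ℂ} (h : SP W) (k : ℤ × ℤ) :
    c2 (Vale.Agent.P205.D1 W) k = 2 * Real.pi * Complex.I * k.1 * c2 W k := by
  have h1 : ∀ t, fc (fun s => Vale.Agent.P205.D1 W (s, t)) k.1
      = 2 * Real.pi * Complex.I * k.1 * fc (fun s => W (s, t)) k.1 := by
    intro t
    apply fc_deriv (fun s => hasDerivAt_fst h s t)
    · have := h.D1.1.continuous
      fun_prop
    · intro s
      have := h.2.1 (s, t)
      simpa using this
  unfold c2
  simp only [h1]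
  unfold fc
  rw [← intervalIntegral.integral_const_mul]
  apply intervalIntegral.integral_congr
  intro t _
  simp only
  ring

theorem c2_D2 {W : ℝ × ℝ → ℂ} (h : SP W) (k : ℤ × ℤ) :
    c2 (Vale.Agent.P205.D2 W) k = 2 * Real.pi * Complex.I * k.2 * c2 W k := by
  have h1 : ∀ s, fc (fun t => Vale.Agent.P205.D2 W (s, t)) k.2
      = 2 * Real.pi * Complex.I * k.2 * fc (fun t => W (s, t)) k.2 := by
    intro s
    apply fc_deriv (fun t => hasDerivAt_snd h s t)
    · have := h.D2.1.continuous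
      fun_prop
    · intro t
      have := h.2.2 (s, t)
      simpa using this
  rw [c2_swap h.D2.1.continuous, c2_swap h.1.continuous]
  simp only [h1]
  unfold fc
  rw [← intervalIntegral.integral_const_mul]
  apply intervalIntegral.integral_congr
  intro t _
  simp only
  ring

theorem norm_c2_le {W : ℝ × ℝ → ℂ} (h : Continuous W) : ∃ C : ℝ, ∀ k, ‖c2 W k‖ ≤ C := by
  obtain ⟨C, hC⟩ := (isCompact_Icc.prod isCompact_Icc : IsCompact
    (Set.Icc (0 : ℝ) 1 ×ˢ Set.Icc (0 : ℝ) 1)).exists_bound_of_continuousOn h.continuousOn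
  refine ⟨C, fun k => norm_fc_le (fun t ht => norm_fc_le (fun s hs => hC (s, t) ⟨hs, ht⟩) _) _⟩

theorem decay1 {W : ℝ × ℝ → ℂ} (m : ℕ) (h : SP W) :
    ∃ C : ℝ, ∀ k : ℤ × ℤ, |(k.1 : ℝ)| ^ m * ‖c2 W k‖ ≤ C := by
  induction m generalizing W with
  | zero =>
    obtain ⟨C, hC⟩ := norm_c2_le h.1.continuous
    exact ⟨C, fun k => by simpa using hC k⟩
  | succ m ih =>
    obtain ⟨C, hC⟩ := ih h.D1
    refine ⟨C, fun k => ?_⟩
    have h1 := hC k
    rw [c2_D1 h] at h1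
    have h2 : ‖2 * (Real.pi : ℂ) * Complex.I * k.1 * c2 W k‖
        = 2 * Real.pi * (|(k.1 : ℝ)| * ‖c2 W k‖) := by
      simp only [norm_mul, Complex.norm_I, Complex.norm_real, Complex.norm_ofNat,
        Complex.norm_intCast, Real.norm_eq_abs, abs_of_pos Real.pi_pos]
      ring
    rw [h2] at h1
    have h3 : (1 : ℝ) ≤ 2 * Real.pi := by
      have := Real.pi_gt_three
      linarith
    have h4 : 0 ≤ |(k.1 : ℝ)| * ‖c2 W k‖ := by positivity
    calc |(k.1 : ℝ)| ^ (m + 1) * ‖c2 W k‖ = |(k.1 : ℝ)| ^ m * (|(k.1 : ℝ)| * ‖c2 W k‖) := by ring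
      _ ≤ |(k.1 : ℝ)| ^ m * (2 * Real.pi * (|(k.1 : ℝ)| * ‖c2 W k‖)) := by
          apply mul_le_mul_of_nonneg_left _ (by positivity)
          nlinarith
      _ ≤ C := h1

theorem decay2 {W : ℝ × ℝ → ℂ} (m : ℕ) (h : SP W) :
    ∃ C : ℝ, ∀ k : ℤ × ℤ, |(k.2 : ℝ)| ^ m * ‖c2 W k‖ ≤ C := by
  induction m generalizing W with
  | zero =>
    obtain ⟨C, hC⟩ := norm_c2_le h.1.continuous
    exact ⟨C, fun k => by simpa using hC k⟩
  | succ m ih =>
    obtain ⟨C, hC⟩ := ih h.D2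
    refine ⟨C, fun k => ?_⟩
    have h1 := hC k
    rw [c2_D2 h] at h1
    have h2 : ‖2 * (Real.pi : ℂ) * Complex.I * k.2 * c2 W k‖
        = 2 * Real.pi * (|(k.2 : ℝ)| * ‖c2 W k‖) := by
      simp only [norm_mul, Complex.norm_I, Complex.norm_real, Complex.norm_ofNat,
        Complex.norm_intCast, Real.norm_eq_abs, abs_of_pos Real.pi_pos]
      ring
    rw [h2] at h1
    have h3 : (1 : ℝ) ≤ 2 * Real.pi := by
      have := Real.pi_gt_three
      linarith
    have h4 : 0 ≤ |(k.2 : ℝ)| * ‖c2 W k‖ := by positivity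
    calc |(k.2 : ℝ)| ^ (m + 1) * ‖c2 W k‖ = |(k.2 : ℝ)| ^ m * (|(k.2 : ℝ)| * ‖c2 W k‖) := by ring
      _ ≤ |(k.2 : ℝ)| ^ m * (2 * Real.pi * (|(k.2 : ℝ)| * ‖c2 W k‖)) := by
          apply mul_le_mul_of_nonneg_left _ (by positivity)
          nlinarith
      _ ≤ C := h1

theorem decay {W : ℝ × ℝ → ℂ} (m : ℕ) (h : SP W) :
    ∃ C : ℝ, 0 ≤ C ∧ ∀ k : ℤ × ℤ, (1 + |(k.1 : ℝ)| + |(k.2 : ℝ)|) ^ m * ‖c2 W k‖ ≤ C := by
  obtain ⟨C0, h0⟩ := norm_c2_le h.1.continuous
  obtain ⟨C1, h1⟩ := decay1 m h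
  obtain ⟨C2, h2⟩ := decay2 m h
  have hC : ∀ k : ℤ × ℤ, (1 + |(k.1 : ℝ)| + |(k.2 : ℝ)|) ^ m * ‖c2 W k‖
      ≤ 3 ^ m * (C0 + C1 + C2) := by
    intro k
    have h3 := h0 k
    have h4 := h1 k
    have h5 := h2 k
    have h6 : (1 + |(k.1 : ℝ)| + |(k.2 : ℝ)|) ^ m ≤
        3 ^ m * (1 + |(k.1 : ℝ)| ^ m + |(k.2 : ℝ)| ^ m) := by
      have h7 : 1 + |(k.1 : ℝ)| + |(k.2 : ℝ)| ≤ 3 * max 1 (max |(k.1 : ℝ)| |(k.2 : ℝ)|) := by
        have e1 := le_max_left 1 (max |(k.1 : ℝ)| |(k.2 : ℝ)|)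
        have e2 := (le_max_left |(k.1 : ℝ)| |(k.2 : ℝ)|).trans
          (le_max_right 1 (max |(k.1 : ℝ)| |(k.2 : ℝ)|))
        have e3 := (le_max_right |(k.1 : ℝ)| |(k.2 : ℝ)|).trans
          (le_max_right 1 (max |(k.1 : ℝ)| |(k.2 : ℝ)|))
        linarith
      have h8 : (1 + |(k.1 : ℝ)| + |(k.2 : ℝ)|) ^ m ≤
          (3 * max 1 (max |(k.1 : ℝ)| |(k.2 : ℝ)|)) ^ m :=
        pow_le_pow_left₀ (by positivity) h7 m
      rw [mul_pow] at h8
      refine h8.trans (mul_le_mul_of_nonneg_left ?_ (by positivity))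
      have p1 : 0 ≤ |(k.1 : ℝ)| ^ m := by positivity
      have p2 : 0 ≤ |(k.2 : ℝ)| ^ m := by positivity
      rcases max_choice 1 (max |(k.1 : ℝ)| |(k.2 : ℝ)|) with e | e
      · rw [e, one_pow]
        linarith
      · rcases max_choice |(k.1 : ℝ)| |(k.2 : ℝ)| with e' | e'
        · rw [e, e']
          linarith
        · rw [e, e']
          linarith
    calc (1 + |(k.1 : ℝ)| + |(k.2 : ℝ)|) ^ m * ‖c2 W k‖
        ≤ 3 ^ m * (1 + |(k.1 : ℝ)| ^ m + |(k.2 : ℝ)| ^ m) * ‖c2 W k‖ :=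
          mul_le_mul_of_nonneg_right h6 (norm_nonneg _)
      _ = 3 ^ m * (‖c2 W k‖ + |(k.1 : ℝ)| ^ m * ‖c2 W k‖ + |(k.2 : ℝ)| ^ m * ‖c2 W k‖) := by ring
      _ ≤ 3 ^ m * (C0 + C1 + C2) := by
          apply mul_le_mul_of_nonneg_left _ (by positivity)
          linarith
  refine ⟨3 ^ m * (C0 + C1 + C2), ?_, hC⟩
  exact le_trans (by positivity) (hC 0)

theorem summable_int : Summable fun k : ℤ => ((1 + |(k : ℝ)|) ^ 2)⁻¹ := by
  have h1 : Summable fun k : ℤ => 1 / (k : ℝ) ^ 2 := by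
    rw [Real.summable_one_div_int_pow]
    norm_num
  have h2 : Summable fun k : ℤ => if k = 0 then (1 : ℝ) else 0 :=
    summable_of_ne_finset_zero (s := {0}) (fun k hk => by
      rw [Finset.mem_singleton] at hk
      rw [if_neg hk])
  refine Summable.of_nonneg_of_le (fun k => by positivity) (fun k => ?_) (h1.add h2)
  by_cases hk : k = 0
  · subst hk
    simp
  · rw [if_neg hk, add_zero, ← one_div]
    have hk' : 0 < |(k : ℝ)| := abs_pos.2 (by exact_mod_cast hk)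
    apply one_div_le_one_div_of_le
    · rw [← sq_abs]
      positivity
    · rw [← sq_abs]
      apply pow_le_pow_left₀ hk'.le
      linarith

theorem summable_c2 {W : ℝ × ℝ → ℂ} (m : ℕ) (h : SP W) :
    Summable fun k : ℤ × ℤ => (1 + |(k.1 : ℝ)| + |(k.2 : ℝ)|) ^ m * ‖c2 W k‖ := by
  obtain ⟨C, hC0, hC⟩ := decay (m + 4) h
  have h1 : Summable fun k : ℤ × ℤ => ((1 + |(k.1 : ℝ)|) ^ 2)⁻¹ * ((1 + |(k.2 : ℝ)|) ^ 2)⁻¹ :=
    summable_int.mul_of_nonneg summable_int (fun k => by positivity) (fun k => by positivity)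
  refine Summable.of_nonneg_of_le (fun k => by positivity) (fun k => ?_) (h1.mul_left C)
  have h2 := hC k
  have a1 : 0 ≤ |(k.1 : ℝ)| := abs_nonneg _
  have a2 : 0 ≤ |(k.2 : ℝ)| := abs_nonneg _
  have h3 : (1 + |(k.1 : ℝ)|) ^ 2 * (1 + |(k.2 : ℝ)|) ^ 2 ≤ (1 + |(k.1 : ℝ)| + |(k.2 : ℝ)|) ^ 4 := by
    have e1 : (1 + |(k.1 : ℝ)|) ^ 2 ≤ (1 + |(k.1 : ℝ)| + |(k.2 : ℝ)|) ^ 2 :=
      pow_le_pow_left₀ (by positivity) (by linarith) 2
    have e2 : (1 + |(k.2 : ℝ)|) ^ 2 ≤ (1 + |(k.1 : ℝ)| + |(k.2 : ℝ)|) ^ 2 :=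
      pow_le_pow_left₀ (by positivity) (by linarith) 2
    calc (1 + |(k.1 : ℝ)|) ^ 2 * (1 + |(k.2 : ℝ)|) ^ 2
        ≤ (1 + |(k.1 : ℝ)| + |(k.2 : ℝ)|) ^ 2 * (1 + |(k.1 : ℝ)| + |(k.2 : ℝ)|) ^ 2 :=
          mul_le_mul e1 e2 (by positivity) (by positivity)
      _ = (1 + |(k.1 : ℝ)| + |(k.2 : ℝ)|) ^ 4 := by ring
  rw [← mul_inv, ← div_eq_mul_inv, le_div_iff₀ (by positivity)]
  calc (1 + |(k.1 : ℝ)| + |(k.2 : ℝ)|) ^ m * ‖c2 W k‖
        * ((1 + |(k.1 : ℝ)|) ^ 2 * (1 + |(k.2 : ℝ)|) ^ 2)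
      ≤ (1 + |(k.1 : ℝ)| + |(k.2 : ℝ)|) ^ m * ‖c2 W k‖ * (1 + |(k.1 : ℝ)| + |(k.2 : ℝ)|) ^ 4 :=
        mul_le_mul_of_nonneg_left h3 (by positivity)
    _ = (1 + |(k.1 : ℝ)| + |(k.2 : ℝ)|) ^ (m + 4) * ‖c2 W k‖ := by ring
    _ ≤ C := h2

theorem hasSum_c2 {W : ℝ × ℝ → ℂ} (h : SP W) (y : ℝ × ℝ) :
    HasSum (fun k : ℤ × ℤ => c2 W k * (ex k.1 y.1 * ex k.2 y.2)) (W y) := by
  have hW := h.1.continuous
  have hs : Summable (fun k : ℤ × ℤ => ‖c2 W k‖) := by
    have := summable_c2 0 h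
    simpa using this
  have hc : Summable (c2 W) := hs.of_norm
  have hF : Summable (fun k : ℤ × ℤ => c2 W k * (ex k.1 y.1 * ex k.2 y.2)) := by
    apply Summable.of_norm
    simpa [norm_ex] using hs
  have hf2 : Summable (fun k : ℤ × ℤ => c2 W k * ex k.2 y.2) := by
    apply Summable.of_norm
    simpa [norm_ex] using hs
  -- inner series
  have hcont : ∀ k1 : ℤ, Continuous (fun t => fc (fun s => W (s, t)) k1) := by
    intro k1
    unfold fc
    apply intervalIntegral.continuous_parametric_intervalIntegral_of_continuous'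
    have h3 := continuous_ex (-k1)
    fun_prop
  have hin : ∀ k1 : ℤ, HasSum (fun k2 : ℤ => c2 W (k1, k2) * ex k2 y.2)
      (fc (fun s => W (s, y.2)) k1) := by
    intro k1
    have h1 : Summable (fc (fun t => fc (fun s => W (s, t)) k1)) := by
      have := hc.prod_factor k1
      exact this
    refine hasSum_fc (hcont k1) (fun t => ?_) h1 y.2
    congr 1
    funext s
    have := h.2.2 (s, t)
    simpa using this
  have hout : HasSum (fun k1 : ℤ => fc (fun s => W (s, y.2)) k1 * ex k1 y.1) (W y) := by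
    have h1 : Summable (fc (fun s => W (s, y.2))) := by
      have h2 := hf2.prod
      have h3 : (fun k1 : ℤ => ∑' k2 : ℤ, c2 W (k1, k2) * ex k2 y.2)
          = fc (fun s => W (s, y.2)) := funext fun k1 => (hin k1).tsum_eq
      rw [← h3]
      exact h2
    have h4 := hasSum_fc (g := fun s => W (s, y.2)) (by fun_prop) (fun s => by
      have := h.2.1 (s, y.2)
      simpa using this) h1 y.1
    exact h4
  have htot := hF.hasSum.prod_fiberwise (g := fun k1 => fc (fun s => W (s, y.2)) k1 * ex k1 y.1)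
    (fun k1 => by
      have h1 := (hin k1).mul_right (ex k1 y.1)
      have h2 : (fun k2 : ℤ => c2 W (k1, k2) * (ex k1 y.1 * ex k2 y.2))
          = fun k2 => c2 W (k1, k2) * ex k2 y.2 * ex k1 y.1 := by
        funext k2
        ring
      show HasSum (fun k2 : ℤ => c2 W (k1, k2) * (ex k1 y.1 * ex k2 y.2)) _
      rw [h2]
      exact h1)
  have heq := htot.unique hout
  rw [← heq]
  exact hF.hasSum

theorem ex_mul (k : ℤ × ℤ) (y : ℝ × ℝ) : ex k.1 y.1 * ex k.2 y.2 =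
    Complex.exp (2 * Real.pi * Complex.I * (k.1 * y.1 + k.2 * y.2)) := by
  unfold ex
  rw [← Complex.exp_add]
  congr 1
  ring

end Four

open Four

/-- Rapidly convergent Fourier series of a smooth function on the plane which is `1`-periodic in
both variables. -/
theorem fourier_torus (W : ℝ × ℝ → ℝ) (hW : ContDiff ℝ ∞ W) (hp : Per (1, 0) (0, 1) W) :
    ∃ c : ℤ × ℤ → ℂ,
      (∀ m : ℕ, Summable fun k : ℤ × ℤ => (1 + |(k.1 : ℝ)| + |(k.2 : ℝ)|) ^ m * ‖c k‖) ∧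
      (∀ k, c (-k) = (starRingEnd ℂ) (c k)) ∧
      ∀ y : ℝ × ℝ, HasSum (fun k : ℤ × ℤ =>
        c k * Complex.exp (2 * Real.pi * Complex.I * (k.1 * y.1 + k.2 * y.2))) (W y : ℂ) := by
  have hSP : SP (fun x => (W x : ℂ)) := by
    refine ⟨Complex.ofRealCLM.contDiff.comp hW, ?_, ?_⟩
    · intro x
      simp only [hp.1 x]
    · intro x
      simp only [hp.2 x]
  refine ⟨c2 (fun x => (W x : ℂ)), fun m => summable_c2 m hSP, ?_, ?_⟩
  · intro k
    unfold c2
    rw [conj_fc]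
    simp only [conj_fc, Complex.conj_ofReal]
    rfl
  · intro y
    have h1 := hasSum_c2 hSP y
    simp only [ex_mul] at h1
    exact h1

/-- The same for a general lattice. -/
theorem fourier_lattice {v₁ v₂ : ℝ × ℝ} (hv : dt v₁ v₂ ≠ 0) (w : ℝ × ℝ → ℝ)
    (hw : ContDiff ℝ ∞ w) (hp : Per v₁ v₂ w) :
    ∃ c : ℤ × ℤ → ℂ,
      (∀ m : ℕ, Summable fun k : ℤ × ℤ => (1 + |al v₁ v₂ k| + |be v₁ v₂ k|) ^ m * ‖c k‖) ∧
      (∀ k, c (-k) = (starRingEnd ℂ) (c k)) ∧
      ∀ x : ℝ × ℝ, HasSum (fun k : ℤ × ℤ =>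
        c k * Complex.exp (Complex.I * (al v₁ v₂ k * x.1 + be v₁ v₂ k * x.2))) (w x : ℂ) := by
  obtain ⟨c, hc1, hc2, hc3⟩ := fourier_torus (fun y => w (y.1 • v₁ + y.2 • v₂))
    (hw.comp ((contDiff_fst.smul contDiff_const).add (contDiff_snd.smul contDiff_const)))
    (by
      refine ⟨fun x => ?_, fun x => ?_⟩
      · have h1 : (x + ((1 : ℝ), (0 : ℝ))).1 • v₁ + (x + ((1 : ℝ), (0 : ℝ))).2 • v₂
            = (x.1 • v₁ + x.2 • v₂) + v₁ := by
          simp only [Prod.fst_add, Prod.snd_add, add_zero, add_smul, one_smul]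
          abel
        simp only [h1]
        exact hp.1 _
      · have h1 : (x + ((0 : ℝ), (1 : ℝ))).1 • v₁ + (x + ((0 : ℝ), (1 : ℝ))).2 • v₂
            = (x.1 • v₁ + x.2 • v₂) + v₂ := by
          simp only [Prod.fst_add, Prod.snd_add, add_zero, add_smul, one_smul]
          abel
        simp only [h1]
        exact hp.2 _)
  refine ⟨c, ?_, hc2, ?_⟩
  · intro m
    -- the frequencies are bounded linearly
    have hd : 0 < |dt v₁ v₂| := abs_pos.2 hv
    have hpi := Real.pi_pos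
    obtain ⟨K, hK⟩ : ∃ K : ℝ, K = 1 + 2 * Real.pi * (|v₁.1| + |v₁.2| + |v₂.1| + |v₂.2|)
        / |dt v₁ v₂| * 2 := ⟨_, rfl⟩
    have hb : ∀ k : ℤ × ℤ, 1 + |al v₁ v₂ k| + |be v₁ v₂ k|
        ≤ K * (1 + |(k.1 : ℝ)| + |(k.2 : ℝ)|) := by
      intro k
      have a1 : 0 ≤ |(k.1 : ℝ)| := abs_nonneg _
      have a2 : 0 ≤ |(k.2 : ℝ)| := abs_nonneg _
      have b1 : 0 ≤ |v₁.1| := abs_nonneg _
      have b2 : 0 ≤ |v₁.2| := abs_nonneg _
      have b3 : 0 ≤ |v₂.1| := abs_nonneg _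
      have b4 : 0 ≤ |v₂.2| := abs_nonneg _
      have h1 : |al v₁ v₂ k| ≤ 2 * Real.pi * (|v₁.1| + |v₁.2| + |v₂.1| + |v₂.2|)
          / |dt v₁ v₂| * (1 + |(k.1 : ℝ)| + |(k.2 : ℝ)|) := by
        unfold al
        rw [abs_div, abs_mul, abs_of_pos (by positivity : (0 : ℝ) < 2 * Real.pi),
          div_mul_eq_mul_div]
        apply div_le_div_of_nonneg_right _ hd.le
        rw [mul_assoc (2 * Real.pi) (|v₁.1| + |v₁.2| + |v₂.1| + |v₂.2|)]
        apply mul_le_mul_of_nonneg_left _ (by positivity)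
        have h2 : |(k.1 : ℝ) * v₂.2 - k.2 * v₁.2| ≤ |(k.1 : ℝ)| * |v₂.2| + |(k.2 : ℝ)| * |v₁.2| := by
          rw [← abs_mul, ← abs_mul]
          exact abs_sub _ _
        refine h2.trans ?_
        nlinarith [mul_nonneg a1 b1, mul_nonneg a1 b2, mul_nonneg a1 b3, mul_nonneg a1 b4,
          mul_nonneg a2 b1, mul_nonneg a2 b2, mul_nonneg a2 b3, mul_nonneg a2 b4]
      have h3 : |be v₁ v₂ k| ≤ 2 * Real.pi * (|v₁.1| + |v₁.2| + |v₂.1| + |v₂.2|)
          / |dt v₁ v₂| * (1 + |(k.1 : ℝ)| + |(k.2 : ℝ)|) := by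
        unfold be
        rw [abs_div, abs_mul, abs_of_pos (by positivity : (0 : ℝ) < 2 * Real.pi),
          div_mul_eq_mul_div]
        apply div_le_div_of_nonneg_right _ hd.le
        rw [mul_assoc (2 * Real.pi) (|v₁.1| + |v₁.2| + |v₂.1| + |v₂.2|)]
        apply mul_le_mul_of_nonneg_left _ (by positivity)
        have h2 : |-((k.1 : ℝ) * v₂.1) + k.2 * v₁.1| ≤ |(k.1 : ℝ)| * |v₂.1| + |(k.2 : ℝ)| * |v₁.1| := by
          rw [← abs_mul, ← abs_mul, ← abs_neg ((k.1 : ℝ) * v₂.1)]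
          exact abs_add_le _ _
        refine h2.trans ?_
        nlinarith [mul_nonneg a1 b1, mul_nonneg a1 b2, mul_nonneg a1 b3, mul_nonneg a1 b4,
          mul_nonneg a2 b1, mul_nonneg a2 b2, mul_nonneg a2 b3, mul_nonneg a2 b4]
      have h4 : K * (1 + |(k.1 : ℝ)| + |(k.2 : ℝ)|) = (1 + |(k.1 : ℝ)| + |(k.2 : ℝ)|)
          + 2 * (2 * Real.pi * (|v₁.1| + |v₁.2| + |v₂.1| + |v₂.2|)
          / |dt v₁ v₂| * (1 + |(k.1 : ℝ)| + |(k.2 : ℝ)|)) := by
        rw [hK]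
        ring
      rw [h4]
      linarith
    have hK0 : 0 ≤ K := by
      rw [hK]
      positivity
    refine Summable.of_nonneg_of_le (fun k => by positivity) (fun k => ?_)
      ((hc1 m).mul_left (K ^ m))
    rw [← mul_assoc, ← mul_pow]
    exact mul_le_mul_of_nonneg_right (pow_le_pow_left₀ (by positivity) (hb k) m) (norm_nonneg _)
  · intro x
    have h1 := hc3 ((x.1 * v₂.2 - x.2 * v₂.1) / dt v₁ v₂, (-(x.1 * v₁.2) + x.2 * v₁.1) / dt v₁ v₂)
    have h2 : ((x.1 * v₂.2 - x.2 * v₂.1) / dt v₁ v₂) • v₁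
        + ((-(x.1 * v₁.2) + x.2 * v₁.1) / dt v₁ v₂) • v₂ = x := by
      ext
      · simp only [Prod.fst_add, Prod.smul_fst, smul_eq_mul]
        field_simp
        unfold dt
        ring
      · simp only [Prod.snd_add, Prod.smul_snd, smul_eq_mul]
        field_simp
        unfold dt
        ring
    simp only [h2] at h1
    have h3 : (fun k : ℤ × ℤ => c k * Complex.exp (Complex.I * (al v₁ v₂ k * x.1 + be v₁ v₂ k * x.2)))
        = fun k : ℤ × ℤ => c k * Complex.exp (2 * Real.pi * Complex.I *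
          (k.1 * (((x.1 * v₂.2 - x.2 * v₂.1) / dt v₁ v₂ : ℝ) : ℂ) +
            k.2 * (((-(x.1 * v₁.2) + x.2 * v₁.1) / dt v₁ v₂ : ℝ) : ℂ))) := by
      funext k
      congr 2
      unfold al be
      push_cast
      have hv' : (dt v₁ v₂ : ℂ) ≠ 0 := by exact_mod_cast hv
      field_simp
      ring
    rw [h3]
    exact h1

end Vale.Agent.P205
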