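import Mathlib

/-!
# P205: module IFT, a uniform smooth implicit function theorem
-/

open scoped ContDiff Topology

namespace Vale.Agent.P205

/-- Implicit function theorem, uniform smooth version. -/
theorem implicit_smooth {P E : Type*} [NormedAddCommGroup P] [NormedSpace ℝ P] [CompleteSpace P]
    [NormedAddCommGroup E] [NormedSpace ℝ E] [CompleteSpace E] (Γ : P × E → E)
    (hΓ : ContDiff ℝ ∞ Γ) (h0 : Γ 0 = 0) (hd : ∀ e : E, fderiv ℝ Γ 0 (0, e) = e) :
    ∃ (φ : P → E) (δ r : ℝ), 0 < δ ∧ 0 < r ∧ (∀ p, ‖p‖ < δ → ContDiffAt ℝ ∞ φ p) ∧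
      (∀ p, ‖p‖ < δ → ‖φ p‖ < r ∧ Γ (p, φ p) = 0) ∧
      ∀ p, ‖p‖ < δ → ∀ e, ‖e‖ < r → Γ (p, e) = 0 → e = φ p := by
  set Θ : P × E → P × E := fun q => (q.1, Γ q) with hΘ
  have hΘs : ContDiff ℝ ∞ Θ := contDiff_fst.prodMk hΓ
  have hΘ0 : Θ 0 = 0 := by simp [hΘ, h0]
  -- the derivative at the origin
  set A : P →L[ℝ] E := (fderiv ℝ Γ 0).comp (ContinuousLinearMap.inl ℝ P E) with hA
  set L₁ : P × E →L[ℝ] P × E := (ContinuousLinearMap.fst ℝ P E).prod
    (A.comp (ContinuousLinearMap.fst ℝ P E) + ContinuousLinearMap.snd ℝ P E) with hL₁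
  set L₂ : P × E →L[ℝ] P × E := (ContinuousLinearMap.fst ℝ P E).prod
    (ContinuousLinearMap.snd ℝ P E - A.comp (ContinuousLinearMap.fst ℝ P E)) with hL₂
  let L : (P × E) ≃L[ℝ] (P × E) := ContinuousLinearEquiv.equivOfInverse L₁ L₂
    (fun q => by simp [hL₁, hL₂]) (fun q => by simp [hL₁, hL₂])
  have hL : HasFDerivAt Θ (L : P × E →L[ℝ] P × E) 0 := by
    have h1 : HasFDerivAt Γ (fderiv ℝ Γ 0) 0 :=
      (hΓ.differentiable (by simp)).differentiableAt.hasFDerivAt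
    have h2 : HasFDerivAt Θ ((ContinuousLinearMap.fst ℝ P E).prod (fderiv ℝ Γ 0)) 0 :=
      hasFDerivAt_fst.prodMk h1
    have h3 : (L : P × E →L[ℝ] P × E) = (ContinuousLinearMap.fst ℝ P E).prod (fderiv ℝ Γ 0) := by
      ext q
      · rfl
      · simp [L, hL₁, hA]
      · rfl
      · simp [L, hL₁, hd]
    rw [h3]
    exact h2
  set e := hΘs.contDiffAt.toOpenPartialHomeomorph Θ hL (by simp) with he
  have heq : ∀ q, e q = Θ q := fun q => rfl
  have hsrc : (0 : P × E) ∈ e.source :=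
    ContDiffAt.mem_toOpenPartialHomeomorph_source hΘs.contDiffAt hL (by simp)
  have htgt : (0 : P × E) ∈ e.target := by
    have := e.map_source hsrc
    rwa [heq, hΘ0] at this
  have hsymm0 : e.symm 0 = 0 := by
    have := e.left_inv hsrc
    rwa [heq, hΘ0] at this
  -- a ball where the derivative is invertible
  have hinv : ∀ᶠ q in 𝓝 (0 : P × E), fderiv ℝ Θ q ∈
      Set.range ((↑) : ((P × E) ≃L[ℝ] (P × E)) → (P × E →L[ℝ] P × E)) := by
    have hc : ContinuousAt (fderiv ℝ Θ) 0 :=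
      (hΘs.continuous_fderiv (by simp)).continuousAt
    apply hc
    rw [hL.fderiv]
    exact L.nhds
  have hsrc' : ∀ᶠ q in 𝓝 (0 : P × E), q ∈ e.source := e.open_source.mem_nhds hsrc
  obtain ⟨ρ, hρ, hball⟩ := Metric.eventually_nhds_iff.1 (hinv.and hsrc')
  -- the inverse
  have hsc : ContinuousAt e.symm 0 := e.continuousAt_symm htgt
  have hpc : ContinuousAt (fun p : P => ((p, 0) : P × E)) 0 := by fun_prop
  have h1 : ∀ᶠ p in 𝓝 (0 : P), ((p, 0) : P × E) ∈ e.target :=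
    hpc (e.open_target.mem_nhds htgt)
  have h2 : ∀ᶠ p in 𝓝 (0 : P), ‖e.symm (p, 0)‖ < ρ := by
    have h3 : ContinuousAt (fun p : P => ‖e.symm (p, 0)‖) 0 := by
      apply ContinuousAt.norm
      exact ContinuousAt.comp (g := e.symm) (f := fun p : P => ((p, 0) : P × E)) hsc hpc
    apply h3.eventually_lt continuousAt_const
    change ‖e.symm 0‖ < ρ
    rw [hsymm0, norm_zero]
    exact hρ
  obtain ⟨δ₀, hδ₀, hδ⟩ := Metric.eventually_nhds_iff.1 (h1.and h2)
  have key : ∀ p : P, ‖p‖ < min δ₀ ρ → ((p, 0) : P × E) ∈ e.target ∧ ‖e.symm (p, 0)‖ < ρ ∧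
      e.symm (p, 0) = (p, (e.symm (p, 0)).2) ∧ Γ (e.symm (p, 0)) = 0 := by
    intro p hp
    have h3 := hδ (y := p) (by rw [dist_zero_right]; exact hp.trans_le (min_le_left _ _))
    have h4 : Θ (e.symm (p, 0)) = (p, 0) := e.right_inv h3.1
    have h5 : (e.symm (p, 0)).1 = p := congrArg Prod.fst h4
    have h6 : Γ (e.symm (p, 0)) = 0 := congrArg Prod.snd h4
    exact ⟨h3.1, h3.2, Prod.ext h5 rfl, h6⟩
  refine ⟨fun p => (e.symm (p, 0)).2, min δ₀ ρ, ρ, lt_min hδ₀ hρ, hρ, ?_, ?_, ?_⟩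
  · intro p hp
    obtain ⟨k1, k2, k3, k4⟩ := key p hp
    obtain ⟨⟨D, hD⟩, _⟩ := hball (y := e.symm (p, 0)) (by rw [dist_zero_right]; exact k2)
    have h3 : HasFDerivAt e (D : P × E →L[ℝ] P × E) (e.symm (p, 0)) := by
      rw [hD]
      exact (hΘs.differentiable (by simp)).differentiableAt.hasFDerivAt
    have h4 : ContDiffAt ℝ ∞ e.symm (p, 0) := e.contDiffAt_symm k1 h3 hΘs.contDiffAt
    have h5 : ContDiffAt ℝ ∞ (fun p : P => ((p, 0) : P × E)) p :=
      (contDiff_id.prodMk contDiff_const).contDiffAt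
    exact contDiffAt_snd.comp p (ContDiffAt.comp (g := e.symm)
      (f := fun p : P => ((p, 0) : P × E)) p h4 h5)
  · intro p hp
    obtain ⟨k1, k2, k3, k4⟩ := key p hp
    refine ⟨lt_of_le_of_lt (norm_snd_le _) k2, ?_⟩
    rw [← k3]
    exact k4
  · intro p hp e' he' hz
    have h3 : ((p, e') : P × E) ∈ e.source := by
      refine (hball (y := ((p, e') : P × E)) ?_).2
      rw [dist_zero_right, Prod.norm_def, max_lt_iff]
      exact ⟨hp.trans_le (min_le_right _ _), he'⟩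
    have h4 := e.left_inv h3
    have h5 : e (p, e') = (p, 0) := by
      rw [heq]
      simp [hΘ, hz]
    rw [h5] at h4
    exact (congrArg Prod.snd h4).symm

end Vale.Agent.P205
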