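import Vale.Agent.Lib.P205.WienerSmooth
import Vale.Agent.Lib.P205.Fourier
import Vale.Agent.Lib.P205.Implicit

/-!
# P205: module SOLVE
-/

open scoped ENNReal ContDiff

namespace Vale.Agent.P205

open WA

namespace Solve

/-- admissible pairs of frequency maps -/
structure Freq (α β : ℤ × ℤ →+ ℝ) (C : ℝ) : Prop where
  one_le : 1 ≤ C
  ne : ∀ k, k ≠ 0 → 0 < α k ^ 2 + β k ^ 2
  inv : ∀ k, 1 / (α k ^ 2 + β k ^ 2) ≤ C
  lin1 : ∀ k, |α k| / (α k ^ 2 + β k ^ 2) ≤ C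
  lin2 : ∀ k, |β k| / (α k ^ 2 + β k ^ 2) ≤ C

theorem quad_le (x y : ℝ) : |x * y| / (x ^ 2 + y ^ 2) ≤ 1 := by
  rcases eq_or_lt_of_le (show 0 ≤ x ^ 2 + y ^ 2 by positivity) with h | h
  · rw [← h, div_zero]; exact zero_le_one
  · rw [div_le_one h, abs_le]
    constructor <;> nlinarith [sq_nonneg (x + y), sq_nonneg (x - y)]

theorem quad_le1 (x y : ℝ) : |x * x| / (x ^ 2 + y ^ 2) ≤ 1 := by
  rcases eq_or_lt_of_le (show 0 ≤ x ^ 2 + y ^ 2 by positivity) with h | h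
  · rw [← h, div_zero]; exact zero_le_one
  · rw [div_le_one h, abs_le]
    constructor <;> nlinarith [sq_nonneg x, sq_nonneg y]

theorem quad_le2 (x y : ℝ) : |y * y| / (x ^ 2 + y ^ 2) ≤ 1 := by
  rcases eq_or_lt_of_le (show 0 ≤ x ^ 2 + y ^ 2 by positivity) with h | h
  · rw [← h, div_zero]; exact zero_le_one
  · rw [div_le_one h, abs_le]
    constructor <;> nlinarith [sq_nonneg x, sq_nonneg y]

section symbols
variable (α β : ℤ × ℤ →+ ℝ)

/-- symbol of the inverse Laplacian -/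
noncomputable def s0 (k : ℤ × ℤ) : ℂ := ((-(1 / (α k ^ 2 + β k ^ 2)) : ℝ) : ℂ)
/-- symbol of `∂₁ Δ⁻¹` -/
noncomputable def s1 (k : ℤ × ℤ) : ℂ := Complex.I * ((-(α k / (α k ^ 2 + β k ^ 2)) : ℝ) : ℂ)
/-- symbol of `∂₂ Δ⁻¹` -/
noncomputable def s2 (k : ℤ × ℤ) : ℂ := Complex.I * ((-(β k / (α k ^ 2 + β k ^ 2)) : ℝ) : ℂ)
/-- symbol of `∂₁₁ Δ⁻¹` -/
noncomputable def s11 (k : ℤ × ℤ) : ℂ := ((α k * α k / (α k ^ 2 + β k ^ 2) : ℝ) : ℂ)
/-- symbol of `∂₁₂ Δ⁻¹` -/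
noncomputable def s12 (k : ℤ × ℤ) : ℂ := ((α k * β k / (α k ^ 2 + β k ^ 2) : ℝ) : ℂ)
/-- symbol of `∂₂₂ Δ⁻¹` -/
noncomputable def s22 (k : ℤ × ℤ) : ℂ := ((β k * β k / (α k ^ 2 + β k ^ 2) : ℝ) : ℂ)

end symbols

section ops
variable {α β : ℤ × ℤ →+ ℝ} {C : ℝ} (hF : Freq α β C)

/-- `Δ⁻¹` -/
noncomputable def T0 : WA →L[ℂ] WA := mult (s0 α β) C fun k => by
  rw [s0, Complex.norm_real, Real.norm_eq_abs, abs_neg, abs_of_nonneg (by positivity)]
  exact hF.inv k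

/-- `∂₁ Δ⁻¹` -/
noncomputable def T1 : WA →L[ℂ] WA := mult (s1 α β) C fun k => by
  rw [s1, norm_mul, Complex.norm_I, one_mul, Complex.norm_real, Real.norm_eq_abs, abs_neg, abs_div,
    abs_of_nonneg (show 0 ≤ α k ^ 2 + β k ^ 2 by positivity)]
  exact hF.lin1 k

/-- `∂₂ Δ⁻¹` -/
noncomputable def T2 : WA →L[ℂ] WA := mult (s2 α β) C fun k => by
  rw [s2, norm_mul, Complex.norm_I, one_mul, Complex.norm_real, Real.norm_eq_abs, abs_neg, abs_div,
    abs_of_nonneg (show 0 ≤ α k ^ 2 + β k ^ 2 by positivity)]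
  exact hF.lin2 k

/-- `∂₁₁ Δ⁻¹` -/
noncomputable def T11 : WA →L[ℂ] WA := mult (s11 α β) C fun k => by
  rw [s11, Complex.norm_real, Real.norm_eq_abs, abs_div,
    abs_of_nonneg (show 0 ≤ α k ^ 2 + β k ^ 2 by positivity)]
  exact (quad_le1 (α k) (β k)).trans hF.one_le

/-- `∂₁₂ Δ⁻¹` -/
noncomputable def T12 : WA →L[ℂ] WA := mult (s12 α β) C fun k => by
  rw [s12, Complex.norm_real, Real.norm_eq_abs, abs_div,
    abs_of_nonneg (show 0 ≤ α k ^ 2 + β k ^ 2 by positivity)]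
  exact (quad_le (α k) (β k)).trans hF.one_le

/-- `∂₂₂ Δ⁻¹` -/
noncomputable def T22 : WA →L[ℂ] WA := mult (s22 α β) C fun k => by
  rw [s22, Complex.norm_real, Real.norm_eq_abs, abs_div,
    abs_of_nonneg (show 0 ≤ α k ^ 2 + β k ^ 2 by positivity)]
  exact (quad_le2 (α k) (β k)).trans hF.one_le

/-- mean zero projection -/
noncomputable def PR : WA →L[ℂ] WA := T11 hF + T22 hF

theorem PR_apply (a : WA) : PR hF a = T11 hF a + T22 hF a := rfl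

theorem cf_PR (a : WA) (k : ℤ × ℤ) : cf (PR hF a) k = if k = 0 then 0 else cf a k := by
  rw [PR_apply, cf_add, T11, T22, cf_mult, cf_mult, s11, s22]
  by_cases h : k = 0
  · subst h
    simp
  · rw [if_neg h, ← add_mul, ← Complex.ofReal_add, ← add_div]
    have := hF.ne k h
    rw [show (α k * α k + β k * β k) / (α k ^ 2 + β k ^ 2) = 1 by field_simp]
    simp

theorem PR_eq (a : WA) : PR hF a = a - cf a 0 • (1 : WA) := by
  apply WA.ext
  intro k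
  rw [cf_PR, cf_sub, cf_smul, one_def, cf_delta]
  by_cases h : k = 0
  · subst h; simp
  · simp [h]

theorem PR_PR (a : WA) : PR hF (PR hF a) = PR hF a := by
  apply WA.ext
  intro k
  rw [cf_PR, cf_PR]
  by_cases h : k = 0 <;> simp [h]

/-- operators that commute with translations -/
def Comm (α β : ℤ × ℤ →+ ℝ) (T : WA →L[ℂ] WA) : Prop :=
  ∀ h a, tau α β h (T a) = T (tau α β h a)

theorem comm_T0 : Comm α β (T0 hF) := fun h a => tau_mult α β h _ _ _ a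
theorem comm_T1 : Comm α β (T1 hF) := fun h a => tau_mult α β h _ _ _ a
theorem comm_T2 : Comm α β (T2 hF) := fun h a => tau_mult α β h _ _ _ a
theorem comm_T11 : Comm α β (T11 hF) := fun h a => tau_mult α β h _ _ _ a
theorem comm_T12 : Comm α β (T12 hF) := fun h a => tau_mult α β h _ _ _ a
theorem comm_T22 : Comm α β (T22 hF) := fun h a => tau_mult α β h _ _ _ a
theorem comm_PR : Comm α β (PR hF) := fun h a => by
  rw [PR_apply, PR_apply, map_add, comm_T11, comm_T22]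

theorem cj_T0 (a : WA) : cj (T0 hF a) = T0 hF (cj a) := by
  apply cj_mult
  intro k
  rw [s0, s0, Complex.conj_ofReal]
  simp
theorem cj_T1 (a : WA) : cj (T1 hF a) = T1 hF (cj a) := by
  apply cj_mult
  intro k
  rw [s1, s1, map_mul, Complex.conj_ofReal, Complex.conj_I]
  simp [neg_div]
theorem cj_T2 (a : WA) : cj (T2 hF a) = T2 hF (cj a) := by
  apply cj_mult
  intro k
  rw [s2, s2, map_mul, Complex.conj_ofReal, Complex.conj_I]
  simp [neg_div]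
theorem cj_T11 (a : WA) : cj (T11 hF a) = T11 hF (cj a) := by
  apply cj_mult
  intro k
  rw [s11, s11, Complex.conj_ofReal]
  simp
theorem cj_T12 (a : WA) : cj (T12 hF a) = T12 hF (cj a) := by
  apply cj_mult
  intro k
  rw [s12, s12, Complex.conj_ofReal]
  simp
theorem cj_T22 (a : WA) : cj (T22 hF a) = T22 hF (cj a) := by
  apply cj_mult
  intro k
  rw [s22, s22, Complex.conj_ofReal]
  simp
theorem cj_PR (a : WA) : cj (PR hF a) = PR hF (cj a) := by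
  rw [PR_apply, PR_apply, cj_add, cj_T11, cj_T22]

end ops

/-- the polynomial part of the equation -/
def poly {A : Type*} [CommRing A] (E f u1 u2 w1 w2 w11 w12 w22 : A) : A :=
  E * ((w1 * w1 + w2 * w2) * f + (w11 * w22 - w12 * w12)
    - (w1 * w1 + w2 * w2) * (u1 * u1 + u2 * u2) - (w1 * u1 - w2 * u2) * (w11 - w22)
    - 2 * ((w1 * u2 + w2 * u1) * w12))

theorem map_poly {A B : Type*} [CommRing A] [CommRing B] (L : A →+* B)
    (E f u1 u2 w1 w2 w11 w12 w22 : A) : L (poly E f u1 u2 w1 w2 w11 w12 w22) =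
      poly (L E) (L f) (L u1) (L u2) (L w1) (L w2) (L w11) (L w12) (L w22) := by
  simp [poly, map_ofNat]

/-- translation as a ring homomorphism -/
noncomputable def tauR (α β : ℤ × ℤ →+ ℝ) (h : ℝ × ℝ) : WA →+* WA where
  toFun := tau α β h
  map_one' := tau_one α β h
  map_mul' := tau_mul α β h
  map_zero' := map_zero _
  map_add' := map_add _

/-- conjugation as a ring homomorphism -/
noncomputable def cjR : WA →+* WA where
  toFun := cj
  map_one' := cj_one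
  map_mul' := cj_mul
  map_zero' := map_zero cjL
  map_add' := cj_add

/-- evaluation as a ring homomorphism -/
noncomputable def evR (α β : ℤ × ℤ →+ ℝ) (x : ℝ × ℝ) : WA →+* ℂ where
  toFun := ev α β x
  map_one' := ev_one α β x
  map_mul' := ev_mul α β x
  map_zero' := map_zero _
  map_add' := map_add _

/-- Fourier data of the conformal factor -/
structure WD (α β : ℤ × ℤ →+ ℝ) where
  b0 : WA
  b1 : WA
  b2 : WA
  b11 : WA
  b12 : WA
  b22 : WA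
  h1 : ∀ k, cf b1 k = Complex.I * α k * cf b0 k
  h2 : ∀ k, cf b2 k = Complex.I * β k * cf b0 k
  h11 : ∀ k, cf b11 k = Complex.I * α k * cf b1 k
  h12 : ∀ k, cf b12 k = Complex.I * α k * cf b2 k
  h22 : ∀ k, cf b22 k = Complex.I * β k * cf b2 k
  d0 : ∀ m : ℕ, Summable fun k => (1 + |α k| + |β k|) ^ m * ‖cf b0 k‖
  d1 : ∀ m : ℕ, Summable fun k => (1 + |α k| + |β k|) ^ m * ‖cf b1 k‖
  d2 : ∀ m : ℕ, Summable fun k => (1 + |α k| + |β k|) ^ m * ‖cf b2 k‖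
  d11 : ∀ m : ℕ, Summable fun k => (1 + |α k| + |β k|) ^ m * ‖cf b11 k‖
  d12 : ∀ m : ℕ, Summable fun k => (1 + |α k| + |β k|) ^ m * ‖cf b12 k‖
  d22 : ∀ m : ℕ, Summable fun k => (1 + |α k| + |β k|) ^ m * ‖cf b22 k‖
  r0 : cj b0 = b0
  r1 : cj b1 = b1
  r2 : cj b2 = b2
  r11 : cj b11 = b11
  r12 : cj b12 = b12
  r22 : cj b22 = b22

section main
variable {α β : ℤ × ℤ →+ ℝ} {C : ℝ} (hF : Freq α β C) (d : WD α β)

/-- the nonlinearity -/
noncomputable def G (h : ℝ × ℝ) (f : WA) : WA :=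
  poly (NormedSpace.exp (T0 hF f + T0 hF f)) f (T1 hF f) (T2 hF f)
    (tau α β h d.b1 + T1 hF f) (tau α β h d.b2 + T2 hF f) (tau α β h d.b11 + T11 hF f)
    (tau α β h d.b12 + T12 hF f) (tau α β h d.b22 + T22 hF f)

theorem tau_G (h : ℝ × ℝ) (f : WA) : tau α β h (G hF d 0 f) = G hF d h (tau α β h f) := by
  have := map_poly (tauR α β h) (NormedSpace.exp (T0 hF f + T0 hF f)) f (T1 hF f) (T2 hF f)
    (tau α β 0 d.b1 + T1 hF f) (tau α β 0 d.b2 + T2 hF f) (tau α β 0 d.b11 + T11 hF f)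
    (tau α β 0 d.b12 + T12 hF f) (tau α β 0 d.b22 + T22 hF f)
  change tau α β h _ = poly (tau α β h _) (tau α β h _) (tau α β h _) (tau α β h _) (tau α β h _)
    (tau α β h _) (tau α β h _) (tau α β h _) (tau α β h _) at this
  unfold G
  rw [this]
  simp only [tau_exp, map_add, tau_zero, comm_T0 hF h f, comm_T1 hF h f, comm_T2 hF h f,
    comm_T11 hF h f, comm_T12 hF h f, comm_T22 hF h f]

theorem cj_G (f : WA) : cj (G hF d 0 f) = G hF d 0 (cj f) := by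
  have := map_poly cjR (NormedSpace.exp (T0 hF f + T0 hF f)) f (T1 hF f) (T2 hF f)
    (tau α β 0 d.b1 + T1 hF f) (tau α β 0 d.b2 + T2 hF f) (tau α β 0 d.b11 + T11 hF f)
    (tau α β 0 d.b12 + T12 hF f) (tau α β 0 d.b22 + T22 hF f)
  change cj _ = poly (cj _) (cj _) (cj _) (cj _) (cj _) (cj _) (cj _) (cj _) (cj _) at this
  unfold G
  rw [this]
  simp only [cj_exp, cj_add, tau_zero, cj_T0, cj_T1, cj_T2, cj_T11, cj_T12, cj_T22, d.r1, d.r2,
    d.r11, d.r12, d.r22]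

theorem contDiff_op (T : WA →L[ℂ] WA) : ContDiff ℝ ∞ fun q : (ℝ × (ℝ × ℝ)) × WA => T q.2 :=
  (T.restrictScalars ℝ).contDiff.comp contDiff_snd

theorem contDiff_b {b : WA} (hb : ∀ m : ℕ, Summable fun k => (1 + |α k| + |β k|) ^ m * ‖cf b k‖) :
    ContDiff ℝ ∞ fun q : (ℝ × (ℝ × ℝ)) × WA => tau α β q.1.2 b :=
  (contDiff_tau α β b hb).comp (contDiff_snd.comp contDiff_fst)

theorem contDiff_G : ContDiff ℝ ∞ fun q : (ℝ × (ℝ × ℝ)) × WA => G hF d q.1.2 q.2 := by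
  have h0 := contDiff_op (T0 hF)
  have h1 := contDiff_op (T1 hF)
  have h2 := contDiff_op (T2 hF)
  have h11 := contDiff_op (T11 hF)
  have h12 := contDiff_op (T12 hF)
  have h22 := contDiff_op (T22 hF)
  have hE : ContDiff ℝ ∞ fun q : (ℝ × (ℝ × ℝ)) × WA =>
      NormedSpace.exp (T0 hF q.2 + T0 hF q.2) := contDiff_exp.comp (h0.add h0)
  have hf : ContDiff ℝ ∞ fun q : (ℝ × (ℝ × ℝ)) × WA => q.2 := contDiff_snd
  have w1 := (contDiff_b d.d1).add h1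
  have w2 := (contDiff_b d.d2).add h2
  have w11 := (contDiff_b d.d11).add h11
  have w12 := (contDiff_b d.d12).add h12
  have w22 := (contDiff_b d.d22).add h22
  unfold G poly
  exact hE.mul (((((((w1.mul w1).add (w2.mul w2)).mul hf).add ((w11.mul w22).sub (w12.mul w12))).sub
    (((w1.mul w1).add (w2.mul w2)).mul ((h1.mul h1).add (h2.mul h2)))).sub
    (((w1.mul h1).sub (w2.mul h2)).mul (w11.sub w22))).sub
    (contDiff_const.mul (((w1.mul h2).add (w2.mul h1)).mul w12)))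

/-- the equation -/
noncomputable def Gam (q : (ℝ × (ℝ × ℝ)) × WA) : WA := q.2 - PR hF (q.1.1 • G hF d q.1.2 q.2)

theorem contDiff_Gam : ContDiff ℝ ∞ (Gam hF d) := by
  unfold Gam
  apply ContDiff.sub contDiff_snd
  apply ((PR hF).restrictScalars ℝ).contDiff.comp
  exact (contDiff_fst.comp contDiff_fst).smul (contDiff_G hF d)

theorem Gam_zero : Gam hF d 0 = 0 := by
  simp [Gam]

theorem fderiv_Gam (e : WA) : fderiv ℝ (Gam hF d) 0 (0, e) = e := by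
  have h1 : HasFDerivAt (Gam hF d) (fderiv ℝ (Gam hF d) 0) (0 + (0 : ℝ) • ((0, e) :
      (ℝ × (ℝ × ℝ)) × WA)) := by
    rw [zero_smul, add_zero]
    exact ((contDiff_Gam hF d).differentiable (by simp)).differentiableAt.hasFDerivAt
  have h2 : HasDerivAt (fun t : ℝ => 0 + t • ((0, e) : (ℝ × (ℝ × ℝ)) × WA)) (0, e) 0 := by
    simpa using (hasDerivAt_id (0 : ℝ)).smul_const ((0, e) : (ℝ × (ℝ × ℝ)) × WA)
  have h3 := h1.comp_hasDerivAt (0 : ℝ) h2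
  have h4 : (Gam hF d ∘ fun t : ℝ => 0 + t • ((0, e) : (ℝ × (ℝ × ℝ)) × WA)) = fun t => t • e := by
    funext t
    simp [Gam]
  rw [h4] at h3
  have h5 : HasDerivAt (fun t : ℝ => t • e) ((1 : ℝ) • e) 0 := (hasDerivAt_id (0 : ℝ)).smul_const e
  rw [one_smul] at h5
  exact h3.unique h5

theorem exists_family : ∃ (δ r : ℝ) (F : ℝ → WA), 0 < δ ∧ 0 < r ∧ F 0 = 0 ∧
    (∀ ε, |ε| < δ → ‖F ε‖ < r) ∧ (∀ ε, |ε| < δ → cj (F ε) = F ε) ∧
    (∀ ε, |ε| < δ → F ε = PR hF (ε • G hF d 0 (F ε))) ∧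
    ∀ T : WA →L[ℂ] WA, Comm α β T → ∀ ε x, |ε| < δ →
      ContDiffAt ℝ ∞ (fun p : ℝ × (ℝ × ℝ) => ev α β p.2 (T (F p.1))) (ε, x) := by
  obtain ⟨φ, δ, r, hδ, hr, hsm, hsol, huniq⟩ :=
    implicit_smooth (Gam hF d) (contDiff_Gam hF d) (Gam_zero hF d) (fderiv_Gam hF d)
  have hn : ∀ (ε : ℝ) (h : ℝ × ℝ), |ε| < δ → ‖h‖ < δ → ‖(ε, h)‖ < δ := by
    intro ε h h1 h2
    rw [Prod.norm_def, max_lt_iff]
    exact ⟨h1, h2⟩
  have hsol0 : ∀ ε, |ε| < δ → ‖φ (ε, 0)‖ < r ∧ Gam hF d ((ε, 0), φ (ε, 0)) = 0 := by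
    intro ε hε
    exact hsol (ε, 0) (hn ε 0 hε (by simpa using hδ))
  have heq : ∀ ε, |ε| < δ → φ (ε, 0) = PR hF (ε • G hF d 0 (φ (ε, 0))) := by
    intro ε hε
    exact sub_eq_zero.1 (hsol0 ε hε).2
  have htau : ∀ ε h, |ε| < δ → ‖h‖ < δ → tau α β h (φ (ε, 0)) = φ (ε, h) := by
    intro ε h hε hh
    apply huniq (ε, h) (hn ε h hε hh)
    · exact (norm_tau_le α β h _).trans_lt (hsol0 ε hε).1
    · have h1 := congrArg (tau α β h) (heq ε hε)
      have h2 : tau α β h (ε • G hF d 0 (φ (ε, 0))) = ε • tau α β h (G hF d 0 (φ (ε, 0))) :=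
        map_smul ((tau α β h).restrictScalars ℝ) ε _
      rw [comm_PR hF, h2, tau_G] at h1
      exact sub_eq_zero.2 h1
  refine ⟨δ, r, fun ε => φ (ε, 0), hδ, hr, ?_, fun ε hε => (hsol0 ε hε).1, ?_, heq, ?_⟩
  · have := heq 0 (by simpa using hδ)
    rw [zero_smul, map_zero] at this
    exact this
  · intro ε hε
    apply huniq (ε, 0) (hn ε 0 hε (by simpa using hδ))
    · rw [norm_cj]
      exact (hsol0 ε hε).1
    · have h1 := congrArg cj (heq ε hε)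
      rw [cj_PR, cj_rsmul, cj_G] at h1
      exact sub_eq_zero.2 h1
  · intro T hT ε x hε
    have h1 : ContDiffAt ℝ ∞ (fun p : ℝ × (ℝ × ℝ) => (p.1, p.2 - x)) (ε, x) :=
      (contDiff_fst.prodMk (contDiff_snd.sub contDiff_const)).contDiffAt
    have h2 : ContDiffAt ℝ ∞ φ ((fun p : ℝ × (ℝ × ℝ) => (p.1, p.2 - x)) (ε, x)) := by
      apply hsm
      simp only [sub_self]
      exact hn ε 0 hε (by simpa using hδ)
    have h3 := h2.comp (ε, x) h1
    have h4 : ContDiffAt ℝ ∞ (fun p : ℝ × (ℝ × ℝ) => ev α β x (T (φ (p.1, p.2 - x)))) (ε, x) :=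
      (((ev α β x).comp T).restrictScalars ℝ).contDiff.contDiffAt.comp (ε, x) h3
    apply h4.congr_of_eventuallyEq
    have h5 : ∀ᶠ p : ℝ × (ℝ × ℝ) in nhds (ε, x), |p.1| < δ := by
      have : Continuous fun p : ℝ × (ℝ × ℝ) => |p.1| := continuous_fst.abs
      exact this.continuousAt.eventually_lt continuousAt_const hε
    have h6 : ∀ᶠ p : ℝ × (ℝ × ℝ) in nhds (ε, x), ‖p.2 - x‖ < δ := by
      have : Continuous fun p : ℝ × (ℝ × ℝ) => ‖p.2 - x‖ := (continuous_snd.sub continuous_const).norm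
      exact this.continuousAt.eventually_lt continuousAt_const (by simpa using hδ)
    filter_upwards [h5, h6] with p hp1 hp2
    rw [← htau p.1 (p.2 - x) hp1 hp2, ← hT, ev_tau]
    congr 2
    abel

end main

section eval
variable {α β : ℤ × ℤ →+ ℝ} {C : ℝ}

theorem contDiff_ev {b : WA} (hb : ∀ m : ℕ, Summable fun k => (1 + |α k| + |β k|) ^ m * ‖cf b k‖) :
    ContDiff ℝ ∞ fun x => ev α β x b := by
  have h1 : (fun x => ev α β x b) = fun x => ev α β 0 (tau α β x b) := by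
    funext x
    rw [ev_tau, zero_add]
  rw [h1]
  exact ((ev α β 0).restrictScalars ℝ).contDiff.comp (contDiff_tau α β b hb)

/-- real part of the function -/
noncomputable def R (α β : ℤ × ℤ →+ ℝ) (a : WA) (x : ℝ × ℝ) : ℝ := (ev α β x a).re

theorem R_add (a b : WA) (x : ℝ × ℝ) : R α β (a + b) x = R α β a x + R α β b x := by
  simp [R]

theorem ofReal_R {a : WA} (ha : cj a = a) (x : ℝ × ℝ) : ((R α β a x : ℝ) : ℂ) = ev α β x a := by
  have h := ev_cj α β x a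
  rw [ha] at h
  exact Complex.conj_eq_iff_re.1 h.symm

theorem abs_R_le (a : WA) (x : ℝ × ℝ) : |R α β a x| ≤ ‖a‖ :=
  (Complex.abs_re_le_norm _).trans (norm_ev_le α β x a)

theorem contDiff_R {a : WA} (ha : ContDiff ℝ ∞ fun x => ev α β x a) : ContDiff ℝ ∞ (R α β a) :=
  Complex.reCLM.contDiff.comp ha

theorem D1_R {a a' : WA} (ha : ContDiff ℝ ∞ fun x => ev α β x a)
    (h : ∀ k, cf a' k = Complex.I * α k * cf a k) : D1 (R α β a) = R α β a' := by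
  funext x
  have h1 : HasFDerivAt (R α β a) (fderiv ℝ (R α β a) x) (x + (0 : ℝ) • ((1, 0) : ℝ × ℝ)) := by
    rw [zero_smul, add_zero]
    exact ((contDiff_R ha).differentiable (by simp)).differentiableAt.hasFDerivAt
  have h2 : HasDerivAt (fun t : ℝ => x + t • ((1, 0) : ℝ × ℝ)) (1, 0) 0 := by
    simpa using ((hasDerivAt_id (0 : ℝ)).smul_const ((1, 0) : ℝ × ℝ)).const_add x
  have h3 := h1.comp_hasDerivAt (0 : ℝ) h2
  have h4 := Complex.reCLM.hasFDerivAt.comp_hasDerivAt (0 : ℝ) (hasDerivAt_ev1 α β a a' h x)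
  exact h3.unique h4

theorem D2_R {a a' : WA} (ha : ContDiff ℝ ∞ fun x => ev α β x a)
    (h : ∀ k, cf a' k = Complex.I * β k * cf a k) : D2 (R α β a) = R α β a' := by
  funext x
  have h1 : HasFDerivAt (R α β a) (fderiv ℝ (R α β a) x) (x + (0 : ℝ) • ((0, 1) : ℝ × ℝ)) := by
    rw [zero_smul, add_zero]
    exact ((contDiff_R ha).differentiable (by simp)).differentiableAt.hasFDerivAt
  have h2 : HasDerivAt (fun t : ℝ => x + t • ((0, 1) : ℝ × ℝ)) (0, 1) 0 := by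
    simpa using ((hasDerivAt_id (0 : ℝ)).smul_const ((0, 1) : ℝ × ℝ)).const_add x
  have h3 := h1.comp_hasDerivAt (0 : ℝ) h2
  have h4 := Complex.reCLM.hasFDerivAt.comp_hasDerivAt (0 : ℝ) (hasDerivAt_ev2 α β a a' h x)
  exact h3.unique h4

theorem D1_add {f g : ℝ × ℝ → ℝ} (hf : ContDiff ℝ ∞ f) (hg : ContDiff ℝ ∞ g) :
    D1 (fun x => f x + g x) = fun x => D1 f x + D1 g x := by
  funext x
  have hf' := (hf.differentiable (by simp)).differentiableAt (x := x)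
  have hg' := (hg.differentiable (by simp)).differentiableAt (x := x)
  simp only [D1]
  rw [fderiv_fun_add hf' hg']
  rfl

theorem D2_add {f g : ℝ × ℝ → ℝ} (hf : ContDiff ℝ ∞ f) (hg : ContDiff ℝ ∞ g) :
    D2 (fun x => f x + g x) = fun x => D2 f x + D2 g x := by
  funext x
  have hf' := (hf.differentiable (by simp)).differentiableAt (x := x)
  have hg' := (hg.differentiable (by simp)).differentiableAt (x := x)
  simp only [D2]
  rw [fderiv_fun_add hf' hg']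
  rfl

theorem R_per {v : ℝ × ℝ} (hv : ∀ k, ∃ n : ℤ, α k * v.1 + β k * v.2 = 2 * Real.pi * n) (a : WA)
    (x : ℝ × ℝ) : R α β a (x + v) = R α β a x := by
  unfold R
  rw [ev_apply, ev_apply]
  congr 2
  funext k
  congr 1
  rw [chr_add']
  have : chr α β k v = 1 := by
    obtain ⟨n, hn⟩ := hv k
    unfold chr
    have h1 : Complex.I * (α k * v.1 + β k * v.2) = n * (2 * Real.pi * Complex.I) := by
      have : ((α k * v.1 + β k * v.2 : ℝ) : ℂ) = ((2 * Real.pi * n : ℝ) : ℂ) := by rw [hn]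
      push_cast at this
      rw [this]; ring
    rw [h1, Complex.exp_int_mul_two_pi_mul_I]
  rw [this, mul_one]

variable (hF : Freq α β C) (d : WD α β)

theorem cf_T1 (f : WA) (k : ℤ × ℤ) : cf (T1 hF f) k = Complex.I * α k * cf (T0 hF f) k := by
  rw [T1, T0, cf_mult, cf_mult, s1, s0]
  push_cast
  ring

theorem cf_T2 (f : WA) (k : ℤ × ℤ) : cf (T2 hF f) k = Complex.I * β k * cf (T0 hF f) k := by
  rw [T2, T0, cf_mult, cf_mult, s2, s0]
  push_cast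
  ring

theorem cf_T11 (f : WA) (k : ℤ × ℤ) : cf (T11 hF f) k = Complex.I * α k * cf (T1 hF f) k := by
  rw [T11, T1, cf_mult, cf_mult, s1, s11]
  push_cast
  linear_combination ((α k : ℂ) * α k / (α k ^ 2 + β k ^ 2) * cf f k) * Complex.I_sq

theorem cf_T12 (f : WA) (k : ℤ × ℤ) : cf (T12 hF f) k = Complex.I * α k * cf (T2 hF f) k := by
  rw [T12, T2, cf_mult, cf_mult, s2, s12]
  push_cast
  linear_combination ((α k : ℂ) * β k / (α k ^ 2 + β k ^ 2) * cf f k) * Complex.I_sq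

theorem cf_T22 (f : WA) (k : ℤ × ℤ) : cf (T22 hF f) k = Complex.I * β k * cf (T2 hF f) k := by
  rw [T22, T2, cf_mult, cf_mult, s2, s22]
  push_cast
  linear_combination ((β k : ℂ) * β k / (α k ^ 2 + β k ^ 2) * cf f k) * Complex.I_sq

/-- the fixed point equation evaluated at a point -/
theorem eval_eq {ε : ℝ} {f : WA} (hf : cj f = f) (h : f = PR hF (ε • G hF d 0 f)) (x : ℝ × ℝ) :
    R α β f x = ε * poly (Real.exp (2 * R α β (T0 hF f) x)) (R α β f x) (R α β (T1 hF f) x)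
      (R α β (T2 hF f) x) (R α β (d.b1 + T1 hF f) x) (R α β (d.b2 + T2 hF f) x)
      (R α β (d.b11 + T11 hF f) x) (R α β (d.b12 + T12 hF f) x) (R α β (d.b22 + T22 hF f) x)
      - (cf (ε • G hF d 0 f) 0).re := by
  have h0 : cj (T0 hF f) = T0 hF f := by rw [cj_T0, hf]
  have h1 : cj (T1 hF f) = T1 hF f := by rw [cj_T1, hf]
  have h2 : cj (T2 hF f) = T2 hF f := by rw [cj_T2, hf]
  have k1 : cj (d.b1 + T1 hF f) = d.b1 + T1 hF f := by rw [cj_add, cj_T1, hf, d.r1]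
  have k2 : cj (d.b2 + T2 hF f) = d.b2 + T2 hF f := by rw [cj_add, cj_T2, hf, d.r2]
  have k11 : cj (d.b11 + T11 hF f) = d.b11 + T11 hF f := by rw [cj_add, cj_T11, hf, d.r11]
  have k12 : cj (d.b12 + T12 hF f) = d.b12 + T12 hF f := by rw [cj_add, cj_T12, hf, d.r12]
  have k22 : cj (d.b22 + T22 hF f) = d.b22 + T22 hF f := by rw [cj_add, cj_T22, hf, d.r22]
  have hE : ev α β x (NormedSpace.exp (T0 hF f + T0 hF f)) =
      ((Real.exp (2 * R α β (T0 hF f) x) : ℝ) : ℂ) := by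
    rw [ev_exp, map_add, ← ofReal_R h0, Complex.ofReal_exp]
    congr 1
    push_cast
    ring
  have hG : ev α β x (G hF d 0 f) = ((poly (Real.exp (2 * R α β (T0 hF f) x)) (R α β f x)
      (R α β (T1 hF f) x)
      (R α β (T2 hF f) x) (R α β (d.b1 + T1 hF f) x) (R α β (d.b2 + T2 hF f) x)
      (R α β (d.b11 + T11 hF f) x) (R α β (d.b12 + T12 hF f) x)
      (R α β (d.b22 + T22 hF f) x) : ℝ) : ℂ) := by
    have e1 := map_poly (evR α β x) (NormedSpace.exp (T0 hF f + T0 hF f)) f (T1 hF f) (T2 hF f)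
      (d.b1 + T1 hF f) (d.b2 + T2 hF f) (d.b11 + T11 hF f) (d.b12 + T12 hF f) (d.b22 + T22 hF f)
    have e2 := map_poly Complex.ofRealHom (Real.exp (2 * R α β (T0 hF f) x)) (R α β f x)
      (R α β (T1 hF f) x)
      (R α β (T2 hF f) x) (R α β (d.b1 + T1 hF f) x) (R α β (d.b2 + T2 hF f) x)
      (R α β (d.b11 + T11 hF f) x) (R α β (d.b12 + T12 hF f) x)
      (R α β (d.b22 + T22 hF f) x)
    simp only [Complex.ofRealHom_eq_coe] at e2
    rw [e2]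
    change ev α β x _ = poly (ev α β x _) (ev α β x _) (ev α β x _) (ev α β x _) (ev α β x _)
      (ev α β x _) (ev α β x _) (ev α β x _) (ev α β x _) at e1
    unfold G
    simp only [tau_zero]
    rw [e1, hE, ofReal_R hf, ofReal_R h1, ofReal_R h2, ofReal_R k1, ofReal_R k2, ofReal_R k11,
      ofReal_R k12, ofReal_R k22]
  have h3 : ev α β x f = ev α β x (ε • G hF d 0 f) - cf (ε • G hF d 0 f) 0 := by
    have e3 : f = ε • G hF d 0 f - cf (ε • G hF d 0 f) 0 • (1 : WA) := by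
      rw [← PR_eq hF]
      exact h
    have e4 := congrArg (ev α β x) e3
    rw [map_sub] at e4
    have e5 : ev α β x (cf (ε • G hF d 0 f) 0 • (1 : WA)) = cf (ε • G hF d 0 f) 0 := by
      rw [(ev α β x).map_smul, ev_one, smul_eq_mul, mul_one]
    rw [e5] at e4
    exact e4
  have h4 : ev α β x (ε • G hF d 0 f) = ε * ev α β x (G hF d 0 f) := by
    have := map_smul ((ev α β x).restrictScalars ℝ) ε (G hF d 0 f)
    rw [Complex.real_smul] at this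
    exact this
  rw [h4, hG] at h3
  have h5 := congrArg Complex.re h3
  rw [Complex.sub_re, ← Complex.ofReal_mul, Complex.ofReal_re] at h5
  exact h5

end eval

/-- frequency maps of a lattice -/
noncomputable def alH (v₁ v₂ : ℝ × ℝ) : ℤ × ℤ →+ ℝ where
  toFun := al v₁ v₂
  map_zero' := by simp [al]
  map_add' := by
    intro k l
    simp only [al, Prod.fst_add, Prod.snd_add]
    push_cast
    ring

/-- frequency maps of a lattice -/
noncomputable def beH (v₁ v₂ : ℝ × ℝ) : ℤ × ℤ →+ ℝ where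
  toFun := be v₁ v₂
  map_zero' := by simp [be]
  map_add' := by
    intro k l
    simp only [be, Prod.fst_add, Prod.snd_add]
    push_cast
    ring

theorem freq_v1 {v₁ v₂ : ℝ × ℝ} (hv : dt v₁ v₂ ≠ 0) (k : ℤ × ℤ) :
    alH v₁ v₂ k * v₁.1 + beH v₁ v₂ k * v₁.2 = 2 * Real.pi * k.1 := by
  change al v₁ v₂ k * v₁.1 + be v₁ v₂ k * v₁.2 = 2 * Real.pi * k.1
  have h : al v₁ v₂ k * v₁.1 + be v₁ v₂ k * v₁.2 =
      2 * Real.pi * k.1 * ((v₁.1 * v₂.2 - v₁.2 * v₂.1) / dt v₁ v₂) := by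
    unfold al be
    ring
  rw [h, show v₁.1 * v₂.2 - v₁.2 * v₂.1 = dt v₁ v₂ from rfl, div_self hv, mul_one]

theorem freq_v2 {v₁ v₂ : ℝ × ℝ} (hv : dt v₁ v₂ ≠ 0) (k : ℤ × ℤ) :
    alH v₁ v₂ k * v₂.1 + beH v₁ v₂ k * v₂.2 = 2 * Real.pi * k.2 := by
  change al v₁ v₂ k * v₂.1 + be v₁ v₂ k * v₂.2 = 2 * Real.pi * k.2
  have h : al v₁ v₂ k * v₂.1 + be v₁ v₂ k * v₂.2 =
      2 * Real.pi * k.2 * ((v₁.1 * v₂.2 - v₁.2 * v₂.1) / dt v₁ v₂) := by
    unfold al be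
    ring
  rw [h, show v₁.1 * v₂.2 - v₁.2 * v₂.1 = dt v₁ v₂ from rfl, div_self hv, mul_one]

theorem freq_lattice {v₁ v₂ : ℝ × ℝ} (hv : dt v₁ v₂ ≠ 0) :
    ∃ C, Freq (alH v₁ v₂) (beH v₁ v₂) C := by
  set K : ℝ := (v₁.1 ^ 2 + v₁.2 ^ 2) + (v₂.1 ^ 2 + v₂.2 ^ 2) with hK
  have hK0 : 0 ≤ K := by positivity
  have key : ∀ k : ℤ × ℤ, k ≠ 0 → 1 ≤ (alH v₁ v₂ k ^ 2 + beH v₁ v₂ k ^ 2) * K := by
    intro k hk
    have h1 := freq_v1 hv k
    have h2 := freq_v2 hv k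
    have h3 : (2 * Real.pi * k.1) ^ 2 + (2 * Real.pi * k.2) ^ 2 ≤
        (alH v₁ v₂ k ^ 2 + beH v₁ v₂ k ^ 2) * K := by
      rw [← h1, ← h2, hK]
      nlinarith [sq_nonneg (alH v₁ v₂ k * v₁.2 - beH v₁ v₂ k * v₁.1),
        sq_nonneg (alH v₁ v₂ k * v₂.2 - beH v₁ v₂ k * v₂.1)]
    have h4 : (1 : ℝ) ≤ (k.1 : ℝ) ^ 2 + (k.2 : ℝ) ^ 2 := by
      have h5 : (1 : ℤ) ≤ k.1 ^ 2 + k.2 ^ 2 := by
        by_contra hcon
        push Not at hcon
        have h6 : k.1 ^ 2 + k.2 ^ 2 = 0 := by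
          have := sq_nonneg k.1
          have := sq_nonneg k.2
          omega
        have h7 : k.1 = 0 := by nlinarith [sq_nonneg k.1, sq_nonneg k.2]
        have h8 : k.2 = 0 := by nlinarith [sq_nonneg k.1, sq_nonneg k.2]
        exact hk (Prod.ext h7 h8)
      exact_mod_cast h5
    have h5 : (1 : ℝ) ≤ (2 * Real.pi) ^ 2 := by
      nlinarith [Real.pi_gt_three]
    nlinarith
  have hne : ∀ k : ℤ × ℤ, k ≠ 0 → 0 < alH v₁ v₂ k ^ 2 + beH v₁ v₂ k ^ 2 := by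
    intro k hk
    have h1 := key k hk
    by_contra hcon
    push Not at hcon
    nlinarith
  have hinv : ∀ k : ℤ × ℤ, 1 / (alH v₁ v₂ k ^ 2 + beH v₁ v₂ k ^ 2) ≤ K := by
    intro k
    by_cases hk : k = 0
    · subst hk
      simp [hK0]
    · rw [div_le_iff₀ (hne k hk), mul_comm]
      exact key k hk
  have hlin : ∀ (k : ℤ × ℤ) (x : ℝ), |x| ^ 2 ≤ alH v₁ v₂ k ^ 2 + beH v₁ v₂ k ^ 2 →
      |x| / (alH v₁ v₂ k ^ 2 + beH v₁ v₂ k ^ 2) ≤ K + 1 := by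
    intro k x hx
    by_cases hk : k = 0
    · subst hk
      simp
      linarith
    · have h0 := hne k hk
      have h1 := hinv k
      have h2 : |x| ≤ 1 + (alH v₁ v₂ k ^ 2 + beH v₁ v₂ k ^ 2) := by
        nlinarith [sq_nonneg (|x| - 1)]
      calc |x| / (alH v₁ v₂ k ^ 2 + beH v₁ v₂ k ^ 2)
          ≤ (1 + (alH v₁ v₂ k ^ 2 + beH v₁ v₂ k ^ 2)) / (alH v₁ v₂ k ^ 2 + beH v₁ v₂ k ^ 2) :=
            div_le_div_of_nonneg_right h2 h0.le
        _ = 1 / (alH v₁ v₂ k ^ 2 + beH v₁ v₂ k ^ 2) + 1 := by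
            field_simp
        _ ≤ K + 1 := by linarith
  refine ⟨K + 1, by linarith, hne, fun k => (hinv k).trans (by linarith), fun k => ?_, fun k => ?_⟩
  · apply hlin
    rw [sq_abs]
    nlinarith [sq_nonneg (beH v₁ v₂ k)]
  · apply hlin
    rw [sq_abs]
    nlinarith [sq_nonneg (alH v₁ v₂ k)]

theorem sum_dec {c c' : ℤ × ℤ → ℂ} {A B : ℤ × ℤ → ℝ}
    (h : ∀ m : ℕ, Summable fun k => (1 + |A k| + |B k|) ^ m * ‖c k‖)
    (hc : ∀ k, ‖c' k‖ ≤ (1 + |A k| + |B k|) * ‖c k‖) :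
    ∀ m : ℕ, Summable fun k => (1 + |A k| + |B k|) ^ m * ‖c' k‖ := by
  intro m
  apply Summable.of_nonneg_of_le (fun k => by positivity) _ (h (m + 1))
  intro k
  calc (1 + |A k| + |B k|) ^ m * ‖c' k‖
      ≤ (1 + |A k| + |B k|) ^ m * ((1 + |A k| + |B k|) * ‖c k‖) := by
        gcongr
        exact hc k
    _ = _ := by ring

/-- Fourier data from a coefficient sequence -/
noncomputable def mkWD (α β : ℤ × ℤ →+ ℝ) (c : ℤ × ℤ → ℂ)
    (h : ∀ m : ℕ, Summable fun k => (1 + |α k| + |β k|) ^ m * ‖c k‖)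
    (hr : ∀ k, c (-k) = (starRingEnd ℂ) (c k)) : WD α β :=
  have A : ∀ c' : ℤ × ℤ → ℂ, (∀ m : ℕ, Summable fun k => (1 + |α k| + |β k|) ^ m * ‖c' k‖) →
      ∀ m : ℕ, Summable fun k => (1 + |α k| + |β k|) ^ m * ‖Complex.I * α k * c' k‖ :=
    fun c' h' => sum_dec h' fun k => by
      rw [norm_mul, norm_mul, Complex.norm_I, one_mul, Complex.norm_real, Real.norm_eq_abs]
      gcongr
      have := abs_nonneg (β k)
      linarith
  have B : ∀ c' : ℤ × ℤ → ℂ, (∀ m : ℕ, Summable fun k => (1 + |α k| + |β k|) ^ m * ‖c' k‖) →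
      ∀ m : ℕ, Summable fun k => (1 + |α k| + |β k|) ^ m * ‖Complex.I * β k * c' k‖ :=
    fun c' h' => sum_dec h' fun k => by
      rw [norm_mul, norm_mul, Complex.norm_I, one_mul, Complex.norm_real, Real.norm_eq_abs]
      gcongr
      have := abs_nonneg (α k)
      linarith
  have S : ∀ c' : ℤ × ℤ → ℂ, (∀ m : ℕ, Summable fun k => (1 + |α k| + |β k|) ^ m * ‖c' k‖) →
      Summable fun k => ‖c' k‖ := fun c' h' => by simpa using h' 0
  have hrA : ∀ c' : ℤ × ℤ → ℂ, (∀ k, c' (-k) = (starRingEnd ℂ) (c' k)) → ∀ k,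
      Complex.I * α (-k) * c' (-k) = (starRingEnd ℂ) (Complex.I * α k * c' k) := fun c' h' k => by
    rw [map_mul, map_mul, Complex.conj_I, Complex.conj_ofReal, h', map_neg]
    push_cast; ring
  have hrB : ∀ c' : ℤ × ℤ → ℂ, (∀ k, c' (-k) = (starRingEnd ℂ) (c' k)) → ∀ k,
      Complex.I * β (-k) * c' (-k) = (starRingEnd ℂ) (Complex.I * β k * c' k) := fun c' h' k => by
    rw [map_mul, map_mul, Complex.conj_I, Complex.conj_ofReal, h', map_neg]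
    push_cast; ring
  have hcj : ∀ (c' : ℤ × ℤ → ℂ) (hs : Summable fun k => ‖c' k‖),
      (∀ k, c' (-k) = (starRingEnd ℂ) (c' k)) → cj (WA.mk c' hs) = WA.mk c' hs :=
    fun c' hs h' => WA.ext fun k => by
      rw [cf_cj, cf_mk, cf_mk, h', Complex.conj_conj]
  { b0 := WA.mk c (S _ h)
    b1 := WA.mk (fun k => Complex.I * α k * c k) (S _ (A _ h))
    b2 := WA.mk (fun k => Complex.I * β k * c k) (S _ (B _ h))
    b11 := WA.mk (fun k => Complex.I * α k * (Complex.I * α k * c k)) (S _ (A _ (A _ h)))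
    b12 := WA.mk (fun k => Complex.I * α k * (Complex.I * β k * c k)) (S _ (A _ (B _ h)))
    b22 := WA.mk (fun k => Complex.I * β k * (Complex.I * β k * c k)) (S _ (B _ (B _ h)))
    h1 := fun _ => rfl
    h2 := fun _ => rfl
    h11 := fun _ => rfl
    h12 := fun _ => rfl
    h22 := fun _ => rfl
    d0 := h
    d1 := A _ h
    d2 := B _ h
    d11 := A _ (A _ h)
    d12 := A _ (B _ h)
    d22 := B _ (B _ h)
    r0 := hcj _ _ hr
    r1 := hcj _ _ (hrA c hr)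
    r2 := hcj _ _ (hrB c hr)
    r11 := hcj _ _ (hrA (fun k => Complex.I * α k * c k) (hrA c hr))
    r12 := hcj _ _ (hrA (fun k => Complex.I * β k * c k) (hrB c hr))
    r22 := hcj _ _ (hrB (fun k => Complex.I * β k * c k) (hrB c hr)) }

theorem cf_mkWD_b0 (α β : ℤ × ℤ →+ ℝ) (c : ℤ × ℤ → ℂ)
    (h : ∀ m : ℕ, Summable fun k => (1 + |α k| + |β k|) ^ m * ‖c k‖)
    (hr : ∀ k, c (-k) = (starRingEnd ℂ) (c k)) (k : ℤ × ℤ) :
    cf (mkWD α β c h hr).b0 k = c k := rfl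

theorem exists_WD {v₁ v₂ : ℝ × ℝ} (hv : dt v₁ v₂ ≠ 0) (w₀ : ℝ × ℝ → ℝ) (hw : ContDiff ℝ ∞ w₀)
    (hp : Per v₁ v₂ w₀) : ∃ d : WD (alH v₁ v₂) (beH v₁ v₂),
      w₀ = R (alH v₁ v₂) (beH v₁ v₂) d.b0 := by
  obtain ⟨c, h1, h2, h3⟩ := fourier_lattice hv w₀ hw hp
  have h1' : ∀ m : ℕ, Summable fun k => (1 + |alH v₁ v₂ k| + |beH v₁ v₂ k|) ^ m * ‖c k‖ := h1
  refine ⟨mkWD (alH v₁ v₂) (beH v₁ v₂) c h1' h2, ?_⟩
  funext x
  have h4 : ev (alH v₁ v₂) (beH v₁ v₂) x (mkWD (alH v₁ v₂) (beH v₁ v₂) c h1' h2).b0 =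
      (w₀ x : ℂ) := (h3 x).tsum_eq
  change w₀ x = (ev (alH v₁ v₂) (beH v₁ v₂) x (mkWD (alH v₁ v₂) (beH v₁ v₂) c h1' h2).b0).re
  rw [h4, Complex.ofReal_re]

/-- the reparametrisation of the parameter -/
noncomputable def kap (δ : ℝ) (t : ℝ) : ℝ := δ * (t ^ 2 / (1 + t ^ 2))

theorem contDiff_kap (δ : ℝ) : ContDiff ℝ ∞ (kap δ) := by
  unfold kap
  apply ContDiff.mul contDiff_const
  apply ContDiff.div (by fun_prop) (by fun_prop)
  intro t
  positivity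

theorem kap_zero (δ : ℝ) : kap δ 0 = 0 := by simp [kap]

theorem kap_pos {δ : ℝ} (hδ : 0 < δ) {t : ℝ} (ht : t ≠ 0) : 0 < kap δ t := by
  unfold kap
  positivity

theorem kap_nonneg {δ : ℝ} (hδ : 0 < δ) (t : ℝ) : 0 ≤ kap δ t := by
  unfold kap
  positivity

theorem kap_lt {δ : ℝ} (hδ : 0 < δ) (t : ℝ) : kap δ t < δ := by
  unfold kap
  have h : t ^ 2 / (1 + t ^ 2) < 1 := by
    rw [div_lt_one (by positivity)]
    linarith
  calc δ * (t ^ 2 / (1 + t ^ 2)) < δ * 1 := mul_lt_mul_of_pos_left h hδ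
    _ = δ := mul_one δ

section derivs
variable {α β : ℤ × ℤ →+ ℝ} {C : ℝ} (hF : Freq α β C) (d : WD α β)

/-- all the derivative relations -/
structure Rel (w₀ : ℝ × ℝ → ℝ) (f : WA) : Prop where
  U1 : D1 (R α β (T0 hF f)) = R α β (T1 hF f)
  U2 : D2 (R α β (T0 hF f)) = R α β (T2 hF f)
  U11 : D1 (R α β (T1 hF f)) = R α β (T11 hF f)
  U22 : D2 (R α β (T2 hF f)) = R α β (T22 hF f)
  W1 : D1 (fun x => w₀ x + R α β (T0 hF f) x) = R α β (d.b1 + T1 hF f)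
  W2 : D2 (fun x => w₀ x + R α β (T0 hF f) x) = R α β (d.b2 + T2 hF f)
  W11 : D1 (R α β (d.b1 + T1 hF f)) = R α β (d.b11 + T11 hF f)
  W12 : D1 (R α β (d.b2 + T2 hF f)) = R α β (d.b12 + T12 hF f)
  W22 : D2 (R α β (d.b2 + T2 hF f)) = R α β (d.b22 + T22 hF f)

theorem rel {w₀ : ℝ × ℝ → ℝ} (hd : w₀ = R α β d.b0) {f : WA}
    (hsl : ∀ T : WA →L[ℂ] WA, Comm α β T → ContDiff ℝ ∞ fun x : ℝ × ℝ => ev α β x (T f)) :
    Rel hF d w₀ f := by
  have hb0 := contDiff_ev d.d0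
  have hb1 := contDiff_ev d.d1
  have hb2 := contDiff_ev d.d2
  have hw : ContDiff ℝ ∞ w₀ := by rw [hd]; exact contDiff_R hb0
  have hw1 : D1 w₀ = R α β d.b1 := by rw [hd]; exact D1_R hb0 d.h1
  have hw2 : D2 w₀ = R α β d.b2 := by rw [hd]; exact D2_R hb0 d.h2
  have hU1 : D1 (R α β (T0 hF f)) = R α β (T1 hF f) := D1_R (hsl _ (comm_T0 hF)) (cf_T1 hF f)
  have hU2 : D2 (R α β (T0 hF f)) = R α β (T2 hF f) := D2_R (hsl _ (comm_T0 hF)) (cf_T2 hF f)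
  have hc1 : ContDiff ℝ ∞ fun x => ev α β x (d.b1 + T1 hF f) := by
    simp only [map_add]
    exact hb1.add (hsl _ (comm_T1 hF))
  have hc2 : ContDiff ℝ ∞ fun x => ev α β x (d.b2 + T2 hF f) := by
    simp only [map_add]
    exact hb2.add (hsl _ (comm_T2 hF))
  constructor
  · exact hU1
  · exact hU2
  · exact D1_R (hsl _ (comm_T1 hF)) (cf_T11 hF f)
  · exact D2_R (hsl _ (comm_T2 hF)) (cf_T22 hF f)
  · rw [D1_add hw (contDiff_R (hsl _ (comm_T0 hF))), hw1, hU1]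
    funext x
    rw [R_add]
  · rw [D2_add hw (contDiff_R (hsl _ (comm_T0 hF))), hw2, hU2]
    funext x
    rw [R_add]
  · exact D1_R hc1 fun k => by rw [cf_add, cf_add, d.h11, cf_T11]; ring
  · exact D1_R hc2 fun k => by rw [cf_add, cf_add, d.h12, cf_T12]; ring
  · exact D2_R hc2 fun k => by rw [cf_add, cf_add, d.h22, cf_T22]; ring

theorem pde_of {w₀ : ℝ × ℝ → ℝ} {f : WA} {ε : ℝ} (hrel : Rel hF d w₀ f) (hcj : cj f = f)
    (hfe : f = PR hF (ε • G hF d 0 f)) :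
    PDE ε (cf (ε • G hF d 0 f) 0).re (fun x => w₀ x + R α β (T0 hF f) x)
      (R α β (T0 hF f)) := by
  intro x
  unfold brk
  rw [hrel.W1, hrel.W2, hrel.U1, hrel.U2, hrel.U11, hrel.U22, hrel.W11, hrel.W12, hrel.W22]
  have e1 := eval_eq hF d hcj hfe x
  have e2 : R α β f x = R α β (T11 hF f) x + R α β (T22 hF f) x := by
    rw [← R_add, ← PR_apply]
    have : PR hF f = f := by
      conv_lhs => rw [hfe]
      rw [PR_PR]
      exact hfe.symm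
    rw [this]
  unfold poly at e1
  rw [← e2]
  linear_combination e1

theorem pos_of {w₀ : ℝ × ℝ → ℝ} {f : WA} {ε r M : ℝ} (hrel : Rel hF d w₀ f) (_hr : 0 ≤ r)
    (hM : ‖d.b1‖ + ‖d.b2‖ + C * r ≤ M) (hf : ‖f‖ ≤ r) (hε : 0 ≤ ε)
    (hs : ε * (Real.exp (2 * (C * r)) * (2 * M ^ 2)) ≤ 1 / 2) :
    Pos ε (fun x => w₀ x + R α β (T0 hF f) x) (R α β (T0 hF f)) := by
  intro x
  rw [hrel.W1, hrel.W2]
  have hC : 0 < C := lt_of_lt_of_le one_pos hF.one_le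
  have e0 : |R α β (T0 hF f) x| ≤ C * r :=
    (abs_R_le _ x).trans ((norm_mult_le _ C hC.le _ _).trans (by gcongr))
  have e1 : |R α β (d.b1 + T1 hF f) x| ≤ M := by
    apply (abs_R_le _ x).trans
    have h1 : ‖T1 hF f‖ ≤ C * r := (norm_mult_le _ C hC.le _ _).trans (by gcongr)
    have h2 := norm_add_le d.b1 (T1 hF f)
    have h3 := norm_nonneg d.b2
    linarith
  have e2 : |R α β (d.b2 + T2 hF f) x| ≤ M := by
    apply (abs_R_le _ x).trans
    have h1 : ‖T2 hF f‖ ≤ C * r := (norm_mult_le _ C hC.le _ _).trans (by gcongr)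
    have h2 := norm_add_le d.b2 (T2 hF f)
    have h3 := norm_nonneg d.b1
    linarith
  have e3 : Real.exp (2 * R α β (T0 hF f) x) ≤ Real.exp (2 * (C * r)) :=
    Real.exp_le_exp.2 (by linarith [le_abs_self (R α β (T0 hF f) x)])
  have e4 : R α β (d.b1 + T1 hF f) x ^ 2 + R α β (d.b2 + T2 hF f) x ^ 2 ≤ 2 * M ^ 2 := by
    have h1 := sq_le_sq' (abs_le.1 e1).1 (abs_le.1 e1).2
    have h2 := sq_le_sq' (abs_le.1 e2).1 (abs_le.1 e2).2
    linarith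
  have e5 : Real.exp (2 * R α β (T0 hF f) x) *
      (R α β (d.b1 + T1 hF f) x ^ 2 + R α β (d.b2 + T2 hF f) x ^ 2) ≤
      Real.exp (2 * (C * r)) * (2 * M ^ 2) :=
    mul_le_mul e3 e4 (by positivity) (by positivity)
  have e7 := mul_le_mul_of_nonneg_left e5 hε
  rw [mul_assoc]
  linarith

end derivs

theorem contDiff_reparam {Φ : ℝ × (ℝ × ℝ) → ℂ} {δ : ℝ} {κ : ℝ → ℝ} (hκ : ContDiff ℝ ∞ κ)
    (hκδ : ∀ t, |κ t| < δ) (h : ∀ ε x, |ε| < δ → ContDiffAt ℝ ∞ Φ (ε, x)) :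
    ContDiff ℝ ∞ fun p : ℝ × (ℝ × ℝ) => Φ (κ p.1, p.2) := by
  rw [contDiff_iff_contDiffAt]
  rintro ⟨t, x⟩
  have h1 : ContDiffAt ℝ ∞ (fun p : ℝ × (ℝ × ℝ) => (κ p.1, p.2)) (t, x) :=
    ((hκ.comp contDiff_fst).prodMk contDiff_snd).contDiffAt
  exact ContDiffAt.comp (g := Φ) (f := fun p : ℝ × (ℝ × ℝ) => (κ p.1, p.2)) (t, x)
    (h (κ t) x (hκδ t)) h1

theorem solve_aux {α β : ℤ × ℤ →+ ℝ} {C : ℝ} (hF : Freq α β C) (d : WD α β) {v₁ v₂ : ℝ × ℝ}
    (hp1 : ∀ k, ∃ n : ℤ, α k * v₁.1 + β k * v₁.2 = 2 * Real.pi * n)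
    (hp2 : ∀ k, ∃ n : ℤ, α k * v₂.1 + β k * v₂.2 = 2 * Real.pi * n)
    {w₀ : ℝ × ℝ → ℝ} (hd : w₀ = R α β d.b0) :
    ∃ (κ : ℝ → ℝ) (U : ℝ × (ℝ × ℝ) → ℝ) (c : ℝ → ℝ),
      ContDiff ℝ ∞ κ ∧ κ 0 = 0 ∧ (∀ t, t ≠ 0 → 0 < κ t) ∧ ContDiff ℝ ∞ U ∧
      (∀ x, U (0, x) = 0) ∧ (∀ t, Per v₁ v₂ fun x => U (t, x)) ∧
      (∀ t, Pos (κ t) (fun x => w₀ x + U (t, x)) (fun x => U (t, x))) ∧
      ∀ t, PDE (κ t) (c t) (fun x => w₀ x + U (t, x)) (fun x => U (t, x)) := by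
  obtain ⟨δ, r, F, hδ, hr, hF0, hFr, hFc, hFe, hFs⟩ := exists_family hF d
  have hC : 0 < C := lt_of_lt_of_le one_pos hF.one_le
  obtain ⟨M, hM⟩ : ∃ M, M = ‖d.b1‖ + ‖d.b2‖ + C * r := ⟨_, rfl⟩
  have hM0 : 0 ≤ M := by rw [hM]; positivity
  obtain ⟨K, hK⟩ : ∃ K, K = Real.exp (2 * (C * r)) * (2 * M ^ 2) := ⟨_, rfl⟩
  have hK0 : 0 ≤ K := by rw [hK]; positivity
  obtain ⟨δ', hδ'⟩ : ∃ δ', δ' = min δ (1 / (2 * K + 1)) := ⟨_, rfl⟩
  have hδ'0 : 0 < δ' := by rw [hδ']; exact lt_min hδ (by positivity)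
  have hδ'1 : δ' ≤ δ := by rw [hδ']; exact min_le_left _ _
  have hδ'2 : δ' ≤ 1 / (2 * K + 1) := by rw [hδ']; exact min_le_right _ _
  have hkap : ∀ t, |kap δ' t| < δ := fun t => by
    rw [abs_of_nonneg (kap_nonneg hδ'0 t)]
    exact (kap_lt hδ'0 t).trans_le hδ'1
  have hsm : ∀ T : WA →L[ℂ] WA, Comm α β T →
      ContDiff ℝ ∞ fun p : ℝ × (ℝ × ℝ) => ev α β p.2 (T (F (kap δ' p.1))) := by
    intro T hT
    exact contDiff_reparam (Φ := fun p : ℝ × (ℝ × ℝ) => ev α β p.2 (T (F p.1)))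
      (contDiff_kap δ') hkap (hFs T hT)
  have hsl : ∀ t, ∀ T : WA →L[ℂ] WA, Comm α β T →
      ContDiff ℝ ∞ fun x : ℝ × ℝ => ev α β x (T (F (kap δ' t))) := by
    intro t T hT
    exact ContDiff.comp (g := fun p : ℝ × (ℝ × ℝ) => ev α β p.2 (T (F (kap δ' p.1))))
      (f := fun x : ℝ × ℝ => (t, x)) (hsm T hT) (contDiff_const.prodMk contDiff_id)
  have hrel : ∀ t, Rel hF d w₀ (F (kap δ' t)) := fun t => rel hF d hd (hsl t)
  refine ⟨kap δ', fun p => R α β (T0 hF (F (kap δ' p.1))) p.2,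
    fun t => (cf (kap δ' t • G hF d 0 (F (kap δ' t))) 0).re, contDiff_kap δ', kap_zero δ',
    fun t ht => kap_pos hδ'0 ht, ?_, ?_, ?_, ?_, ?_⟩
  · exact Complex.reCLM.contDiff.comp (hsm _ (comm_T0 hF))
  · intro x
    simp only [kap_zero, hF0, map_zero, R, Complex.zero_re]
  · intro t
    exact ⟨fun x => R_per hp1 _ x, fun x => R_per hp2 _ x⟩
  · intro t
    apply pos_of hF d (hrel t) hr.le hM.ge (hFr _ (hkap t)).le (kap_nonneg hδ'0 t)
    rw [← hK]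
    have h1 : kap δ' t ≤ 1 / (2 * K + 1) := ((kap_lt hδ'0 t).le).trans hδ'2
    calc kap δ' t * K ≤ 1 / (2 * K + 1) * K := by gcongr
      _ ≤ 1 / 2 := by
          rw [one_div, inv_mul_eq_div, div_le_div_iff₀ (by positivity) (by norm_num)]
          linarith
  · intro t
    exact pde_of hF d (hrel t) (hFc _ (hkap t)) (hFe _ (hkap t))

end Solve

open Solve

theorem solve {v₁ v₂ : ℝ × ℝ} (hv : dt v₁ v₂ ≠ 0) (w₀ : ℝ × ℝ → ℝ) (hw : ContDiff ℝ ∞ w₀)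
    (hp : Per v₁ v₂ w₀) :
    ∃ (κ : ℝ → ℝ) (U : ℝ × (ℝ × ℝ) → ℝ) (c : ℝ → ℝ),
      ContDiff ℝ ∞ κ ∧ κ 0 = 0 ∧ (∀ t, t ≠ 0 → 0 < κ t) ∧ ContDiff ℝ ∞ U ∧
      (∀ x, U (0, x) = 0) ∧ (∀ t, Per v₁ v₂ fun x => U (t, x)) ∧
      (∀ t, Pos (κ t) (fun x => w₀ x + U (t, x)) (fun x => U (t, x))) ∧
      ∀ t, PDE (κ t) (c t) (fun x => w₀ x + U (t, x)) (fun x => U (t, x)) := by
  obtain ⟨C, hF⟩ := freq_lattice hv
  obtain ⟨d, hd⟩ := exists_WD hv w₀ hw hp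
  exact solve_aux hF d (fun k => ⟨k.1, freq_v1 hv k⟩) (fun k => ⟨k.2, freq_v2 hv k⟩) hd

end Vale.Agent.P205
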