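import Vale.Agent.Lib.P205.Family1
import Vale.Agent.Lib.P205.Geom
import Vale.Agent.Lib.P205.Solve

/-! # P205, module FAMILY -/

open scoped ContDiff

namespace Vale.Agent.P205

namespace Family

open Geom

/-! ## joint continuity -/

/-- derivative in the first space direction, of a function of time and space -/
noncomputable def J1 (V : ℝ × (ℝ × ℝ) → ℝ) (p : ℝ × (ℝ × ℝ)) : ℝ := fderiv ℝ V p (0, (1, 0))

/-- derivative in the second space direction, of a function of time and space -/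
noncomputable def J2 (V : ℝ × (ℝ × ℝ) → ℝ) (p : ℝ × (ℝ × ℝ)) : ℝ := fderiv ℝ V p (0, (0, 1))

theorem contDiff_J1 {V : ℝ × (ℝ × ℝ) → ℝ} (hV : ContDiff ℝ ∞ V) : ContDiff ℝ ∞ (J1 V) :=
  (hV.fderiv_right (m := ∞) (by simp)).clm_apply contDiff_const

theorem contDiff_J2 {V : ℝ × (ℝ × ℝ) → ℝ} (hV : ContDiff ℝ ∞ V) : ContDiff ℝ ∞ (J2 V) :=
  (hV.fderiv_right (m := ∞) (by simp)).clm_apply contDiff_const

theorem slice_fderiv {V : ℝ × (ℝ × ℝ) → ℝ} (hV : ContDiff ℝ ∞ V) (t : ℝ) (x a : ℝ × ℝ) :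
    fderiv ℝ (fun y => V (t, y)) x a = fderiv ℝ V (t, x) (0, a) := by
  have h1 : HasFDerivAt V (fderiv ℝ V (t, x)) (t, x) :=
    (hV.differentiable (by simp) (t, x)).hasFDerivAt
  have h2 : HasFDerivAt (fun y : ℝ × ℝ => (t, y)) (ContinuousLinearMap.inr ℝ ℝ (ℝ × ℝ)) x :=
    hasFDerivAt_prodMk_right t x
  have h3 : HasFDerivAt (fun y => V (t, y))
      ((fderiv ℝ V (t, x)).comp (ContinuousLinearMap.inr ℝ ℝ (ℝ × ℝ))) x := h1.comp x h2
  rw [h3.fderiv]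
  simp

theorem D1_slice {V : ℝ × (ℝ × ℝ) → ℝ} (hV : ContDiff ℝ ∞ V) (t : ℝ) :
    D1 (fun y => V (t, y)) = fun y => J1 V (t, y) :=
  funext fun x => slice_fderiv hV t x (1, 0)

theorem D2_slice {V : ℝ × (ℝ × ℝ) → ℝ} (hV : ContDiff ℝ ∞ V) (t : ℝ) :
    D2 (fun y => V (t, y)) = fun y => J2 V (t, y) :=
  funext fun x => slice_fderiv hV t x (0, 1)

theorem contDiff_slice {V : ℝ × (ℝ × ℝ) → ℝ} (hV : ContDiff ℝ ∞ V) (t : ℝ) :
    ContDiff ℝ ∞ fun y => V (t, y) := hV.comp (contDiff_const.prodMk contDiff_id)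

section joint

variable {κ : ℝ → ℝ} {W U : ℝ × (ℝ × ℝ) → ℝ} (hκ : Continuous κ) (hW : ContDiff ℝ ∞ W)
  (hU : ContDiff ℝ ∞ U)
  (hpos : ∀ t, Pos (κ t) (fun x => W (t, x)) (fun x => U (t, x)))

include hκ hW hU in
theorem cont_qq : Continuous fun p : ℝ × (ℝ × ℝ) =>
    qq (κ p.1) (fun x => W (p.1, x)) (fun x => U (p.1, x)) p.2 := by
  have h1 := (contDiff_J1 hW).continuous
  have h2 := (contDiff_J2 hW).continuous
  have h3 := hU.continuous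
  unfold qq
  simp only [D1_slice hW, D2_slice hW]
  fun_prop

include hκ hW hU hpos in
theorem cont_cc : Continuous fun p : ℝ × (ℝ × ℝ) =>
    cc (κ p.1) (fun x => W (p.1, x)) (fun x => U (p.1, x)) p.2 := by
  have h1 := cont_qq hκ hW hU
  have h3 := hU.continuous
  unfold cc
  apply Continuous.div
  · fun_prop
  · fun_prop
  · intro p
    have := qq_pos (hpos p.1) p.2
    positivity

include hκ hW hU hpos in
theorem cont_f1 : Continuous fun p : ℝ × (ℝ × ℝ) =>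
    f1 (κ p.1) (fun x => W (p.1, x)) (fun x => U (p.1, x)) p.2 := by
  have h1 := cont_qq hκ hW hU
  have h2 := cont_cc hκ hW hU hpos
  have h3 := (contDiff_J1 hW).continuous
  have h4 := (contDiff_J2 hW).continuous
  have h5 := (contDiff_J2 hU).continuous
  have h6 := (contDiff_J1 (contDiff_J1 hW)).continuous
  have h7 := (contDiff_J1 (contDiff_J2 hW)).continuous
  unfold f1
  apply Continuous.div
  · simp only [D1_slice hW, D2_slice hW, D2_slice hU, D1_slice (contDiff_J1 hW),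
      D1_slice (contDiff_J2 hW)]
    fun_prop
  · exact h1
  · intro p
    exact (qq_pos (hpos p.1) p.2).ne'

include hκ hW hU hpos in
theorem cont_f2 : Continuous fun p : ℝ × (ℝ × ℝ) =>
    f2 (κ p.1) (fun x => W (p.1, x)) (fun x => U (p.1, x)) p.2 := by
  have h1 := cont_qq hκ hW hU
  have h2 := cont_cc hκ hW hU hpos
  have h3 := (contDiff_J1 hW).continuous
  have h4 := (contDiff_J2 hW).continuous
  have h5 := (contDiff_J1 hU).continuous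
  have h6 := (contDiff_J2 (contDiff_J2 hW)).continuous
  have h7 := (contDiff_J1 (contDiff_J2 hW)).continuous
  unfold f2
  apply Continuous.div
  · simp only [D1_slice hW, D2_slice hW, D1_slice hU, D2_slice (contDiff_J2 hW),
      D1_slice (contDiff_J2 hW)]
    fun_prop
  · exact h1
  · intro p
    exact (qq_pos (hpos p.1) p.2).ne'

include hκ hW hU hpos in
theorem cont_PP {φ : ℝ → ℝ × ℝ → ℝ} (hφ : Continuous fun p : ℝ × (ℝ × ℝ) => φ p.1 p.2) :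
    Continuous fun p : ℝ × (ℝ × ℝ) =>
    PP (κ p.1) (fun x => W (p.1, x)) (fun x => U (p.1, x)) (φ p.1) p.2 := by
  have h2 := cont_cc hκ hW hU hpos
  have h3 := (contDiff_J1 hW).continuous
  have h4 := (contDiff_J2 hW).continuous
  have h5 := hU.continuous
  unfold PP
  simp only [D1_slice hW, D2_slice hW]
  fun_prop

include hκ hW hU hpos in
theorem cont_QQ {φ : ℝ → ℝ × ℝ → ℝ} (hφ : Continuous fun p : ℝ × (ℝ × ℝ) => φ p.1 p.2) :
    Continuous fun p : ℝ × (ℝ × ℝ) =>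
    QQ (κ p.1) (fun x => W (p.1, x)) (fun x => U (p.1, x)) (φ p.1) p.2 := by
  have h2 := cont_cc hκ hW hU hpos
  have h3 := (contDiff_J1 hW).continuous
  have h4 := (contDiff_J2 hW).continuous
  have h5 := hU.continuous
  unfold QQ
  simp only [D1_slice hW, D2_slice hW]
  fun_prop

end joint

/-- joint continuity of primitives -/
theorem cont_primitive {F : Type*} [NormedAddCommGroup F] [NormedSpace ℝ F] [CompleteSpace F]
    {P Q : ℝ → ℝ × ℝ → F} (hP : Continuous fun p : ℝ × (ℝ × ℝ) => P p.1 p.2)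
    (hQ : Continuous fun p : ℝ × (ℝ × ℝ) => Q p.1 p.2) {f : ℝ → ℝ × ℝ → F}
    (hf0 : ∀ t, f t 0 = 0) (hf : ∀ t x, HasFDerivAt (f t) (frm (P t) (Q t) x) x) :
    Continuous fun p : ℝ × (ℝ × ℝ) => f p.1 p.2 := by
  have hPt : ∀ t, Continuous (P t) := fun t => hP.comp (Continuous.prodMk_right t)
  have hQt : ∀ t, Continuous (Q t) := fun t => hQ.comp (Continuous.prodMk_right t)
  have e : (fun p : ℝ × (ℝ × ℝ) => f p.1 p.2) = fun p : ℝ × (ℝ × ℝ) =>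
      ∫ s in (0 : ℝ)..1, (p.2.1 • P p.1 (s • p.2) + p.2.2 • Q p.1 (s • p.2)) :=
    funext fun p => primitive_eq (hPt p.1) (hQt p.1) (hf0 p.1) (hf p.1) p.2
  rw [e]
  apply intervalIntegral.continuous_parametric_intervalIntegral_of_continuous'
  have h1 : Continuous fun z : (ℝ × (ℝ × ℝ)) × ℝ => P z.1.1 (z.2 • z.1.2) :=
    hP.comp (by fun_prop : Continuous fun z : (ℝ × (ℝ × ℝ)) × ℝ => (z.1.1, z.2 • z.1.2))
  have h2 : Continuous fun z : (ℝ × (ℝ × ℝ)) × ℝ => Q z.1.1 (z.2 • z.1.2) :=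
    hQ.comp (by fun_prop : Continuous fun z : (ℝ × (ℝ × ℝ)) × ℝ => (z.1.1, z.2 • z.1.2))
  have h3 : Continuous fun z : (ℝ × (ℝ × ℝ)) × ℝ =>
      z.1.2.1 • P z.1.1 (z.2 • z.1.2) + z.1.2.2 • Q z.1.1 (z.2 • z.1.2) := by fun_prop
  exact h3

theorem D1_of_frm {F : Type*} [NormedAddCommGroup F] [NormedSpace ℝ F] {P Q f : ℝ × ℝ → F}
    (h : ∀ x, HasFDerivAt f (frm P Q x) x) : D1 f = P := by
  funext x
  unfold D1
  rw [(h x).fderiv, frm_apply]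
  simp

theorem D2_of_frm {F : Type*} [NormedAddCommGroup F] [NormedSpace ℝ F] {P Q f : ℝ × ℝ → F}
    (h : ∀ x, HasFDerivAt f (frm P Q x) x) : D2 f = Q := by
  funext x
  unfold D2
  rw [(h x).fderiv, frm_apply]
  simp

section one

variable {ε : ℝ} {w u φ : ℝ × ℝ → ℝ} {Z : ℝ × ℝ → ℂ}

/-- the curl of `(f1, f2)` vanishes -/
theorem curl_zero {v₁ v₂ : ℝ × ℝ} (hv : dt v₁ v₂ ≠ 0) {c : ℝ}
    (hw : ContDiff ℝ ∞ w) (hu : ContDiff ℝ ∞ u) (hpw : Per v₁ v₂ w) (hpu : Per v₁ v₂ u)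
    (hpos : Pos ε w u) (h : PDE ε c w u) (x : ℝ × ℝ) : D2 (f1 ε w u) x = D1 (f2 ε w u) x := by
  have hc := const_eq_zero hv hw hu hpw hpu hpos h
  have h1 := curl_f hw hu hpos x
  rw [h x, hc] at h1
  have hq := qq_pos hpos x
  have h2 : qq ε w u x ^ 3 * (D2 (f1 ε w u) x - D1 (f2 ε w u) x) = 0 := by
    rw [h1]; ring
  rcases mul_eq_zero.1 h2 with h3 | h3
  · exact absurd h3 (by positivity)
  · linarith

theorem fderiv_Z (hZ : ∀ x, HasFDerivAt Z (frm (PP ε w u φ) (QQ ε w u φ) x) x) (x a : ℝ × ℝ) :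
    fderiv ℝ Z x a = (a.1 : ℂ) * PP ε w u φ x + (a.2 : ℂ) * QQ ε w u φ x := by
  rw [(hZ x).fderiv, frm_apply, Complex.real_smul, Complex.real_smul]

theorem Z_inj (hε : 0 ≤ ε) (hpos : Pos ε w u)
    (hZ : ∀ x, HasFDerivAt Z (frm (PP ε w u φ) (QQ ε w u φ) x) x) (x a : ℝ × ℝ)
    (h : fderiv ℝ Z x a = 0) : a = 0 := by
  have h1 := norm_PQ (φ := φ) hpos x a
  rw [← fderiv_Z hZ, h] at h1
  simp only [norm_zero] at h1
  have h2 := hpos x
  have e1 : Real.exp (-2 * u x) * Real.exp (2 * u x) = 1 := by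
    rw [← Real.exp_add]; simp
  have hCS : (a.1 * D1 w x + a.2 * D2 w x) ^ 2 ≤
      (a.1 ^ 2 + a.2 ^ 2) * (D1 w x ^ 2 + D2 w x ^ 2) := by
    nlinarith [sq_nonneg (a.1 * D2 w x - a.2 * D1 w x)]
  have hE : 0 < Real.exp (2 * u x) := Real.exp_pos _
  have h3 : a.1 ^ 2 + a.2 ^ 2 = ε * Real.exp (2 * u x) * (a.1 * D1 w x + a.2 * D2 w x) ^ 2 := by
    have : Real.exp (-2 * u x) * (a.1 ^ 2 + a.2 ^ 2) = ε * (a.1 * D1 w x + a.2 * D2 w x) ^ 2 := by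
      linarith
    calc a.1 ^ 2 + a.2 ^ 2 = (Real.exp (-2 * u x) * Real.exp (2 * u x)) * (a.1 ^ 2 + a.2 ^ 2) := by
          rw [e1, one_mul]
      _ = Real.exp (2 * u x) * (Real.exp (-2 * u x) * (a.1 ^ 2 + a.2 ^ 2)) := by ring
      _ = _ := by rw [this]; ring
  have h4 : ε * Real.exp (2 * u x) * (a.1 * D1 w x + a.2 * D2 w x) ^ 2 ≤
      ε * Real.exp (2 * u x) * ((a.1 ^ 2 + a.2 ^ 2) * (D1 w x ^ 2 + D2 w x ^ 2)) :=
    mul_le_mul_of_nonneg_left hCS (by positivity)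
  have h5 : 0 ≤ a.1 ^ 2 + a.2 ^ 2 := by positivity
  have h6 : a.1 ^ 2 + a.2 ^ 2 ≤ 1 / 2 * (a.1 ^ 2 + a.2 ^ 2) := by
    calc a.1 ^ 2 + a.2 ^ 2 ≤
        (ε * Real.exp (2 * u x) * (D1 w x ^ 2 + D2 w x ^ 2)) * (a.1 ^ 2 + a.2 ^ 2) := by
          rw [h3] at h4 ⊢
          rw [← h3] at h4 ⊢
          linarith
      _ ≤ 1 / 2 * (a.1 ^ 2 + a.2 ^ 2) := mul_le_mul_of_nonneg_right (by linarith) h5
  have h7 : a.1 ^ 2 + a.2 ^ 2 = 0 := by linarith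
  have h8 : a.1 = 0 := by nlinarith [sq_nonneg a.1, sq_nonneg a.2]
  have h9 : a.2 = 0 := by nlinarith [sq_nonneg a.1, sq_nonneg a.2]
  exact Prod.ext h8 h9

theorem phi_add {v : ℝ × ℝ} (hφd : ContDiff ℝ ∞ φ) (hφ0 : φ 0 = 0)
    (hφ : ∀ x, HasFDerivAt φ (frm (f1 ε w u) (f2 ε w u) x) x)
    (h1 : ∀ x, f1 ε w u (x + v) = f1 ε w u x) (h2 : ∀ x, f2 ε w u (x + v) = f2 ε w u x)
    (x : ℝ × ℝ) : φ (x + v) = φ x + φ v := by
  have := const_of_fderiv (hφd.differentiable (by simp)) (v := v)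
    (L := ContinuousLinearMap.id ℝ ℝ) (by
      intro x
      rw [ContinuousLinearMap.id_comp, (hφ _).fderiv, (hφ _).fderiv]
      unfold frm
      rw [h1, h2]) x
  simpa [hφ0] using this

theorem fderiv_Z_add {v : ℝ × ℝ} (hφa : ∀ x, φ (x + v) = φ x + φ v)
    (hu : ∀ x, u (x + v) = u x) (hc : ∀ x, cc ε w u (x + v) = cc ε w u x)
    (h1 : ∀ x, D1 w (x + v) = D1 w x) (h2 : ∀ x, D2 w (x + v) = D2 w x)
    (hZ : ∀ x, HasFDerivAt Z (frm (PP ε w u φ) (QQ ε w u φ) x) x) (x : ℝ × ℝ) :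
    fderiv ℝ Z (x + v) = Complex.exp (Complex.I * φ v) • fderiv ℝ Z x := by
  have e : Complex.exp (Complex.I * φ (x + v) - u (x + v)) =
      Complex.exp (Complex.I * φ v) * Complex.exp (Complex.I * φ x - u x) := by
    rw [← Complex.exp_add, hφa, hu]
    congr 1
    push_cast
    ring
  refine ContinuousLinearMap.ext fun a => ?_
  rw [fderiv_Z hZ]
  have e2 : (Complex.exp (Complex.I * φ v) • fderiv ℝ Z x) a =
      Complex.exp (Complex.I * φ v) * fderiv ℝ Z x a := rfl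
  rw [e2, fderiv_Z hZ]
  unfold PP QQ
  rw [e, hc, h1, h2]
  ring

end one

theorem family_aux {v₁ v₂ : ℝ × ℝ} (hv : dt v₁ v₂ ≠ 0) {ε : ℝ} (hε : 0 ≤ ε) {w₀ w u φ : ℝ × ℝ → ℝ}
    {Z : ℝ × ℝ → ℂ} (hpw : Per v₁ v₂ w)
    (hpu : Per v₁ v₂ u) (hpos : Pos ε w u) (hφd : ContDiff ℝ ∞ φ) (hφ0 : φ 0 = 0)
    (hφ : ∀ x, HasFDerivAt φ (frm (f1 ε w u) (f2 ε w u) x) x) (hZd : ContDiff ℝ ∞ Z)
    (hZ0 : Z 0 = 0) (hZ : ∀ x, HasFDerivAt Z (frm (PP ε w u φ) (QQ ε w u φ) x) x)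
    (hwu : ∀ x, w x = w₀ x + u x) :
    (∀ x, Z (x + v₁) = Z x + Z v₁) ∧ (∀ x, Z (x + v₂) = Z x + Z v₂) ∧
    ∀ x a : ℝ × ℝ, Real.exp (2 * w x) * (ε * fderiv ℝ w x a ^ 2 + ‖fderiv ℝ Z x a‖ ^ 2) =
      Real.exp (2 * w₀ x) * (a.1 ^ 2 + a.2 ^ 2) := by
  have hf1 := per_f1 (ε := ε) hpw hpu
  have hf2 := per_f2 (ε := ε) hpw hpu
  have hcc := per_cc (ε := ε) hpw hpu
  have hd1 := per_D1 hpw
  have hd2 := per_D2 hpw
  have k1 := fderiv_Z_add (v := v₁) (phi_add hφd hφ0 hφ hf1.1 hf2.1) hpu.1 hcc.1 hd1.1 hd2.1 hZ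
  have k2 := fderiv_Z_add (v := v₂) (phi_add hφd hφ0 hφ hf1.2 hf2.2) hpu.2 hcc.2 hd1.2 hd2.2 hZ
  have hn : ∀ r : ℝ, ‖Complex.exp (Complex.I * r)‖ = 1 := by
    intro r
    rw [mul_comm]
    exact Complex.norm_exp_ofReal_mul_I r
  obtain ⟨z1, z2⟩ := holonomy_trivial hv hZd (Z_inj hε hpos hZ) (hn _) (hn _) k1 k2
  have hadd : ∀ v, (∀ x, fderiv ℝ Z (x + v) = fderiv ℝ Z x) → ∀ x, Z (x + v) = Z x + Z v := by
    intro v h x
    have := const_of_fderiv (hZd.differentiable (by simp)) (v := v)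
      (L := ContinuousLinearMap.id ℝ ℂ) (by
        intro x
        rw [ContinuousLinearMap.id_comp, h x]) x
    simpa [hZ0] using this
  refine ⟨hadd v₁ fun x => ?_, hadd v₂ fun x => ?_, fun x a => ?_⟩
  · rw [k1, z1, one_smul]
  · rw [k2, z2, one_smul]
  · rw [fderiv_Z hZ, norm_PQ hpos, fderiv_apply_eq, smul_eq_mul, smul_eq_mul, hwu x]
    have e1 : Real.exp (2 * (w₀ x + u x)) * Real.exp (-2 * u x) = Real.exp (2 * w₀ x) := by
      rw [← Real.exp_add]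
      congr 1
      ring
    rw [← e1]
    ring

end Family

open Family Geom in
theorem family {v₁ v₂ : ℝ × ℝ} (hv : dt v₁ v₂ ≠ 0) (w₀ : ℝ × ℝ → ℝ) (hw : ContDiff ℝ ∞ w₀)
    (hp : Per v₁ v₂ w₀) :
    ∃ (κ : ℝ → ℝ) (V₁ V₂ : ℝ → ℂ), Continuous κ ∧ κ 0 = 0 ∧ (∀ t, t ≠ 0 → 0 < κ t) ∧
      Continuous V₁ ∧ Continuous V₂ ∧ V₁ 0 = ⟨v₁.1, v₁.2⟩ ∧ V₂ 0 = ⟨v₂.1, v₂.2⟩ ∧
      ∀ t, ∃ (w : ℝ × ℝ → ℝ) (Z : ℝ × ℝ → ℂ), ContDiff ℝ ∞ w ∧ ContDiff ℝ ∞ Z ∧ Per v₁ v₂ w ∧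
        (∀ x, Z (x + v₁) = Z x + V₁ t) ∧ (∀ x, Z (x + v₂) = Z x + V₂ t) ∧
        ∀ x a : ℝ × ℝ, Real.exp (2 * w x) * (κ t * fderiv ℝ w x a ^ 2 + ‖fderiv ℝ Z x a‖ ^ 2) =
          Real.exp (2 * w₀ x) * (a.1 ^ 2 + a.2 ^ 2) := by
  obtain ⟨κ, U, c, hκ, hκ0, hκpos, hU, hU0, hUper, hpos, hpde⟩ := solve hv w₀ hw hp
  obtain ⟨W, hWdef⟩ : ∃ W : ℝ × (ℝ × ℝ) → ℝ, W = fun p => w₀ p.2 + U p := ⟨_, rfl⟩
  have hW : ContDiff ℝ ∞ W := by
    rw [hWdef]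
    exact (hw.comp contDiff_snd).add hU
  have hWt : ∀ t, (fun x => w₀ x + U (t, x)) = fun x => W (t, x) := by
    intro t; rw [hWdef]
  have hpos' : ∀ t, Pos (κ t) (fun x => W (t, x)) (fun x => U (t, x)) := by
    intro t; rw [← hWt]; exact hpos t
  have hpde' : ∀ t, PDE (κ t) (c t) (fun x => W (t, x)) (fun x => U (t, x)) := by
    intro t; rw [← hWt]; exact hpde t
  have hpW : ∀ t, Per v₁ v₂ fun x => W (t, x) := by
    intro t
    rw [← hWt]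
    refine ⟨fun x => ?_, fun x => ?_⟩
    · have e1 := hp.1 x
      have e2 := (hUper t).1 x
      simp only at e2 ⊢
      rw [e1, e2]
    · have e1 := hp.2 x
      have e2 := (hUper t).2 x
      simp only at e2 ⊢
      rw [e1, e2]
  have hwt : ∀ t, ContDiff ℝ ∞ fun x => W (t, x) := fun t => contDiff_slice hW t
  have hut : ∀ t, ContDiff ℝ ∞ fun x => U (t, x) := fun t => contDiff_slice hU t
  have hφex : ∀ t, ∃ φ : ℝ × ℝ → ℝ, ContDiff ℝ ∞ φ ∧ φ 0 = 0 ∧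
      ∀ x, HasFDerivAt φ (frm (f1 (κ t) (fun x => W (t, x)) (fun x => U (t, x)))
        (f2 (κ t) (fun x => W (t, x)) (fun x => U (t, x))) x) x := fun t =>
    exists_primitive (contDiff_f1 (hwt t) (hut t) (hpos' t)) (contDiff_f2 (hwt t) (hut t) (hpos' t))
      (curl_zero hv (hwt t) (hut t) (hpW t) (hUper t) (hpos' t) (hpde' t))
  choose φ hφd hφ0 hφ using hφex
  have hZex : ∀ t, ∃ Z : ℝ × ℝ → ℂ, ContDiff ℝ ∞ Z ∧ Z 0 = 0 ∧
      ∀ x, HasFDerivAt Z (frm (PP (κ t) (fun x => W (t, x)) (fun x => U (t, x)) (φ t))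
        (QQ (κ t) (fun x => W (t, x)) (fun x => U (t, x)) (φ t)) x) x := fun t =>
    exists_primitive (contDiff_PP (hwt t) (hut t) (hφd t) (hpos' t))
      (contDiff_QQ (hwt t) (hut t) (hφd t) (hpos' t))
      (closed_PQ (hwt t) (hut t) (hφd t) (hpos' t) (D1_of_frm (hφ t)) (D2_of_frm (hφ t)))
  choose Z hZd hZ0 hZ using hZex
  have hφc : Continuous fun p : ℝ × (ℝ × ℝ) => φ p.1 p.2 :=
    cont_primitive (P := fun t => f1 (κ t) (fun x => W (t, x)) (fun x => U (t, x)))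
      (Q := fun t => f2 (κ t) (fun x => W (t, x)) (fun x => U (t, x)))
      (cont_f1 hκ.continuous hW hU hpos') (cont_f2 hκ.continuous hW hU hpos') hφ0 hφ
  have hZc : Continuous fun p : ℝ × (ℝ × ℝ) => Z p.1 p.2 :=
    cont_primitive (P := fun t => PP (κ t) (fun x => W (t, x)) (fun x => U (t, x)) (φ t))
      (Q := fun t => QQ (κ t) (fun x => W (t, x)) (fun x => U (t, x)) (φ t))
      (cont_PP hκ.continuous hW hU hpos' hφc) (cont_QQ hκ.continuous hW hU hpos' hφc) hZ0 hZ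
  -- the values at time zero
  have hf10 : ∀ x, f1 (κ 0) (fun x => W (0, x)) (fun x => U (0, x)) x = 0 := by
    intro x
    have e : (fun x => U (0, x)) = fun _ : ℝ × ℝ => (0 : ℝ) := funext hU0
    unfold f1 cc
    rw [hκ0, e]
    simp [D2]
  have hf20 : ∀ x, f2 (κ 0) (fun x => W (0, x)) (fun x => U (0, x)) x = 0 := by
    intro x
    have e : (fun x => U (0, x)) = fun _ : ℝ × ℝ => (0 : ℝ) := funext hU0
    unfold f2 cc
    rw [hκ0, e]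
    simp [D1]
  have hφ00 : ∀ x, φ 0 x = 0 := by
    intro x
    rw [primitive_eq (contDiff_f1 (hwt 0) (hut 0) (hpos' 0)).continuous
      (contDiff_f2 (hwt 0) (hut 0) (hpos' 0)).continuous (hφ0 0) (hφ 0) x]
    simp [hf10, hf20]
  have hPP0 : ∀ x, PP (κ 0) (fun x => W (0, x)) (fun x => U (0, x)) (φ 0) x = 1 := by
    intro x
    unfold PP cc
    simp [hκ0, hU0, hφ00]
  have hQQ0 : ∀ x, QQ (κ 0) (fun x => W (0, x)) (fun x => U (0, x)) (φ 0) x = Complex.I := by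
    intro x
    unfold QQ cc
    simp [hκ0, hU0, hφ00]
  have hZ00 : ∀ v : ℝ × ℝ, Z 0 v = ⟨v.1, v.2⟩ := by
    intro v
    rw [primitive_eq (contDiff_PP (hwt 0) (hut 0) (hφd 0) (hpos' 0)).continuous
      (contDiff_QQ (hwt 0) (hut 0) (hφd 0) (hpos' 0)).continuous (hZ0 0) (hZ 0) v]
    simp only [hPP0, hQQ0]
    apply Complex.ext <;> simp
  refine ⟨κ, fun t => Z t v₁, fun t => Z t v₂, hκ.continuous, hκ0, hκpos, ?_, ?_, hZ00 v₁, hZ00 v₂,
    fun t => ⟨fun x => W (t, x), Z t, hwt t, hZd t, hpW t, ?_⟩⟩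
  · exact hZc.comp (Continuous.prodMk_left v₁)
  · exact hZc.comp (Continuous.prodMk_left v₂)
  · have hκt : 0 ≤ κ t := by
      by_cases h : t = 0
      · rw [h, hκ0]
      · exact (hκpos t h).le
    exact family_aux hv hκt (w₀ := w₀) (hpW t) (hUper t) (hpos' t) (hφd t) (hφ0 t) (hφ t)
      (hZd t) (hZ0 t) (hZ t) (fun x => by rw [hWdef])

end Vale.Agent.P205
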