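import Vale.Agent.Lib.P205.Basic

/-! # P205, module FAMILY, part 1: primitives, periodicity, holonomy -/

open scoped ContDiff

namespace Vale.Agent.P205

section prim

variable {F : Type*} [NormedAddCommGroup F] [NormedSpace ℝ F]

/-- the 1-form `P dx₁ + Q dx₂` -/
noncomputable def frm (P Q : ℝ × ℝ → F) (x : ℝ × ℝ) : ℝ × ℝ →L[ℝ] F :=
  (ContinuousLinearMap.fst ℝ ℝ ℝ).smulRight (P x) + (ContinuousLinearMap.snd ℝ ℝ ℝ).smulRight (Q x)

theorem frm_apply (P Q : ℝ × ℝ → F) (x a : ℝ × ℝ) : frm P Q x a = a.1 • P x + a.2 • Q x := by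
  simp [frm]

theorem fderiv_apply_eq {f : ℝ × ℝ → F} (x a : ℝ × ℝ) :
    fderiv ℝ f x a = a.1 • D1 f x + a.2 • D2 f x := by
  have : a = a.1 • ((1, 0) : ℝ × ℝ) + a.2 • ((0, 1) : ℝ × ℝ) := by
    ext <;> simp
  conv_lhs => rw [this]
  rw [map_add, map_smul, map_smul]
  rfl

theorem contDiff_frm {P Q : ℝ × ℝ → F} (hP : ContDiff ℝ ∞ P) (hQ : ContDiff ℝ ∞ Q) :
    ContDiff ℝ ∞ (frm P Q) := by
  unfold frm
  have h1 : ContDiff ℝ ∞ fun x => (ContinuousLinearMap.fst ℝ ℝ ℝ).smulRight (P x) :=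
    (ContinuousLinearMap.smulRightL ℝ (ℝ × ℝ) F (ContinuousLinearMap.fst ℝ ℝ ℝ)).contDiff.comp hP
  have h2 : ContDiff ℝ ∞ fun x => (ContinuousLinearMap.snd ℝ ℝ ℝ).smulRight (Q x) :=
    (ContinuousLinearMap.smulRightL ℝ (ℝ × ℝ) F (ContinuousLinearMap.snd ℝ ℝ ℝ)).contDiff.comp hQ
  exact h1.add h2

theorem fderiv_frm {P Q : ℝ × ℝ → F} (hP : ContDiff ℝ ∞ P) (hQ : ContDiff ℝ ∞ Q) (x y z : ℝ × ℝ) :
    fderiv ℝ (frm P Q) x y z = z.1 • fderiv ℝ P x y + z.2 • fderiv ℝ Q x y := by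
  have hP' : HasFDerivAt P (fderiv ℝ P x) x :=
    (hP.differentiable (by simp)).differentiableAt.hasFDerivAt
  have hQ' : HasFDerivAt Q (fderiv ℝ Q x) x :=
    (hQ.differentiable (by simp)).differentiableAt.hasFDerivAt
  have h1 := ((ContinuousLinearMap.smulRightL ℝ (ℝ × ℝ) F
    (ContinuousLinearMap.fst ℝ ℝ ℝ)).hasFDerivAt (x := P x)).comp x hP'
  have h2 := ((ContinuousLinearMap.smulRightL ℝ (ℝ × ℝ) F
    (ContinuousLinearMap.snd ℝ ℝ ℝ)).hasFDerivAt (x := Q x)).comp x hQ'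
  have h3 : HasFDerivAt (frm P Q) _ x := h1.add h2
  rw [h3.fderiv]
  simp

/-- Poincaré lemma in the plane. -/
theorem exists_primitive [CompleteSpace F] {P Q : ℝ × ℝ → F} (hP : ContDiff ℝ ∞ P)
    (hQ : ContDiff ℝ ∞ Q) (h : ∀ x, D2 P x = D1 Q x) :
    ∃ f : ℝ × ℝ → F, ContDiff ℝ ∞ f ∧ f 0 = 0 ∧ ∀ x, HasFDerivAt f (frm P Q x) x := by
  obtain ⟨f, hf⟩ := Convex.exists_forall_hasFDerivAt_of_fderiv_symmetric (s := Set.univ)
    convex_univ isOpen_univ ((contDiff_frm hP hQ).differentiable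
      (by simp)).differentiableOn (by
      intro a _ x y
      rw [fderiv_frm hP hQ, fderiv_frm hP hQ, fderiv_apply_eq (f := P), fderiv_apply_eq (f := Q),
        fderiv_apply_eq (f := P), fderiv_apply_eq (f := Q), h a]
      simp only [smul_add, smul_smul]
      rw [mul_comm y.1 x.1, mul_comm y.2 x.2, mul_comm y.2 x.1, mul_comm x.2 y.1]
      abel)
  refine ⟨fun x => f x - f 0, ?_, sub_self _, fun x => (hf x trivial).sub_const _⟩
  have hf' : ∀ x, HasFDerivAt (fun x => f x - f 0) (frm P Q x) x :=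
    fun x => (hf x trivial).sub_const _
  rw [contDiff_infty_iff_fderiv]
  refine ⟨fun x => (hf' x).differentiableAt, ?_⟩
  have : fderiv ℝ (fun x => f x - f 0) = frm P Q := funext fun x => (hf' x).fderiv
  rw [this]
  exact contDiff_frm hP hQ

/-- the primitive as an integral along the ray -/
theorem primitive_eq [CompleteSpace F] {P Q : ℝ × ℝ → F} (hP : Continuous P) (hQ : Continuous Q)
    {f : ℝ × ℝ → F} (hf0 : f 0 = 0) (hf : ∀ x, HasFDerivAt f (frm P Q x) x) (x : ℝ × ℝ) :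
    f x = ∫ s in (0 : ℝ)..1, (x.1 • P (s • x) + x.2 • Q (s • x)) := by
  have hd : ∀ s ∈ Set.uIcc (0 : ℝ) 1, HasDerivAt (fun s : ℝ => f (s • x))
      (x.1 • P (s • x) + x.2 • Q (s • x)) s := by
    intro s _
    have h1 : HasDerivAt (fun s : ℝ => s • x) x s := by
      simpa using (hasDerivAt_id s).smul_const x
    have h2 := (hf (s • x)).comp_hasDerivAt s h1
    rw [frm_apply] at h2
    exact h2
  have hc : Continuous fun s : ℝ => x.1 • P (s • x) + x.2 • Q (s • x) := by fun_prop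
  rw [intervalIntegral.integral_eq_sub_of_hasDerivAt hd (hc.intervalIntegrable _ _)]
  simp [hf0]

end prim

section per

theorem fderiv_of_add_const {F : Type*} [NormedAddCommGroup F] [NormedSpace ℝ F] {f : ℝ × ℝ → F}
    {v : ℝ × ℝ} {c : F} (h : ∀ x, f (x + v) = f x + c) (x : ℝ × ℝ) :
    fderiv ℝ f (x + v) = fderiv ℝ f x := by
  have h1 : (fun y => f (y + v)) = fun y => f y + c := funext h
  have h2 : fderiv ℝ (fun y => f (y + v)) x = fderiv ℝ f (x + v) := fderiv_comp_add_right v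
  rw [← h2, h1]
  exact fderiv_add_const c

theorem const_of_fderiv {F : Type*} [NormedAddCommGroup F] [NormedSpace ℝ F] {f : ℝ × ℝ → F}
    (hf : Differentiable ℝ f) {v : ℝ × ℝ} {L : F →L[ℝ] F}
    (h : ∀ x, fderiv ℝ f (x + v) = L.comp (fderiv ℝ f x)) (x : ℝ × ℝ) :
    f (x + v) = L (f x) + (f v - L (f 0)) := by
  have hd : Differentiable ℝ fun x => f (x + v) - L (f x) := by
    have h1 : Differentiable ℝ fun x => f (x + v) := hf.comp (differentiable_id.add_const v)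
    exact h1.sub (L.differentiable.comp hf)
  have hz : ∀ x, fderiv ℝ (fun x => f (x + v) - L (f x)) x = 0 := by
    intro x
    have h1 : HasFDerivAt (fun x => f (x + v)) (fderiv ℝ f (x + v)) x := by
      have := (hf (x + v)).hasFDerivAt.comp x ((hasFDerivAt_id x).add_const v)
      rw [ContinuousLinearMap.comp_id] at this
      exact this
    have h2 : HasFDerivAt (fun x => L (f x)) (L.comp (fderiv ℝ f x)) x :=
      L.hasFDerivAt.comp x (hf x).hasFDerivAt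
    have h3 : HasFDerivAt (fun x => f (x + v) - L (f x))
        (fderiv ℝ f (x + v) - L.comp (fderiv ℝ f x)) x := h1.sub h2
    rw [h3.fderiv, h x, sub_self]
  have := is_const_of_fderiv_eq_zero hd hz x 0
  simp only [zero_add] at this
  rw [← this]
  abel

theorem exists_max {v₁ v₂ : ℝ × ℝ} (hv : dt v₁ v₂ ≠ 0) {f : ℝ × ℝ → ℝ} (hf : Continuous f)
    (hp : Per v₁ v₂ f) : ∃ x₀, ∀ x, f x ≤ f x₀ := by
  set G : ℝ × ℝ → ℝ := fun p => f (p.1 • v₁ + p.2 • v₂) with hG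
  have hGc : Continuous G := by fun_prop
  obtain ⟨p, _, hpmax⟩ := (isCompact_Icc (a := ((0 : ℝ), (0 : ℝ))) (b := ((1 : ℝ), (1 : ℝ))))
    |>.exists_isMaxOn ⟨(0, 0), by simp [Prod.le_def]⟩ hGc.continuousOn
  refine ⟨p.1 • v₁ + p.2 • v₂, fun x => ?_⟩
  set s := (x.1 * v₂.2 - x.2 * v₂.1) / dt v₁ v₂ with hs
  set t := (v₁.1 * x.2 - v₁.2 * x.1) / dt v₁ v₂ with ht
  have hx : x = s • v₁ + t • v₂ := by
    have hd : dt v₁ v₂ = v₁.1 * v₂.2 - v₁.2 * v₂.1 := rfl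
    ext
    · simp only [Prod.fst_add, Prod.smul_fst, smul_eq_mul]
      rw [hs, ht]
      field_simp
      rw [hd]; ring
    · simp only [Prod.snd_add, Prod.smul_snd, smul_eq_mul]
      rw [hs, ht]
      field_simp
      rw [hd]; ring
  have hper1 : Function.Periodic f v₁ := hp.1
  have hper2 : Function.Periodic f v₂ := hp.2
  have e : f x = G (Int.fract s, Int.fract t) := by
    rw [hG]
    have h1 : x = (Int.fract s • v₁ + Int.fract t • v₂) + ⌊s⌋ • v₁ + ⌊t⌋ • v₂ := by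
      conv_lhs => rw [hx]
      have e1 : s = Int.fract s + (⌊s⌋ : ℝ) := (Int.fract_add_floor s).symm
      have e2 : t = Int.fract t + (⌊t⌋ : ℝ) := (Int.fract_add_floor t).symm
      conv_lhs => rw [e1, e2]
      rw [add_smul, add_smul, Int.cast_smul_eq_zsmul, Int.cast_smul_eq_zsmul]
      abel
    conv_lhs => rw [h1]
    rw [hper2.zsmul, hper1.zsmul]
  rw [e]
  apply hpmax
  rw [Set.mem_Icc, Prod.le_def, Prod.le_def]
  exact ⟨⟨Int.fract_nonneg s, Int.fract_nonneg t⟩, ⟨(Int.fract_lt_one s).le, (Int.fract_lt_one t).le⟩⟩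

end per

section hol

/-- the key step: an equivariant immersion with `|Z|²` periodic does not exist -/
theorem no_equivariant {v₁ v₂ : ℝ × ℝ} (hv : dt v₁ v₂ ≠ 0) {Z : ℝ × ℝ → ℂ}
    (hZ : Differentiable ℝ Z) (hinj : ∀ x a, fderiv ℝ Z x a = 0 → a = 0) {ζ₁ ζ₂ : ℂ}
    (hζ₁ : ‖ζ₁‖ = 1) (hζ₂ : ‖ζ₂‖ = 1) (h1 : ∀ x, Z (x + v₁) = ζ₁ * Z x)
    (h2 : ∀ x, Z (x + v₂) = ζ₂ * Z x) : False := by
  have hcont : Continuous Z := hZ.continuous
  obtain ⟨x₀, hx₀⟩ := exists_max hv (f := fun x => ‖Z x‖ ^ 2) (by fun_prop)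
    ⟨fun x => by simp only [h1, norm_mul, hζ₁, one_mul],
     fun x => by simp only [h2, norm_mul, hζ₂, one_mul]⟩
  -- the derivative is onto
  have hsurj : Function.Surjective (fderiv ℝ Z x₀) := by
    have hi : Function.Injective (fderiv ℝ Z x₀ : ℝ × ℝ →ₗ[ℝ] ℂ) := by
      rw [← LinearMap.ker_eq_bot, LinearMap.ker_eq_bot']
      exact fun a ha => hinj x₀ a ha
    exact (LinearMap.injective_iff_surjective_of_finrank_eq_finrank
      (by simp [Complex.finrank_real_complex])).1 hi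
  obtain ⟨a, ha⟩ := hsurj (Z x₀)
  have hder : HasFDerivAt (fun x => ‖Z x‖ ^ 2)
      (2 • (innerSL ℝ (Z x₀)).comp (fderiv ℝ Z x₀)) x₀ :=
    (hZ x₀).hasFDerivAt.norm_sq
  have hmax : IsLocalMax (fun x => ‖Z x‖ ^ 2) x₀ := Filter.Eventually.of_forall hx₀
  have hz := hmax.hasFDerivAt_eq_zero hder
  have hz' := congrArg (fun L : ℝ × ℝ →L[ℝ] ℝ => L a) hz
  simp only [smul_apply, ContinuousLinearMap.comp_apply, ha,
    zero_apply] at hz'
  have hZ0 : ‖Z x₀‖ ^ 2 = 0 := by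
    have : (innerSL ℝ (Z x₀)) (Z x₀) = ‖Z x₀‖ ^ 2 := by
      rw [innerSL_apply_apply]
      exact real_inner_self_eq_norm_sq _
    rw [this] at hz'
    simpa using hz'
  have hall : ∀ x, Z x = 0 := by
    intro x
    have := hx₀ x
    simp only [hZ0] at this
    have h3 : ‖Z x‖ ^ 2 = 0 := le_antisymm this (sq_nonneg _)
    simpa using h3
  have hZeq : Z = fun _ => 0 := funext hall
  have := hinj 0 (1, 0) (by rw [hZeq]; simp)
  simp at this

theorem holonomy_aux {v₁ v₂ : ℝ × ℝ} (hv : dt v₁ v₂ ≠ 0) {Z : ℝ × ℝ → ℂ}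
    (hZ : Differentiable ℝ Z) (hinj : ∀ x a, fderiv ℝ Z x a = 0 → a = 0) {ζ₁ ζ₂ : ℂ}
    (hζ₁ : ‖ζ₁‖ = 1) (hζ₂ : ‖ζ₂‖ = 1)
    (h1 : ∀ x, fderiv ℝ Z (x + v₁) = ζ₁ • fderiv ℝ Z x)
    (h2 : ∀ x, fderiv ℝ Z (x + v₂) = ζ₂ • fderiv ℝ Z x) : ζ₁ = 1 := by
  by_contra hne
  have hne' : 1 - ζ₁ ≠ 0 := fun h => hne (sub_eq_zero.1 h).symm
  have key : ∀ (ζ : ℂ) (v : ℝ × ℝ), (∀ x, fderiv ℝ Z (x + v) = ζ • fderiv ℝ Z x) →
      ∀ x, Z (x + v) = ζ * Z x + (Z v - ζ * Z 0) := by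
    intro ζ v h x
    have := const_of_fderiv hZ (v := v) (L := (ζ • ContinuousLinearMap.id ℝ ℂ)) (by
      intro x
      rw [h x]
      exact ContinuousLinearMap.ext fun a => by simp) x
    simpa using this
  have k1 := key ζ₁ v₁ h1
  have k2 := key ζ₂ v₂ h2
  set b₁ := Z v₁ - ζ₁ * Z 0 with hb₁
  set b₂ := Z v₂ - ζ₂ * Z 0 with hb₂
  set c := b₁ / (1 - ζ₁) with hc
  have hc1 : ζ₁ * c + b₁ = c := by
    rw [hc]; field_simp; ring
  have hc2 : ζ₂ * c + b₂ = c := by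
    -- commutation
    have e1 : Z (0 + v₁ + v₂) = ζ₂ * (ζ₁ * Z 0 + b₁) + b₂ := by rw [k2, k1]
    have e2 : Z (0 + v₁ + v₂) = ζ₁ * (ζ₂ * Z 0 + b₂) + b₁ := by
      rw [show (0 : ℝ × ℝ) + v₁ + v₂ = 0 + v₂ + v₁ by abel, k1, k2]
    have e3 : (1 - ζ₁) * b₂ = (1 - ζ₂) * b₁ := by linear_combination e2 - e1
    have e4 : (1 - ζ₁) * (ζ₂ * c + b₂ - c) = 0 := by
      have : (1 - ζ₁) * c = b₁ := by rw [hc]; field_simp
      linear_combination e3 + (ζ₂ - 1) * this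
    rcases mul_eq_zero.1 e4 with h | h
    · exact absurd h hne'
    · linear_combination h
  refine no_equivariant hv (Z := fun x => Z x - c) (hZ.sub_const c) (fun x a h => hinj x a ?_)
    hζ₁ hζ₂ (fun x => ?_) (fun x => ?_)
  · rwa [fderiv_sub_const] at h
  · simp only [k1]
    linear_combination hc1
  · simp only [k2]
    linear_combination hc2

/-- Holonomy: if `Z' (x + v) = e^{i α_v} Z' (x)` then `e^{i α_v} = 1`. -/
theorem holonomy_trivial {v₁ v₂ : ℝ × ℝ} (hv : dt v₁ v₂ ≠ 0) {Z : ℝ × ℝ → ℂ}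
    (hZ : ContDiff ℝ ∞ Z) (hinj : ∀ x a, fderiv ℝ Z x a = 0 → a = 0) {ζ₁ ζ₂ : ℂ}
    (hζ₁ : ‖ζ₁‖ = 1) (hζ₂ : ‖ζ₂‖ = 1)
    (h1 : ∀ x, fderiv ℝ Z (x + v₁) = ζ₁ • fderiv ℝ Z x)
    (h2 : ∀ x, fderiv ℝ Z (x + v₂) = ζ₂ • fderiv ℝ Z x) : ζ₁ = 1 ∧ ζ₂ = 1 := by
  have hZ' : Differentiable ℝ Z := hZ.differentiable (by simp)
  have hv' : dt v₂ v₁ ≠ 0 := by
    intro h
    apply hv
    unfold dt at h ⊢
    linarith
  exact ⟨holonomy_aux hv hZ' hinj hζ₁ hζ₂ h1 h2, holonomy_aux hv' hZ' hinj hζ₂ hζ₁ h2 h1⟩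

end hol

end Vale.Agent.P205
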