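import Vale.Agent.Lib.P205.Hopf
import Vale.Agent.Lib.P205.Family

/-!
# P205: module FINAL
-/

open scoped ContDiff Topology

namespace Vale.Agent.P205

namespace Final

/-- choice of the parameter -/
theorem exists_param {v₁ v₂ : ℝ × ℝ} (hv : dt v₁ v₂ ≠ 0) {κ : ℝ → ℝ} {V₁ V₂ : ℝ → ℂ}
    (hκ : Continuous κ) (hκ0 : κ 0 = 0) (hκp : ∀ t, t ≠ 0 → 0 < κ t) (hV₁ : Continuous V₁)
    (hV₂ : Continuous V₂) (h1 : V₁ 0 = ⟨v₁.1, v₁.2⟩) (h2 : V₂ 0 = ⟨v₂.1, v₂.2⟩) {L₀ : ℝ}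
    (_hL₀ : 0 < L₀) :
    ∃ (t : ℝ) (m : ℕ), t ≠ 0 ∧ 1 ≤ m ∧ ‖V₁ t‖ = 2 * Real.pi * m * Real.sqrt (κ t) ∧
      L₀ * Real.sqrt (κ t) * ‖V₁ t‖ ≤ |((starRingEnd ℂ) (V₁ t) * V₂ t).im| := by
  have hc1 : Continuous fun t => L₀ * Real.sqrt (κ t) * ‖V₁ t‖ :=
    (continuous_const.mul hκ.sqrt).mul hV₁.norm
  have hc2 : Continuous fun t => |((starRingEnd ℂ) (V₁ t) * V₂ t).im| :=
    (Complex.continuous_im.comp ((Complex.continuous_conj.comp hV₁).mul hV₂)).abs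
  have h3 : ((starRingEnd ℂ) (V₁ 0) * V₂ 0).im = dt v₁ v₂ := by
    rw [h1, h2]
    simp [dt]
    ring
  have h4 : L₀ * Real.sqrt (κ 0) * ‖V₁ 0‖ < |((starRingEnd ℂ) (V₁ 0) * V₂ 0).im| := by
    rw [hκ0, Real.sqrt_zero, mul_zero, zero_mul, h3]
    exact abs_pos.2 hv
  have h5 := hc1.continuousAt.eventually_lt hc2.continuousAt h4
  obtain ⟨η, hη, hball⟩ := Metric.eventually_nhds_iff.1 h5
  have hη2 : 0 < η / 2 := by linarith
  have hin : ∀ t, 0 ≤ t → t ≤ η / 2 →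
      L₀ * Real.sqrt (κ t) * ‖V₁ t‖ < |((starRingEnd ℂ) (V₁ t) * V₂ t).im| := by
    intro t ht1 ht2
    apply hball
    rw [Real.dist_eq, sub_zero, abs_of_nonneg ht1]
    linarith
  have hVne : ∀ t, 0 ≤ t → t ≤ η / 2 → 0 < ‖V₁ t‖ := by
    intro t ht1 ht2
    have h6 := hin t ht1 ht2
    rw [norm_pos_iff]
    intro h7
    rw [h7] at h6
    simp at h6
  have hs : 0 < 2 * Real.pi * Real.sqrt (κ (η / 2)) := by
    have := Real.sqrt_pos.2 (hκp (η / 2) hη2.ne')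
    positivity
  set m : ℕ := ⌈‖V₁ (η / 2)‖ / (2 * Real.pi * Real.sqrt (κ (η / 2)))⌉₊ with hm
  have hm1 : 1 ≤ m := by
    rw [hm, Nat.one_le_ceil_iff]
    exact div_pos (hVne _ hη2.le le_rfl) hs
  have hm2 : ‖V₁ (η / 2)‖ ≤ 2 * Real.pi * m * Real.sqrt (κ (η / 2)) := by
    have h6 := Nat.le_ceil (‖V₁ (η / 2)‖ / (2 * Real.pi * Real.sqrt (κ (η / 2))))
    rw [← hm, div_le_iff₀ hs] at h6
    linarith
  have hcf : ContinuousOn (fun t => ‖V₁ t‖ - 2 * Real.pi * m * Real.sqrt (κ t))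
      (Set.Icc 0 (η / 2)) :=
    (hV₁.norm.sub (continuous_const.mul hκ.sqrt)).continuousOn
  have hivt := intermediate_value_Icc' hη2.le hcf
  have h0 : (0 : ℝ) ∈ Set.Icc (‖V₁ (η / 2)‖ - 2 * Real.pi * m * Real.sqrt (κ (η / 2)))
      (‖V₁ 0‖ - 2 * Real.pi * m * Real.sqrt (κ 0)) := by
    constructor
    · linarith
    · rw [hκ0, Real.sqrt_zero, mul_zero, sub_zero]
      exact norm_nonneg _
  obtain ⟨t, ht, ht0⟩ := hivt h0
  refine ⟨t, m, ?_, hm1, by simpa [sub_eq_zero] using ht0, (hin t ht.1 ht.2).le⟩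
  rintro rfl
  simp only [hκ0, Real.sqrt_zero, mul_zero, sub_zero] at ht0
  exact (hVne 0 le_rfl hη2.le).ne' ht0

/-- the map `ℂ × ℂ → ℝ⁴` -/
noncomputable def toR4 (a b : ℂ) : EuclideanSpace ℝ (Fin 4) := !₂[a.re, a.im, b.re, b.im]

/-- the map `ℂ × ℂ → ℝ⁴` as a continuous linear map -/
noncomputable def toR4L : ℂ × ℂ →L[ℝ] EuclideanSpace ℝ (Fin 4) :=
  LinearMap.toContinuousLinearMap
    { toFun := fun z => toR4 z.1 z.2
      map_add' := fun z z' => by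
        ext i
        fin_cases i <;> simp [toR4]
      map_smul' := fun c z => by
        ext i
        fin_cases i <;> simp [toR4] }

theorem norm_toR4 (z : ℂ × ℂ) : ‖toR4L z‖ ^ 2 = ‖z.1‖ ^ 2 + ‖z.2‖ ^ 2 := by
  change ‖toR4 z.1 z.2‖ ^ 2 = _
  rw [EuclideanSpace.norm_sq_eq, Fin.sum_univ_four, ← Complex.normSq_eq_norm_sq,
    ← Complex.normSq_eq_norm_sq, Complex.normSq_apply, Complex.normSq_apply]
  simp [toR4]
  ring

theorem norm_sq_add (a b : ℂ) :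
    ‖a + b‖ ^ 2 = ‖a‖ ^ 2 + ‖b‖ ^ 2 + 2 * ((starRingEnd ℂ) a * b).re := by
  rw [← Complex.normSq_eq_norm_sq, ← Complex.normSq_eq_norm_sq, ← Complex.normSq_eq_norm_sq,
    Complex.normSq_apply, Complex.normSq_apply, Complex.normSq_apply]
  simp
  ring

end Final

open Final

theorem torus {v₁ v₂ : ℝ × ℝ} (hv : dt v₁ v₂ ≠ 0) (w₀ : ℝ × ℝ → ℝ) (hw : ContDiff ℝ ∞ w₀)
    (hp : Per v₁ v₂ w₀) :
    ∃ F : ℝ × ℝ → EuclideanSpace ℝ (Fin 4), ContDiff ℝ ∞ F ∧ Per v₁ v₂ F ∧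
      ∀ x a b : ℝ × ℝ, inner ℝ (fderiv ℝ F x a) (fderiv ℝ F x b) =
        Real.exp (2 * w₀ x) * (a.1 * b.1 + a.2 * b.2) := by
  obtain ⟨κ, V₁, V₂, hκ, hκ0, hκp, hV₁, hV₂, h1, h2, hfam⟩ := family hv w₀ hw hp
  obtain ⟨L₀, hL₀, hpsi⟩ := psi
  obtain ⟨t, m, ht, hm, hn, hL⟩ := exists_param hv hκ hκ0 hκp hV₁ hV₂ h1 h2 hL₀
  obtain ⟨w, Z, hws, hZs, hwp, hZ1, hZ2, hmet⟩ := hfam t
  have he : 0 < Real.sqrt (κ t) := Real.sqrt_pos.2 (hκp t ht)
  obtain ⟨g, h, hg, hh, hsph, hder, hg1, hh1, hg2, hh2⟩ :=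
    hpsi (Real.sqrt (κ t)) m (V₁ t) (V₂ t) he hm hn hL
  rw [Real.sq_sqrt (hκp t ht).le] at hsph
  -- the two complex components
  set G : ℝ × ℝ → ℂ := fun x => (Real.exp (w x) : ℂ) * g (Z x) with hG
  set H : ℝ × ℝ → ℂ := fun x => (Real.exp (w x) : ℂ) * h (Z x) with hH
  have hE : ContDiff ℝ ∞ fun x => (Real.exp (w x) : ℂ) :=
    Complex.ofRealCLM.contDiff.comp (Real.contDiff_exp.comp hws)
  have hGs : ContDiff ℝ ∞ G := hE.mul (hg.comp hZs)
  have hHs : ContDiff ℝ ∞ H := hE.mul (hh.comp hZs)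
  have hEd : ∀ x, HasFDerivAt (fun x => (Real.exp (w x) : ℂ))
      (Complex.ofRealCLM.comp (Real.exp (w x) • fderiv ℝ w x)) x := by
    intro x
    have h3 : HasFDerivAt w (fderiv ℝ w x) x :=
      (hws.differentiable (by simp)).differentiableAt.hasFDerivAt
    exact Complex.ofRealCLM.hasFDerivAt.comp x h3.exp
  have hcomp : ∀ (k : ℂ → ℂ), ContDiff ℝ ∞ k → ∀ x a,
      fderiv ℝ (fun x => (Real.exp (w x) : ℂ) * k (Z x)) x a =
        (Real.exp (w x) : ℂ) * ((fderiv ℝ w x a : ℝ) * k (Z x) +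
          fderiv ℝ k (Z x) (fderiv ℝ Z x a)) := by
    intro k hk x a
    have h3 : HasFDerivAt k (fderiv ℝ k (Z x)) (Z x) :=
      (hk.differentiable (by simp)).differentiableAt.hasFDerivAt
    have h4 : HasFDerivAt Z (fderiv ℝ Z x) x :=
      (hZs.differentiable (by simp)).differentiableAt.hasFDerivAt
    have h5 := (hEd x).mul (h3.comp x h4)
    have h6 := h5.fderiv
    have h7 : (fun x => (Real.exp (w x) : ℂ) * k (Z x)) =
        (fun x => (Real.exp (w x) : ℂ)) * (k ∘ Z) := rfl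
    rw [h7, h6]
    simp only [add_apply, smul_apply, ContinuousLinearMap.comp_apply,
      Function.comp_apply, smul_eq_mul, Complex.ofRealCLM_apply, Complex.ofReal_mul]
    ring
  have hnorm : ∀ x a, ‖fderiv ℝ G x a‖ ^ 2 + ‖fderiv ℝ H x a‖ ^ 2 =
      Real.exp (2 * w₀ x) * (a.1 ^ 2 + a.2 ^ 2) := by
    intro x a
    rw [← hmet x a, hcomp g hg x a, hcomp h hh x a, norm_mul, norm_mul, mul_pow, mul_pow,
      norm_sq_add, norm_sq_add, Complex.norm_real, norm_mul, norm_mul, mul_pow, mul_pow,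
      Complex.norm_real, Real.norm_eq_abs, Real.norm_eq_abs, sq_abs, sq_abs, ← Real.exp_nat_mul]
    have h3 := hsph (Z x)
    have h4 := hder (Z x) (fderiv ℝ Z x a)
    -- derivative of the constant function
    have h5 : ((starRingEnd ℂ) (g (Z x)) * fderiv ℝ g (Z x) (fderiv ℝ Z x a)).re +
        ((starRingEnd ℂ) (h (Z x)) * fderiv ℝ h (Z x) (fderiv ℝ Z x a)).re = 0 := by
      have e1 : ∀ (k : ℂ → ℂ), ContDiff ℝ ∞ k → HasFDerivAt (fun z => ‖k z‖ ^ 2)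
          (2 • (innerSL ℝ (k (Z x))).comp (fderiv ℝ k (Z x))) (Z x) := by
        intro k hk
        have h3 : HasFDerivAt k (fderiv ℝ k (Z x)) (Z x) :=
          (hk.differentiable (by simp)).differentiableAt.hasFDerivAt
        exact h3.norm_sq
      have e2 := (e1 g hg).add (e1 h hh)
      have e3 : ((fun z => ‖g z‖ ^ 2) + fun z => ‖h z‖ ^ 2) = fun _ => κ t := by
        funext z
        exact hsph z
      rw [e3] at e2
      have e4 := e2.unique (hasFDerivAt_const (κ t) (Z x))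
      have e5 := DFunLike.congr_fun e4 (fderiv ℝ Z x a)
      simp only [add_apply, smul_apply, ContinuousLinearMap.comp_apply,
        innerSL_apply_apply, zero_apply, Complex.inner] at e5
      have e6 : ∀ u v : ℂ, (v * (starRingEnd ℂ) u).re = ((starRingEnd ℂ) u * v).re := by
        intro u v
        rw [mul_comm]
      simp only [nsmul_eq_mul, Nat.cast_ofNat] at e5
      rw [e6, e6] at e5
      linarith
    have h6 : ∀ (r : ℝ) (u v : ℂ), ((starRingEnd ℂ) ((r : ℂ) * u) * v).re =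
        r * ((starRingEnd ℂ) u * v).re := by
      intro r u v
      rw [map_mul, Complex.conj_ofReal, mul_assoc, Complex.re_ofReal_mul]
    rw [h6, h6]
    push_cast
    linear_combination (Real.exp (2 * w x) * fderiv ℝ w x a ^ 2) * h3 + Real.exp (2 * w x) * h4 +
      (2 * Real.exp (2 * w x) * fderiv ℝ w x a) * h5
  -- the map
  have hFs : ContDiff ℝ ∞ fun x => toR4L (G x, H x) := toR4L.contDiff.comp (hGs.prodMk hHs)
  have hFd : ∀ x a, fderiv ℝ (fun x => toR4L (G x, H x)) x a =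
      toR4L (fderiv ℝ G x a, fderiv ℝ H x a) := by
    intro x a
    have h3 : HasFDerivAt G (fderiv ℝ G x) x :=
      (hGs.differentiable (by simp)).differentiableAt.hasFDerivAt
    have h4 : HasFDerivAt H (fderiv ℝ H x) x :=
      (hHs.differentiable (by simp)).differentiableAt.hasFDerivAt
    have h5 := toR4L.hasFDerivAt.comp x (h3.prodMk h4)
    have h6 := h5.fderiv
    have h7 : (fun x => toR4L (G x, H x)) = toR4L ∘ fun x => (G x, H x) := rfl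
    rw [h7, h6]
    rfl
  have hFn : ∀ x a, ‖fderiv ℝ (fun x => toR4L (G x, H x)) x a‖ ^ 2 =
      Real.exp (2 * w₀ x) * (a.1 ^ 2 + a.2 ^ 2) := by
    intro x a
    rw [hFd, norm_toR4, hnorm]
  refine ⟨fun x => toR4L (G x, H x), hFs, ⟨fun x => ?_, fun x => ?_⟩, ?_⟩
  · simp only [hG, hH, hwp.1 x, hZ1 x, hg1, hh1]
  · simp only [hG, hH, hwp.2 x, hZ2 x, hg2, hh2]
  · intro x a b
    have h3 := hFn x (a + b)
    have h4 := hFn x a
    have h5 := hFn x b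
    rw [map_add, norm_add_sq_real, h4, h5] at h3
    simp only [Prod.fst_add, Prod.snd_add] at h3
    linarith

end Vale.Agent.P205
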