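import Vale.Agent.Lib.P205.Family1
import Vale.Agent.Lib.P205.Geom

/-! # P205, module FLAT: a smooth metric on the torus is conformally flat; the developing map -/

open scoped ContDiff

namespace Vale.Agent.P205

/-- solvability of the divergence form equation (module LIN) -/
def LinSolve : Prop :=
  ∀ a b c f₁ f₂ : ℝ × ℝ → ℝ, ContDiff ℝ ∞ a → ContDiff ℝ ∞ b → ContDiff ℝ ∞ c →
    ContDiff ℝ ∞ f₁ → ContDiff ℝ ∞ f₂ → Per (1, 0) (0, 1) a → Per (1, 0) (0, 1) b →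
    Per (1, 0) (0, 1) c → Per (1, 0) (0, 1) f₁ → Per (1, 0) (0, 1) f₂ → (∀ x, 0 < a x) →
    (∀ x, 0 < a x * c x - b x ^ 2) →
    ∃ φ : ℝ × ℝ → ℝ, ContDiff ℝ ∞ φ ∧ Per (1, 0) (0, 1) φ ∧
      ∀ x, D1 (fun y => a y * D1 φ y + b y * D2 φ y) x +
        D2 (fun y => b y * D1 φ y + c y * D2 φ y) x = D1 f₁ x + D2 f₂ x

namespace Flat

open Geom

theorem D1_sub {f g : ℝ × ℝ → ℝ} (hf : ContDiff ℝ ∞ f) (hg : ContDiff ℝ ∞ g) (x : ℝ × ℝ) :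
    D1 (fun y => f y - g y) x = D1 f x - D1 g x := by
  unfold D1
  rw [fderiv_fun_sub (diff hf x) (diff hg x)]
  rfl

theorem D2_sub {f g : ℝ × ℝ → ℝ} (hf : ContDiff ℝ ∞ f) (hg : ContDiff ℝ ∞ g) (x : ℝ × ℝ) :
    D2 (fun y => f y - g y) x = D2 f x - D2 g x := by
  unfold D2
  rw [fderiv_fun_sub (diff hf x) (diff hg x)]
  rfl

/-- first component of `dZ` -/
noncomputable def Pc (p φ ψ : ℝ × ℝ → ℝ) (x : ℝ × ℝ) : ℂ :=
  Complex.exp (Complex.I * ψ x - φ x) * p x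

/-- second component of `dZ` -/
noncomputable def Qc (s r φ ψ : ℝ × ℝ → ℝ) (x : ℝ × ℝ) : ℂ :=
  Complex.exp (Complex.I * ψ x - φ x) * (s x + Complex.I * r x)

variable {p s r φ ψ g₁ g₂ : ℝ × ℝ → ℝ} {Z : ℝ × ℝ → ℂ}

theorem contDiff_Pc (hp : ContDiff ℝ ∞ p) (hφ : ContDiff ℝ ∞ φ) (hψ : ContDiff ℝ ∞ ψ) :
    ContDiff ℝ ∞ (Pc p φ ψ) := by
  have hof : ∀ {f : ℝ × ℝ → ℝ}, ContDiff ℝ ∞ f → ContDiff ℝ ∞ fun x => (f x : ℂ) :=
    fun h => Complex.ofRealCLM.contDiff.comp h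
  unfold Pc
  exact (((contDiff_const.mul (hof hψ)).sub (hof hφ)).cexp).mul (hof hp)

theorem contDiff_Qc (hs : ContDiff ℝ ∞ s) (hr : ContDiff ℝ ∞ r) (hφ : ContDiff ℝ ∞ φ)
    (hψ : ContDiff ℝ ∞ ψ) : ContDiff ℝ ∞ (Qc s r φ ψ) := by
  have hof : ∀ {f : ℝ × ℝ → ℝ}, ContDiff ℝ ∞ f → ContDiff ℝ ∞ fun x => (f x : ℂ) :=
    fun h => Complex.ofRealCLM.contDiff.comp h
  unfold Qc
  exact (((contDiff_const.mul (hof hψ)).sub (hof hφ)).cexp).mul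
    ((hof hs).add (contDiff_const.mul (hof hr)))

theorem deriv_Pc (hp : ContDiff ℝ ∞ p) (hφ : ContDiff ℝ ∞ φ) (hψ : ContDiff ℝ ∞ ψ)
    (x v : ℝ × ℝ) : fderiv ℝ (Pc p φ ψ) x v = Complex.exp (Complex.I * ψ x - φ x) *
      ((Complex.I * (fderiv ℝ ψ x v : ℝ) - (fderiv ℝ φ x v : ℝ)) * p x + (fderiv ℝ p x v : ℝ)) := by
  have k1 := (line (diff hψ x) v).ofReal_comp
  have k2 := (line (diff hφ x) v).ofReal_comp
  have k3 := (line (diff hp x) v).ofReal_comp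
  have k6 := (((k1.const_mul Complex.I).sub k2).cexp).mul k3
  have k7 := line (diff (contDiff_Pc hp hφ hψ) x) v
  have k8 := k7.unique k6
  rw [k8]
  simp only [Pi.sub_apply, zero_smul, add_zero]
  ring

theorem deriv_Qc (hs : ContDiff ℝ ∞ s) (hr : ContDiff ℝ ∞ r) (hφ : ContDiff ℝ ∞ φ)
    (hψ : ContDiff ℝ ∞ ψ) (x v : ℝ × ℝ) :
    fderiv ℝ (Qc s r φ ψ) x v = Complex.exp (Complex.I * ψ x - φ x) *
      ((Complex.I * (fderiv ℝ ψ x v : ℝ) - (fderiv ℝ φ x v : ℝ)) * (s x + Complex.I * r x) +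
        ((fderiv ℝ s x v : ℝ) + Complex.I * (fderiv ℝ r x v : ℝ))) := by
  have k1 := (line (diff hψ x) v).ofReal_comp
  have k2 := (line (diff hφ x) v).ofReal_comp
  have k3 := (line (diff hs x) v).ofReal_comp
  have k4 := (line (diff hr x) v).ofReal_comp
  have k6 := (((k1.const_mul Complex.I).sub k2).cexp).mul (k3.add (k4.const_mul Complex.I))
  have k7 := line (diff (contDiff_Qc hs hr hφ hψ) x) v
  have k8 := k7.unique k6
  rw [k8]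
  simp only [Pi.sub_apply, Pi.add_apply, zero_smul, add_zero]
  ring

/-- the form `Pc dx₁ + Qc dx₂` is closed -/
theorem closed (hp : ContDiff ℝ ∞ p) (hs : ContDiff ℝ ∞ s) (hr : ContDiff ℝ ∞ r)
    (hφ : ContDiff ℝ ∞ φ) (hψ : ContDiff ℝ ∞ ψ)
    (e1 : ∀ x, r x * D1 ψ x = p x * D2 φ x - s x * D1 φ x + (D1 s x - D2 p x))
    (e2 : ∀ x, p x * D2 ψ x - s x * D1 ψ x = - (r x * D1 φ x) + D1 r x) (x : ℝ × ℝ) :
    D2 (Pc p φ ψ) x = D1 (Qc s r φ ψ) x := by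
  have hP := deriv_Pc hp hφ hψ x (0, 1)
  have hQ := deriv_Qc hs hr hφ hψ x (1, 0)
  change D2 (Pc p φ ψ) x = _ * ((Complex.I * (D2 ψ x : ℝ) - (D2 φ x : ℝ)) * p x + (D2 p x : ℝ)) at hP
  change D1 (Qc s r φ ψ) x = _ * ((Complex.I * (D1 ψ x : ℝ) - (D1 φ x : ℝ)) *
    (s x + Complex.I * r x) + ((D1 s x : ℝ) + Complex.I * (D1 r x : ℝ))) at hQ
  rw [hP, hQ]
  congr 1
  have h1 := e1 x
  have h2 := e2 x
  apply Complex.ext
  · simp only [Complex.sub_re, Complex.add_re, Complex.mul_re, Complex.sub_im, Complex.add_im,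
      Complex.mul_im, Complex.ofReal_re, Complex.ofReal_im, Complex.I_re, Complex.I_im]
    linear_combination h1
  · simp only [Complex.sub_re, Complex.add_re, Complex.mul_re, Complex.sub_im, Complex.add_im,
      Complex.mul_im, Complex.ofReal_re, Complex.ofReal_im, Complex.I_re, Complex.I_im]
    linear_combination h2

theorem norm_Z (hZ : ∀ x, HasFDerivAt Z (frm (Pc p φ ψ) (Qc s r φ ψ) x) x) (x a : ℝ × ℝ) :
    Real.exp (2 * φ x) * ‖fderiv ℝ Z x a‖ ^ 2 = (p x * a.1 + s x * a.2) ^ 2 + (r x * a.2) ^ 2 := by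
  have h1 : fderiv ℝ Z x a = Complex.exp (Complex.I * ψ x - φ x) *
      (((p x * a.1 + s x * a.2 : ℝ) : ℂ) + ((r x * a.2 : ℝ) : ℂ) * Complex.I) := by
    rw [(hZ x).fderiv, frm_apply, Complex.real_smul, Complex.real_smul]
    unfold Pc Qc
    push_cast
    ring
  have h2 : ‖Complex.exp (Complex.I * ψ x - φ x)‖ ^ 2 = Real.exp (-2 * φ x) := by
    rw [Complex.norm_exp, ← Real.exp_nat_mul]
    congr 1
    simp
  have h3 : Real.exp (2 * φ x) * Real.exp (-2 * φ x) = 1 := by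
    rw [← Real.exp_add]; simp
  rw [h1, norm_mul, mul_pow, h2, Complex.sq_norm, Complex.normSq_add_mul_I, ← mul_assoc, h3,
    one_mul]

theorem Z_inj (hp : ∀ x, 0 < p x) (hr : ∀ x, 0 < r x)
    (hZ : ∀ x, HasFDerivAt Z (frm (Pc p φ ψ) (Qc s r φ ψ) x) x) (x a : ℝ × ℝ)
    (h : fderiv ℝ Z x a = 0) : a = 0 := by
  have h1 := norm_Z hZ x a
  rw [h, norm_zero] at h1
  have hp' := hp x
  have hr' := hr x
  have h2 : (r x * a.2) ^ 2 = 0 := by nlinarith [sq_nonneg (p x * a.1 + s x * a.2), sq_nonneg (r x * a.2)]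
  have h3 : (p x * a.1 + s x * a.2) ^ 2 = 0 := by
    nlinarith [sq_nonneg (p x * a.1 + s x * a.2), sq_nonneg (r x * a.2)]
  have h4 : a.2 = 0 := by
    rcases mul_eq_zero.1 (pow_eq_zero_iff (two_ne_zero)|>.1 h2) with h | h
    · exact absurd h hr'.ne'
    · exact h
  have h5 : a.1 = 0 := by
    have h6 := pow_eq_zero_iff (two_ne_zero)|>.1 h3
    rw [h4, mul_zero, add_zero] at h6
    rcases mul_eq_zero.1 h6 with h | h
    · exact absurd h hp'.ne'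
    · exact h
  exact Prod.ext h5 h4

theorem prim_add {v : ℝ × ℝ} (hψd : ContDiff ℝ ∞ ψ) (hψ0 : ψ 0 = 0)
    (hψ : ∀ x, HasFDerivAt ψ (frm g₁ g₂ x) x)
    (h1 : ∀ x, g₁ (x + v) = g₁ x) (h2 : ∀ x, g₂ (x + v) = g₂ x)
    (x : ℝ × ℝ) : ψ (x + v) = ψ x + ψ v := by
  have := const_of_fderiv (hψd.differentiable (by simp)) (v := v)
    (L := ContinuousLinearMap.id ℝ ℝ) (by
      intro x
      rw [ContinuousLinearMap.id_comp, (hψ _).fderiv, (hψ _).fderiv]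
      unfold frm
      rw [h1, h2]) x
  simpa [hψ0] using this

theorem fderiv_Z_add {v : ℝ × ℝ} (hψ : ∀ x, ψ (x + v) = ψ x + ψ v)
    (hφ : ∀ x, φ (x + v) = φ x) (hp : ∀ x, p (x + v) = p x) (hs : ∀ x, s (x + v) = s x)
    (hr : ∀ x, r (x + v) = r x)
    (hZ : ∀ x, HasFDerivAt Z (frm (Pc p φ ψ) (Qc s r φ ψ) x) x) (x : ℝ × ℝ) :
    fderiv ℝ Z (x + v) = Complex.exp (Complex.I * ψ v) • fderiv ℝ Z x := by
  have e : Complex.exp (Complex.I * ψ (x + v) - φ (x + v)) =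
      Complex.exp (Complex.I * ψ v) * Complex.exp (Complex.I * ψ x - φ x) := by
    rw [← Complex.exp_add, hψ, hφ]
    congr 1
    push_cast
    ring
  refine ContinuousLinearMap.ext fun a => ?_
  have e2 : (Complex.exp (Complex.I * ψ v) • fderiv ℝ Z x) a =
      Complex.exp (Complex.I * ψ v) * fderiv ℝ Z x a := rfl
  rw [e2, (hZ _).fderiv, (hZ _).fderiv, frm_apply, frm_apply]
  unfold Pc Qc
  simp only [Complex.real_smul]
  rw [e, hp, hs, hr]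
  ring

/-- the developing map -/
theorem develop (hp : ContDiff ℝ ∞ p) (hs : ContDiff ℝ ∞ s) (hr : ContDiff ℝ ∞ r)
    (hφ : ContDiff ℝ ∞ φ) (hg₁ : ContDiff ℝ ∞ g₁) (hg₂ : ContDiff ℝ ∞ g₂)
    (pp : Per (1, 0) (0, 1) p) (ps : Per (1, 0) (0, 1) s) (pr : Per (1, 0) (0, 1) r)
    (pφ : Per (1, 0) (0, 1) φ) (pg₁ : Per (1, 0) (0, 1) g₁) (pg₂ : Per (1, 0) (0, 1) g₂)
    (hp0 : ∀ x, 0 < p x) (hr0 : ∀ x, 0 < r x)
    (e1 : ∀ x, r x * g₁ x = p x * D2 φ x - s x * D1 φ x + (D1 s x - D2 p x))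
    (e2 : ∀ x, p x * g₂ x - s x * g₁ x = - (r x * D1 φ x) + D1 r x)
    (hcl : ∀ x, D2 g₁ x = D1 g₂ x) :
    ∃ (Z : ℝ × ℝ → ℂ) (V₁ V₂ : ℂ), ContDiff ℝ ∞ Z ∧
      (∀ x, Z (x + (1, 0)) = Z x + V₁) ∧ (∀ x, Z (x + (0, 1)) = Z x + V₂) ∧
      ∀ x a : ℝ × ℝ, Real.exp (2 * φ x) * ‖fderiv ℝ Z x a‖ ^ 2 =
        (p x * a.1 + s x * a.2) ^ 2 + (r x * a.2) ^ 2 := by
  obtain ⟨ψ, hψd, hψ0, hψ⟩ := exists_primitive hg₁ hg₂ hcl
  have hD1 : ∀ x, D1 ψ x = g₁ x := by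
    intro x
    unfold D1
    rw [(hψ x).fderiv, frm_apply]
    simp
  have hD2 : ∀ x, D2 ψ x = g₂ x := by
    intro x
    unfold D2
    rw [(hψ x).fderiv, frm_apply]
    simp
  obtain ⟨Z, hZd, hZ0, hZ⟩ := exists_primitive (contDiff_Pc hp hφ hψd) (contDiff_Qc hs hr hφ hψd)
    (closed hp hs hr hφ hψd (fun x => by rw [hD1, e1]) (fun x => by rw [hD1, hD2, e2]))
  have k1 := fderiv_Z_add (v := (1, 0)) (prim_add hψd hψ0 hψ pg₁.1 pg₂.1) pφ.1 pp.1 ps.1 pr.1 hZ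
  have k2 := fderiv_Z_add (v := (0, 1)) (prim_add hψd hψ0 hψ pg₁.2 pg₂.2) pφ.2 pp.2 ps.2 pr.2 hZ
  have hn : ∀ r : ℝ, ‖Complex.exp (Complex.I * r)‖ = 1 := by
    intro r
    rw [mul_comm]
    exact Complex.norm_exp_ofReal_mul_I r
  obtain ⟨z1, z2⟩ := holonomy_trivial (v₁ := (1, 0)) (v₂ := (0, 1)) (by simp [dt]) hZd
    (Z_inj hp0 hr0 hZ) (hn _) (hn _) k1 k2
  have hadd : ∀ v, (∀ x, fderiv ℝ Z (x + v) = fderiv ℝ Z x) → ∀ x, Z (x + v) = Z x + Z v := by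
    intro v h x
    have := const_of_fderiv (hZd.differentiable (by simp)) (v := v)
      (L := ContinuousLinearMap.id ℝ ℂ) (by
        intro x
        rw [ContinuousLinearMap.id_comp, h x]) x
    simpa [hZ0] using this
  refine ⟨Z, Z (1, 0), Z (0, 1), hZd, hadd _ fun x => ?_, hadd _ fun x => ?_, norm_Z hZ⟩
  · rw [k1, z1, one_smul]
  · rw [k2, z2, one_smul]

end Flat

open Geom in
/-- frame form: the metric is `(p dx₁ + s dx₂)² + (r dx₂)²` -/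
theorem flat_frame (LS : LinSolve) {p s r : ℝ × ℝ → ℝ} (hp : ContDiff ℝ ∞ p)
    (hs : ContDiff ℝ ∞ s) (hr : ContDiff ℝ ∞ r)
    (pp : Per (1, 0) (0, 1) p) (ps : Per (1, 0) (0, 1) s) (pr : Per (1, 0) (0, 1) r)
    (hp0 : ∀ x, 0 < p x) (hr0 : ∀ x, 0 < r x) :
    ∃ (φ : ℝ × ℝ → ℝ) (Z : ℝ × ℝ → ℂ) (V₁ V₂ : ℂ), ContDiff ℝ ∞ φ ∧ ContDiff ℝ ∞ Z ∧
      Per (1, 0) (0, 1) φ ∧ (∀ x, Z (x + (1, 0)) = Z x + V₁) ∧
      (∀ x, Z (x + (0, 1)) = Z x + V₂) ∧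
      ∀ x a : ℝ × ℝ, Real.exp (2 * φ x) * ‖fderiv ℝ Z x a‖ ^ 2 =
        (p x * a.1 + s x * a.2) ^ 2 + (r x * a.2) ^ 2 := by
  have hp0' : ∀ x, p x ≠ 0 := fun x => (hp0 x).ne'
  have hr0' : ∀ x, r x ≠ 0 := fun x => (hr0 x).ne'
  have hpr0 : ∀ x, p x * r x ≠ 0 := fun x => mul_ne_zero (hp0' x) (hr0' x)
  obtain ⟨a, ha⟩ : ∃ a : ℝ × ℝ → ℝ, a = fun x => (s x ^ 2 + r x ^ 2) / (p x * r x) := ⟨_, rfl⟩
  obtain ⟨b, hb⟩ : ∃ b : ℝ × ℝ → ℝ, b = fun x => -s x / r x := ⟨_, rfl⟩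
  obtain ⟨c, hc⟩ : ∃ c : ℝ × ℝ → ℝ, c = fun x => p x / r x := ⟨_, rfl⟩
  obtain ⟨f₁, hf₁⟩ : ∃ f₁ : ℝ × ℝ → ℝ, f₁ = fun x =>
    s x * (D1 s x - D2 p x) / (p x * r x) + D1 r x / p x := ⟨_, rfl⟩
  obtain ⟨f₂, hf₂⟩ : ∃ f₂ : ℝ × ℝ → ℝ, f₂ = fun x => -(D1 s x - D2 p x) / r x := ⟨_, rfl⟩
  have pD1s := per_D1 ps
  have pD2p := per_D2 pp
  have pD1r := per_D1 pr
  have ha' : ContDiff ℝ ∞ a := by
    rw [ha]
    exact ((hs.pow 2).add (hr.pow 2)).div (hp.mul hr) hpr0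
  have hb' : ContDiff ℝ ∞ b := by
    rw [hb]
    exact hs.neg.div hr hr0'
  have hc' : ContDiff ℝ ∞ c := by
    rw [hc]
    exact hp.div hr hr0'
  have hf₁' : ContDiff ℝ ∞ f₁ := by
    rw [hf₁]
    exact ((hs.mul ((contDiff_D1 hs).sub (contDiff_D2 hp))).div (hp.mul hr) hpr0).add
      ((contDiff_D1 hr).div hp hp0')
  have hf₂' : ContDiff ℝ ∞ f₂ := by
    rw [hf₂]
    exact ((contDiff_D1 hs).sub (contDiff_D2 hp)).neg.div hr hr0'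
  have pa : Per (1, 0) (0, 1) a := by
    rw [ha]
    exact ⟨fun x => by simp only [pp.1, ps.1, pr.1], fun x => by simp only [pp.2, ps.2, pr.2]⟩
  have pb : Per (1, 0) (0, 1) b := by
    rw [hb]
    exact ⟨fun x => by simp only [ps.1, pr.1], fun x => by simp only [ps.2, pr.2]⟩
  have pc : Per (1, 0) (0, 1) c := by
    rw [hc]
    exact ⟨fun x => by simp only [pp.1, pr.1], fun x => by simp only [pp.2, pr.2]⟩
  have pf₁ : Per (1, 0) (0, 1) f₁ := by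
    rw [hf₁]
    exact ⟨fun x => by simp only [pp.1, ps.1, pr.1, pD1s.1, pD2p.1, pD1r.1],
      fun x => by simp only [pp.2, ps.2, pr.2, pD1s.2, pD2p.2, pD1r.2]⟩
  have pf₂ : Per (1, 0) (0, 1) f₂ := by
    rw [hf₂]
    exact ⟨fun x => by simp only [pr.1, pD1s.1, pD2p.1],
      fun x => by simp only [pr.2, pD1s.2, pD2p.2]⟩
  have hpos : ∀ x, 0 < a x := by
    intro x
    rw [ha]
    have h1 := hp0 x
    have h2 := hr0 x
    have h3 := sq_nonneg (s x)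
    positivity
  have hdet : ∀ x, 0 < a x * c x - b x ^ 2 := by
    intro x
    have h1 := hp0' x
    have h2 := hr0' x
    have : a x * c x - b x ^ 2 = 1 := by
      rw [ha, hb, hc]
      field_simp
      ring
    rw [this]
    exact zero_lt_one
  obtain ⟨φ, hφ, pφ, heq⟩ := LS a b c f₁ f₂ ha' hb' hc' hf₁' hf₂' pa pb pc pf₁ pf₂ hpos hdet
  have pD1φ := per_D1 pφ
  have pD2φ := per_D2 pφ
  have hA : ContDiff ℝ ∞ fun y => a y * D1 φ y + b y * D2 φ y :=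
    (ha'.mul (contDiff_D1 hφ)).add (hb'.mul (contDiff_D2 hφ))
  have hB : ContDiff ℝ ∞ fun y => b y * D1 φ y + c y * D2 φ y :=
    (hb'.mul (contDiff_D1 hφ)).add (hc'.mul (contDiff_D2 hφ))
  obtain ⟨Z, V₁, V₂, hZ, hV₁, hV₂, hn⟩ := Flat.develop (g₁ := fun y =>
      (b y * D1 φ y + c y * D2 φ y) - f₂ y) (g₂ := fun y => f₁ y - (a y * D1 φ y + b y * D2 φ y))
    hp hs hr hφ (hB.sub hf₂') (hf₁'.sub hA) pp ps pr pφ
    ⟨fun x => by simp only [pb.1, pc.1, pf₂.1, pD1φ.1, pD2φ.1],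
      fun x => by simp only [pb.2, pc.2, pf₂.2, pD1φ.2, pD2φ.2]⟩
    ⟨fun x => by simp only [pb.1, pa.1, pf₁.1, pD1φ.1, pD2φ.1],
      fun x => by simp only [pb.2, pa.2, pf₁.2, pD1φ.2, pD2φ.2]⟩ hp0 hr0
    (fun x => by
      have h1 := hp0' x
      have h2 := hr0' x
      rw [hb, hc, hf₂]
      field_simp
      ring)
    (fun x => by
      have h1 := hp0' x
      have h2 := hr0' x
      rw [ha, hb, hc, hf₁, hf₂]
      field_simp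
      ring)
    (fun x => by
      have h1 : D2 (fun y => (b y * D1 φ y + c y * D2 φ y) - f₂ y) x =
          D2 (fun y => b y * D1 φ y + c y * D2 φ y) x - D2 f₂ x := Flat.D2_sub hB hf₂' x
      have h2 : D1 (fun y => f₁ y - (a y * D1 φ y + b y * D2 φ y)) x =
          D1 f₁ x - D1 (fun y => a y * D1 φ y + b y * D2 φ y) x := Flat.D1_sub hf₁' hA x
      rw [h1, h2]
      linarith [heq x])
  exact ⟨φ, Z, V₁, V₂, hφ, hZ, pφ, hV₁, hV₂, hn⟩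

/-- Every smooth metric on the torus is conformally flat, with a developing map. -/
theorem flat_metric_of (LS : LinSolve) {E F G : ℝ × ℝ → ℝ} (hE : ContDiff ℝ ∞ E)
    (hF : ContDiff ℝ ∞ F) (hG : ContDiff ℝ ∞ G) (pE : Per (1, 0) (0, 1) E)
    (pF : Per (1, 0) (0, 1) F) (pG : Per (1, 0) (0, 1) G) (hpos : ∀ x, 0 < E x)
    (hdet : ∀ x, 0 < E x * G x - F x ^ 2) :
    ∃ (φ : ℝ × ℝ → ℝ) (Z : ℝ × ℝ → ℂ) (V₁ V₂ : ℂ), ContDiff ℝ ∞ φ ∧ ContDiff ℝ ∞ Z ∧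
      Per (1, 0) (0, 1) φ ∧ (∀ x, Z (x + (1, 0)) = Z x + V₁) ∧
      (∀ x, Z (x + (0, 1)) = Z x + V₂) ∧
      ∀ x a : ℝ × ℝ, Real.exp (2 * φ x) * ‖fderiv ℝ Z x a‖ ^ 2 =
        E x * a.1 ^ 2 + 2 * F x * a.1 * a.2 + G x * a.2 ^ 2 := by
  have hp0 : ∀ x, 0 < √(E x) := fun x => Real.sqrt_pos.2 (hpos x)
  have hr0 : ∀ x, 0 < √(E x * G x - F x ^ 2) / √(E x) := fun x =>
    div_pos (Real.sqrt_pos.2 (hdet x)) (hp0 x)
  have hp : ContDiff ℝ ∞ fun x => √(E x) := hE.sqrt fun x => (hpos x).ne'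
  have hs : ContDiff ℝ ∞ fun x => F x / √(E x) := hF.div hp fun x => (hp0 x).ne'
  have hr : ContDiff ℝ ∞ fun x => √(E x * G x - F x ^ 2) / √(E x) :=
    (((hE.mul hG).sub (hF.pow 2)).sqrt fun x => (hdet x).ne').div hp fun x => (hp0 x).ne'
  obtain ⟨φ, Z, V₁, V₂, hφ, hZ, pφ, hV₁, hV₂, hn⟩ := flat_frame LS hp hs hr
    ⟨fun x => by simp only [pE.1], fun x => by simp only [pE.2]⟩
    ⟨fun x => by simp only [pE.1, pF.1], fun x => by simp only [pE.2, pF.2]⟩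
    ⟨fun x => by simp only [pE.1, pF.1, pG.1], fun x => by simp only [pE.2, pF.2, pG.2]⟩ hp0 hr0
  refine ⟨φ, Z, V₁, V₂, hφ, hZ, pφ, hV₁, hV₂, fun x a => ?_⟩
  rw [hn]
  have h1 : √(E x) ^ 2 = E x := Real.sq_sqrt (hpos x).le
  have h2 : √(E x * G x - F x ^ 2) ^ 2 = E x * G x - F x ^ 2 := Real.sq_sqrt (hdet x).le
  have h3 := (hp0 x).ne'
  have hE0 := (hpos x).ne'
  have e1 : (√(E x) * a.1 + F x / √(E x) * a.2) ^ 2 =
      √(E x) ^ 2 * a.1 ^ 2 + 2 * F x * a.1 * a.2 + F x ^ 2 / √(E x) ^ 2 * a.2 ^ 2 := by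
    have h4 : √(E x) * (F x / √(E x)) = F x := by field_simp
    rw [← div_pow]
    linear_combination (2 * a.1 * a.2) * h4
  have e2 : (√(E x * G x - F x ^ 2) / √(E x) * a.2) ^ 2 =
      √(E x * G x - F x ^ 2) ^ 2 / √(E x) ^ 2 * a.2 ^ 2 := by
    field_simp
  rw [e1, e2, h1, h2]
  field_simp
  ring

end Vale.Agent.P205
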