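import Mathlib
import Vale.Agent.Lib.P205.Basic

/-!
# P205, stage 2: the developing map of a flat torus is a global diffeomorphism of the plane
-/

open scoped ContDiff Topology
open Filter Set

namespace Vale.Agent.P205

namespace Glob

/-- every point is equivalent modulo the lattice to a point of a compact set -/
theorem fund {v₁ v₂ : ℝ × ℝ} (hv : dt v₁ v₂ ≠ 0) :
    ∃ K : Set (ℝ × ℝ), IsCompact K ∧ K.Nonempty ∧ ∀ x : ℝ × ℝ, ∃ y ∈ K, ∃ m n : ℤ,
      x = y + (m : ℝ) • v₁ + (n : ℝ) • v₂ := by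
  refine ⟨(fun p : ℝ × ℝ => p.1 • v₁ + p.2 • v₂) '' (Icc 0 1 ×ˢ Icc 0 1), ?_, ?_, ?_⟩
  · exact (isCompact_Icc.prod isCompact_Icc).image (by fun_prop)
  · exact ⟨_, ⟨(0, 0), by simp, rfl⟩⟩
  · intro x
    have hd : dt v₁ v₂ ≠ 0 := hv
    set s : ℝ := (x.1 * v₂.2 - x.2 * v₂.1) / dt v₁ v₂ with hs
    set t : ℝ := (v₁.1 * x.2 - v₁.2 * x.1) / dt v₁ v₂ with ht
    have hx : x = s • v₁ + t • v₂ := by
      apply Prod.ext
      · simp only [Prod.fst_add, Prod.smul_fst, smul_eq_mul, hs, ht]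
        field_simp
        unfold dt
        ring
      · simp only [Prod.snd_add, Prod.smul_snd, smul_eq_mul, hs, ht]
        field_simp
        unfold dt
        ring
    refine ⟨Int.fract s • v₁ + Int.fract t • v₂, ⟨(Int.fract s, Int.fract t), ?_, rfl⟩, ⌊s⌋, ⌊t⌋, ?_⟩
    · exact ⟨⟨Int.fract_nonneg s, (Int.fract_lt_one s).le⟩,
        ⟨Int.fract_nonneg t, (Int.fract_lt_one t).le⟩⟩
    · have h1 : s • v₁ = Int.fract s • v₁ + (⌊s⌋ : ℝ) • v₁ := by
        rw [← add_smul, Int.fract_add_floor]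
      have h2 : t • v₂ = Int.fract t • v₂ + (⌊t⌋ : ℝ) • v₂ := by
        rw [← add_smul, Int.fract_add_floor]
      rw [hx, h1, h2]
      abel

/-- periodicity under one vector gives periodicity under its multiples -/
theorem per_int {E : Type*} {f : ℝ × ℝ → E} {v : ℝ × ℝ} (h : ∀ x, f (x + v) = f x) (m : ℤ)
    (x : ℝ × ℝ) : f (x + (m : ℝ) • v) = f x := by
  induction m with
  | zero => simp
  | succ n ih =>
    rw [show x + (((n : ℤ) + 1 : ℤ) : ℝ) • v = (x + ((n : ℤ) : ℝ) • v) + v by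
      push_cast; rw [add_smul, one_smul, add_assoc], h, ih]
  | pred n ih =>
    rw [← h (x + ((-(n : ℤ) - 1 : ℤ) : ℝ) • v), show x + ((-(n : ℤ) - 1 : ℤ) : ℝ) • v + v
      = x + ((-(n : ℤ) : ℤ) : ℝ) • v by
      push_cast; rw [sub_smul, one_smul, add_assoc, sub_add_cancel], ih]

/-- a continuous periodic function takes all its values on a compact set -/
theorem per_fund {E : Type*} {f : ℝ × ℝ → E} {v₁ v₂ : ℝ × ℝ} (hp : Per v₁ v₂ f)
    {K : Set (ℝ × ℝ)} (hK : ∀ x : ℝ × ℝ, ∃ y ∈ K, ∃ m n : ℤ, x = y + (m : ℝ) • v₁ + (n : ℝ) • v₂)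
    (x : ℝ × ℝ) : ∃ y ∈ K, f x = f y := by
  obtain ⟨y, hy, m, n, rfl⟩ := hK x
  exact ⟨y, hy, by rw [per_int hp.2, per_int hp.1]⟩

theorem exists_max {f : ℝ × ℝ → ℝ} {v₁ v₂ : ℝ × ℝ} (hv : dt v₁ v₂ ≠ 0) (hp : Per v₁ v₂ f)
    (hc : Continuous f) : ∃ x₀, ∀ x, f x ≤ f x₀ := by
  obtain ⟨K, hK, hne, hcov⟩ := fund hv
  obtain ⟨x₀, _, hx₀⟩ := hK.exists_isMaxOn hne hc.continuousOn
  refine ⟨x₀, fun x => ?_⟩
  obtain ⟨y, hy, hxy⟩ := per_fund hp hcov x
  rw [hxy]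
  exact hx₀ hy

theorem bounded {f : ℝ × ℝ → ℂ} {v₁ v₂ : ℝ × ℝ} (hv : dt v₁ v₂ ≠ 0) (hp : Per v₁ v₂ f)
    (hc : Continuous f) : ∃ C, ∀ x, ‖f x‖ ≤ C := by
  obtain ⟨x₀, hx₀⟩ := exists_max (f := fun x => ‖f x‖) hv
    ⟨fun x => by simp only [hp.1], fun x => by simp only [hp.2]⟩ hc.norm
  exact ⟨_, hx₀⟩

/-- an injective linear map from the plane to `ℂ` as a continuous linear equivalence -/
theorem exists_equiv (A : ℝ × ℝ →L[ℝ] ℂ) (h : ∀ a, A a = 0 → a = 0) :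
    ∃ e : (ℝ × ℝ) ≃L[ℝ] ℂ, (e : ℝ × ℝ →L[ℝ] ℂ) = A := by
  have hinj : Function.Injective (A : ℝ × ℝ →ₗ[ℝ] ℂ) := by
    rw [← LinearMap.ker_eq_bot, LinearMap.ker_eq_bot']
    exact fun m hm => h m hm
  have hdim : Module.finrank ℝ (ℝ × ℝ) = Module.finrank ℝ ℂ := by
    rw [Complex.finrank_real_complex, Module.finrank_prod, Module.finrank_self]
  refine ⟨(LinearMap.linearEquivOfInjective (A : ℝ × ℝ →ₗ[ℝ] ℂ) hinj
    hdim).toContinuousLinearEquiv, ?_⟩
  exact ContinuousLinearMap.ext fun a =>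
    LinearMap.linearEquivOfInjective_apply (f := (A : ℝ × ℝ →ₗ[ℝ] ℂ)) hinj hdim a

theorem indep {v₁ v₂ : ℝ × ℝ} (hv : dt v₁ v₂ ≠ 0) {Z : ℝ × ℝ → ℂ}
    (hZ : ContDiff ℝ ∞ Z) (hinj : ∀ x a, fderiv ℝ Z x a = 0 → a = 0) {V₁ V₂ : ℂ}
    (h1 : ∀ x, Z (x + v₁) = Z x + V₁) (h2 : ∀ x, Z (x + v₂) = Z x + V₂) :
    V₁.re * V₂.im - V₁.im * V₂.re ≠ 0 := by
  intro h0
  -- a non-trivial real linear form which kills `V₁` and `V₂`
  obtain ⟨α, β, hne, ha1, ha2⟩ : ∃ α β : ℝ, ¬ (α = 0 ∧ β = 0) ∧ α * V₁.re + β * V₁.im = 0 ∧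
      α * V₂.re + β * V₂.im = 0 := by
    by_cases hV : V₁ = 0
    · by_cases hW : V₂ = 0
      · exact ⟨1, 0, by simp, by simp [hV], by simp [hW]⟩
      · refine ⟨V₂.im, -V₂.re, fun h => hW (Complex.ext (by simpa using h.2) h.1), by simp [hV],
          by ring⟩
    · exact ⟨V₁.im, -V₁.re, fun h => hV (Complex.ext (by simpa using h.2) h.1), by ring,
        by linarith⟩
  set f : ℝ × ℝ → ℝ := fun x => α * (Z x).re + β * (Z x).im with hf
  have hper : Per v₁ v₂ f := by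
    constructor
    · intro x
      simp only [hf, h1, Complex.add_re, Complex.add_im]
      linarith
    · intro x
      simp only [hf, h2, Complex.add_re, Complex.add_im]
      linarith
  set ℓ : ℂ →L[ℝ] ℝ := α • Complex.reCLM + β • Complex.imCLM with hℓ
  have hfl : f = fun x => ℓ (Z x) := by
    funext x
    simp [hf, hℓ]
  have hd : Differentiable ℝ Z := hZ.differentiable (by simp)
  have hfc : Continuous f := by
    rw [hfl]
    exact ℓ.continuous.comp hd.continuous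
  obtain ⟨x₀, hx₀⟩ := exists_max hv hper hfc
  have hder : HasFDerivAt f (ℓ.comp (fderiv ℝ Z x₀)) x₀ := by
    rw [hfl]
    exact ℓ.hasFDerivAt.comp x₀ (hd x₀).hasFDerivAt
  have hmax : IsLocalMax f x₀ := Filter.Eventually.of_forall hx₀
  have hz := hmax.hasFDerivAt_eq_zero hder
  obtain ⟨e, he⟩ := exists_equiv (fderiv ℝ Z x₀) (hinj x₀)
  have hl : ∀ z : ℂ, ℓ z = 0 := by
    intro z
    have h := congrArg (fun T : ℝ × ℝ →L[ℝ] ℝ => T (e.symm z)) hz
    simp only [ContinuousLinearMap.comp_apply, zero_apply] at h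
    rw [← he] at h
    simpa using h
  apply hne
  constructor
  · have := hl 1
    simpa [hℓ] using this
  · have := hl Complex.I
    simpa [hℓ] using this

theorem proper {v₁ v₂ : ℝ × ℝ} (hv : dt v₁ v₂ ≠ 0) {Z : ℝ × ℝ → ℂ}
    (hZ : Continuous Z) {V₁ V₂ : ℂ}
    (h1 : ∀ x, Z (x + v₁) = Z x + V₁) (h2 : ∀ x, Z (x + v₂) = Z x + V₂)
    (hV : V₁.re * V₂.im - V₁.im * V₂.re ≠ 0) : IsProperMap Z := by
  -- the linear part
  set L : ℝ × ℝ → ℂ := fun x => (((x.1 * v₂.2 - x.2 * v₂.1) / dt v₁ v₂ : ℝ) : ℂ) * V₁ +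
    (((v₁.1 * x.2 - v₁.2 * x.1) / dt v₁ v₂ : ℝ) : ℂ) * V₂ with hL
  have hLc : Continuous L := by
    rw [hL]
    fun_prop
  have hL1 : ∀ x, L (x + v₁) = L x + V₁ := by
    intro x
    have e1 : ((x + v₁).1 * v₂.2 - (x + v₁).2 * v₂.1) / dt v₁ v₂ =
        (x.1 * v₂.2 - x.2 * v₂.1) / dt v₁ v₂ + 1 := by
      field_simp
      simp only [Prod.fst_add, Prod.snd_add, dt]
      ring
    have e2 : (v₁.1 * (x + v₁).2 - v₁.2 * (x + v₁).1) / dt v₁ v₂ =
        (v₁.1 * x.2 - v₁.2 * x.1) / dt v₁ v₂ := by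
      simp only [Prod.fst_add, Prod.snd_add]
      congr 1
      ring
    simp only [hL, e1, e2]
    push_cast
    ring
  have hL2 : ∀ x, L (x + v₂) = L x + V₂ := by
    intro x
    have e1 : ((x + v₂).1 * v₂.2 - (x + v₂).2 * v₂.1) / dt v₁ v₂ =
        (x.1 * v₂.2 - x.2 * v₂.1) / dt v₁ v₂ := by
      simp only [Prod.fst_add, Prod.snd_add]
      congr 1
      ring
    have e2 : (v₁.1 * (x + v₂).2 - v₁.2 * (x + v₂).1) / dt v₁ v₂ =
        (v₁.1 * x.2 - v₁.2 * x.1) / dt v₁ v₂ + 1 := by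
      field_simp
      simp only [Prod.fst_add, Prod.snd_add, dt]
      ring
    simp only [hL, e1, e2]
    push_cast
    ring
  obtain ⟨C, hC⟩ := bounded (f := fun x => Z x - L x) hv
    ⟨fun x => by simp only [h1, hL1]; ring, fun x => by simp only [h2, hL2]; ring⟩ (hZ.sub hLc)
  -- the linear part as a continuous linear map
  set A : ℝ × ℝ →L[ℝ] ℂ :=
    (((v₂.2 / dt v₁ v₂) • ContinuousLinearMap.fst ℝ ℝ ℝ -
      (v₂.1 / dt v₁ v₂) • ContinuousLinearMap.snd ℝ ℝ ℝ).smulRight V₁) +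
    (((v₁.1 / dt v₁ v₂) • ContinuousLinearMap.snd ℝ ℝ ℝ -
      (v₁.2 / dt v₁ v₂) • ContinuousLinearMap.fst ℝ ℝ ℝ).smulRight V₂) with hA
  have hAL : ∀ x, A x = L x := by
    intro x
    simp only [hA, hL, add_apply, ContinuousLinearMap.smulRight_apply,
      sub_apply, smul_apply,
      ContinuousLinearMap.coe_fst', ContinuousLinearMap.coe_snd', smul_eq_mul,
      Complex.real_smul]
    congr 3 <;> ring
  have hAinj : ∀ a, A a = 0 → a = 0 := by
    intro a ha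
    rw [hAL] at ha
    set s : ℝ := (a.1 * v₂.2 - a.2 * v₂.1) / dt v₁ v₂ with hs
    set t : ℝ := (v₁.1 * a.2 - v₁.2 * a.1) / dt v₁ v₂ with ht
    have hre := congrArg Complex.re ha
    have him := congrArg Complex.im ha
    simp only [hL, ← hs, ← ht, Complex.add_re, Complex.add_im, Complex.re_ofReal_mul,
      Complex.im_ofReal_mul, Complex.zero_re, Complex.zero_im] at hre him
    have hs0 : s = 0 := by
      have : s * (V₁.re * V₂.im - V₁.im * V₂.re) = 0 := by linear_combination V₂.im * hre - V₂.re * him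
      exact (mul_eq_zero.1 this).resolve_right hV
    have ht0 : t = 0 := by
      have : t * (V₁.re * V₂.im - V₁.im * V₂.re) = 0 := by linear_combination V₁.re * him - V₁.im * hre
      exact (mul_eq_zero.1 this).resolve_right hV
    have hx : a = s • v₁ + t • v₂ := by
      apply Prod.ext
      · simp only [Prod.fst_add, Prod.smul_fst, smul_eq_mul, hs, ht]
        field_simp
        unfold dt
        ring
      · simp only [Prod.snd_add, Prod.smul_snd, smul_eq_mul, hs, ht]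
        field_simp
        unfold dt
        ring
    rw [hx, hs0, ht0]
    simp
  obtain ⟨e, he⟩ := exists_equiv A hAinj
  have hlow : ∃ c : ℝ, 0 < c ∧ ∀ x, c * ‖x‖ ≤ ‖A x‖ := by
    have hb : ∀ x, ‖x‖ ≤ ‖(e.symm : ℂ →L[ℝ] ℝ × ℝ)‖ * ‖A x‖ := by
      intro x
      have h := (e.symm : ℂ →L[ℝ] ℝ × ℝ).le_opNorm (A x)
      rw [← he] at h ⊢
      simpa using h
    refine ⟨1 / (‖(e.symm : ℂ →L[ℝ] ℝ × ℝ)‖ + 1), by positivity, fun x => ?_⟩
    rw [one_div, inv_mul_le_iff₀ (by positivity)]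
    nlinarith [hb x, norm_nonneg (A x), norm_nonneg (e.symm : ℂ →L[ℝ] ℝ × ℝ)]
  obtain ⟨c, hc, hlow⟩ := hlow
  rw [isProperMap_iff_tendsto_cocompact]
  refine ⟨hZ, ?_⟩
  apply tendsto_cocompact_of_tendsto_dist_comp_atTop (0 : ℂ)
  have hlb : ∀ x, c * ‖x‖ - C ≤ dist (Z x) 0 := by
    intro x
    rw [dist_zero_right]
    have h3 := hC x
    have h4 := hlow x
    rw [hAL] at h4
    have h5 : ‖L x‖ ≤ ‖Z x‖ + ‖Z x - L x‖ := by
      have : L x = Z x - (Z x - L x) := by ring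
      calc ‖L x‖ = ‖Z x - (Z x - L x)‖ := by rw [← this]
        _ ≤ _ := norm_sub_le _ _
    linarith
  refine tendsto_atTop_mono hlb ?_
  apply tendsto_atTop_add_const_right
  exact (tendsto_norm_cocompact_atTop (E := ℝ × ℝ)).const_mul_atTop hc

end Glob

open Glob in
/-- `V₁`, `V₂` independent: else some real linear function of `Z` is periodic, so it has a maximum
point, where `fderiv Z` is not surjective.  Then `Z x = L x + bounded`, so `Z` is proper; it is a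
local homeomorphism, closed, with finite fibres, hence a covering, hence a homeomorphism. -/
theorem global_inverse {v₁ v₂ : ℝ × ℝ} (hv : dt v₁ v₂ ≠ 0) {Z : ℝ × ℝ → ℂ}
    (hZ : ContDiff ℝ ∞ Z) (hinj : ∀ x a, fderiv ℝ Z x a = 0 → a = 0) {V₁ V₂ : ℂ}
    (h1 : ∀ x, Z (x + v₁) = Z x + V₁) (h2 : ∀ x, Z (x + v₂) = Z x + V₂) :
    V₁.re * V₂.im - V₁.im * V₂.re ≠ 0 ∧
      ∃ Y : ℂ → ℝ × ℝ, ContDiff ℝ ∞ Y ∧ (∀ x, Y (Z x) = x) ∧ ∀ z, Z (Y z) = z := by
  have hV := indep hv hZ hinj h1 h2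
  refine ⟨hV, ?_⟩
  have hprop := proper hv hZ.continuous h1 h2 hV
  choose e he using fun x => exists_equiv (fderiv ℝ Z x) (hinj x)
  have hder : ∀ x, HasStrictFDerivAt Z ((e x : (ℝ × ℝ) ≃L[ℝ] ℂ) : ℝ × ℝ →L[ℝ] ℂ) x := by
    intro x
    rw [he x]
    exact hZ.contDiffAt.hasStrictFDerivAt (by simp)
  have hφ : ∀ x, ∃ φ : OpenPartialHomeomorph (ℝ × ℝ) ℂ, x ∈ φ.source ∧ φ = Z := fun x =>
    ⟨(hder x).toOpenPartialHomeomorph Z, (hder x).mem_toOpenPartialHomeomorph_source,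
      (hder x).toOpenPartialHomeomorph_coe⟩
  have hcov : IsCoveringMap Z := by
    intro z
    have hdisc : IsDiscrete (Z ⁻¹' {z}) :=
      IsDiscrete.of_openPartialHomeomorph Z subset_rfl fun x _ => hφ x
    have hfin : (Z ⁻¹' {z}).Finite := (hprop.isCompact_preimage isCompact_singleton).finite hdisc
    exact hprop.isClosedMap.isEvenlyCovered_of_openPartialHomeomorph hfin fun x _ => hφ x
  obtain ⟨Y, ⟨hY0, hZY⟩, -⟩ := hcov.existsUnique_continuousMap_lifts (ContinuousMap.id ℂ) (Z 0) 0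
    (by simp)
  have hZY' : ∀ z, Z (Y z) = z := fun z => congrFun hZY z
  have hYZ : (fun x => Y (Z x)) = id := by
    apply hcov.eq_of_comp_eq (Y.continuous.comp hZ.continuous) continuous_id
      (by funext x; simp [hZY']) 0
    simpa using hY0
  have hYZ' : ∀ x, Y (Z x) = x := fun x => congrFun hYZ x
  let F : (ℝ × ℝ) ≃ₜ ℂ :=
    { toFun := Z
      invFun := Y
      left_inv := hYZ'
      right_inv := hZY'
      continuous_toFun := hZ.continuous
      continuous_invFun := Y.continuous }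
  exact ⟨Y, F.contDiff_symm (f₀' := e) (fun x => (hder x).hasFDerivAt) hZ, hYZ', hZY'⟩

end Vale.Agent.P205
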