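import Vale.Agent.Lib.P205.Flat
import Vale.Agent.Lib.P205.Global
import Vale.Agent.Lib.P205.Final

/-!
# P205, stage 2: module GENERAL, arbitrary smooth Riemannian metrics on `ℝ² / ℤ²`
-/

open scoped ContDiff

namespace Vale.Agent.P205

theorem torus_general_of (LS : LinSolve) (g : ℝ × ℝ → ℝ × ℝ →L[ℝ] ℝ × ℝ →L[ℝ] ℝ)
    (hg : ContDiff ℝ ∞ g)
    (hsymm : ∀ x a b, g x a b = g x b a) (hpos : ∀ x a, a ≠ 0 → 0 < g x a a)
    (hp : Per (1, 0) (0, 1) g) :
    ∃ F : ℝ × ℝ → EuclideanSpace ℝ (Fin 4), ContDiff ℝ ∞ F ∧ Per (1, 0) (0, 1) F ∧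
      ∀ x a b, inner ℝ (fderiv ℝ F x a) (fderiv ℝ F x b) = g x a b := by
  have hg2 : ∀ v w : ℝ × ℝ, ContDiff ℝ ∞ fun x => g x v w := fun v w =>
    (hg.clm_apply contDiff_const).clm_apply contDiff_const
  have hgp : ∀ v w : ℝ × ℝ, Per (1, 0) (0, 1) fun x => g x v w := fun v w =>
    ⟨fun x => by simp only [hp.1], fun x => by simp only [hp.2]⟩
  have hexp : ∀ x a b, g x a b = a.1 * b.1 * g x (1, 0) (1, 0) +
      (a.1 * b.2 + a.2 * b.1) * g x (1, 0) (0, 1) + a.2 * b.2 * g x (0, 1) (0, 1) := by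
    intro x a b
    have ha : a = a.1 • ((1 : ℝ), (0 : ℝ)) + a.2 • ((0 : ℝ), (1 : ℝ)) := by
      apply Prod.ext <;> simp
    have hb : b = b.1 • ((1 : ℝ), (0 : ℝ)) + b.2 • ((0 : ℝ), (1 : ℝ)) := by
      apply Prod.ext <;> simp
    have h21 := hsymm x (0, 1) (1, 0)
    conv_lhs => rw [ha, hb]
    simp only [map_add, map_smul, add_apply, smul_apply, smul_eq_mul, h21]
    ring
  obtain ⟨φ, Z, V₁, V₂, hφ, hZ, pφ, hZ1, hZ2, hmet⟩ := flat_metric_of LS (hg2 (1, 0) (1, 0))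
    (hg2 (1, 0) (0, 1)) (hg2 (0, 1) (0, 1)) (hgp _ _) (hgp _ _) (hgp _ _)
    (fun x => hpos x _ (by simp)) (fun x => by
      have h1 := hpos x (1, 0) (by simp)
      have h2 := hpos x (-g x (1, 0) (0, 1), g x (1, 0) (1, 0)) (by
        intro h
        have h3 := congrArg Prod.snd h
        simp only [Prod.snd_zero] at h3
        exact h1.ne' h3)
      rw [hexp] at h2
      simp only at h2
      nlinarith)
  have hmet' : ∀ x a, Real.exp (2 * φ x) * ‖fderiv ℝ Z x a‖ ^ 2 = g x a a := by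
    intro x a
    rw [hmet, hexp x a a]
    ring
  have hinj : ∀ x a, fderiv ℝ Z x a = 0 → a = 0 := by
    intro x a ha
    by_contra hne
    have h1 := hpos x a hne
    rw [← hmet', ha] at h1
    simp at h1
  obtain ⟨hV, Y, hY, hYZ, hZY⟩ := global_inverse (v₁ := (1, 0)) (v₂ := (0, 1)) (by simp [dt]) hZ
    hinj hZ1 hZ2
  -- the metric in the flat coordinate
  set w : ℝ × ℝ → ℝ := fun p => φ (Y ((p.1 : ℂ) + (p.2 : ℂ) * Complex.I)) with hw
  have hofr : ContDiff ℝ ∞ fun p : ℝ × ℝ => ((p.1 : ℂ) + (p.2 : ℂ) * Complex.I) :=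
    (Complex.ofRealCLM.contDiff.comp contDiff_fst).add
      ((Complex.ofRealCLM.contDiff.comp contDiff_snd).mul contDiff_const)
  have hws : ContDiff ℝ ∞ w := hφ.comp (hY.comp hofr)
  have hYp : ∀ (z V : ℂ) (v : ℝ × ℝ), (∀ x, Z (x + v) = Z x + V) → Y (z + V) = Y z + v := by
    intro z V v h
    have h1 : Z (Y z + v) = z + V := by rw [h, hZY]
    rw [← h1, hYZ]
  have hwp : Per (V₁.re, V₁.im) (V₂.re, V₂.im) w := by
    constructor
    · intro p
      have h1 : ((((p + (V₁.re, V₁.im)).1 : ℝ) : ℂ) + (((p + (V₁.re, V₁.im)).2 : ℝ) : ℂ) *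
          Complex.I) = ((p.1 : ℂ) + (p.2 : ℂ) * Complex.I) + V₁ := by
        conv_rhs => rw [← Complex.re_add_im V₁]
        simp only [Prod.fst_add, Prod.snd_add, Complex.ofReal_add]
        ring
      simp only [hw]
      rw [h1, hYp _ _ _ hZ1, pφ.1]
    · intro p
      have h1 : ((((p + (V₂.re, V₂.im)).1 : ℝ) : ℂ) + (((p + (V₂.re, V₂.im)).2 : ℝ) : ℂ) *
          Complex.I) = ((p.1 : ℂ) + (p.2 : ℂ) * Complex.I) + V₂ := by
        conv_rhs => rw [← Complex.re_add_im V₂]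
        simp only [Prod.fst_add, Prod.snd_add, Complex.ofReal_add]
        ring
      simp only [hw]
      rw [h1, hYp _ _ _ hZ2, pφ.2]
  obtain ⟨F, hF, hFp, hFm⟩ := torus (v₁ := (V₁.re, V₁.im)) (v₂ := (V₂.re, V₂.im))
    (by simpa [dt] using hV) w hws hwp
  -- the composition
  set ζ : ℝ × ℝ → ℝ × ℝ := fun x => ((Z x).re, (Z x).im) with hζ
  have hζs : ContDiff ℝ ∞ ζ :=
    (Complex.reCLM.contDiff.comp hZ).prodMk (Complex.imCLM.contDiff.comp hZ)
  have hwζ : ∀ x, w (ζ x) = φ x := by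
    intro x
    simp only [hw, hζ, Complex.re_add_im, hYZ]
  have hζd : ∀ x a, fderiv ℝ ζ x a = ((fderiv ℝ Z x a).re, (fderiv ℝ Z x a).im) := by
    intro x a
    have hd : HasFDerivAt Z (fderiv ℝ Z x) x := (hZ.differentiable (by simp) x).hasFDerivAt
    have h1 : HasFDerivAt ζ ((Complex.reCLM.comp (fderiv ℝ Z x)).prod
        (Complex.imCLM.comp (fderiv ℝ Z x))) x :=
      (Complex.reCLM.hasFDerivAt.comp x hd).prodMk (Complex.imCLM.hasFDerivAt.comp x hd)
    rw [h1.fderiv]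
    rfl
  refine ⟨fun x => F (ζ x), hF.comp hζs, ⟨fun x => ?_, fun x => ?_⟩, fun x a b => ?_⟩
  · have h1 : ζ (x + (1, 0)) = ζ x + (V₁.re, V₁.im) := by
      simp [hζ, hZ1]
    simp only [h1, hFp.1]
  · have h1 : ζ (x + (0, 1)) = ζ x + (V₂.re, V₂.im) := by
      simp [hζ, hZ2]
    simp only [h1, hFp.2]
  · have hcomp : ∀ a, fderiv ℝ (fun y => F (ζ y)) x a = fderiv ℝ F (ζ x) (fderiv ℝ ζ x a) := by
      intro a
      have h1 : HasFDerivAt F (fderiv ℝ F (ζ x)) (ζ x) :=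
        (hF.differentiable (by simp) _).hasFDerivAt
      have h2 : HasFDerivAt ζ (fderiv ℝ ζ x) x := (hζs.differentiable (by simp) x).hasFDerivAt
      have h3 : HasFDerivAt (fun y => F (ζ y)) ((fderiv ℝ F (ζ x)).comp (fderiv ℝ ζ x)) x :=
        h1.comp x h2
      rw [h3.fderiv]
      rfl
    rw [hcomp, hcomp, hFm, hwζ, hζd, hζd]
    -- polarisation
    have hsq : ∀ a, Real.exp (2 * φ x) * ((fderiv ℝ Z x a).re * (fderiv ℝ Z x a).re +
        (fderiv ℝ Z x a).im * (fderiv ℝ Z x a).im) = g x a a := by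
      intro a
      rw [← hmet', ← Complex.normSq_eq_norm_sq, Complex.normSq_apply]
    have h1 := hsq (a + b)
    have h2 := hsq a
    have h3 := hsq b
    simp only [map_add, add_apply, Complex.add_re, Complex.add_im] at h1
    have h4 := hsymm x b a
    linarith

end Vale.Agent.P205
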