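import Mathlib
import Vale.Agent.Lib.P205.Basic

open scoped ContDiff
open Real (pi)

namespace Vale.Agent.P205

namespace Hopf

/-- arc length reparametrisation -/
theorem reparam {G H G' H' : ℝ → ℂ} {v : ℝ → ℝ} {L : ℝ} {ζ : ℂ} (hG : ContDiff ℝ ∞ G)
    (hH : ContDiff ℝ ∞ H) (hv : ContDiff ℝ ∞ v) (hG' : ∀ u, HasDerivAt G (G' u) u)
    (hH' : ∀ u, HasDerivAt H (H' u) u) (h1 : ∀ u, ‖G u‖ ^ 2 + ‖H u‖ ^ 2 = 1)
    (h2 : ∀ u, ‖G' u‖ ^ 2 + ‖H' u‖ ^ 2 = v u ^ 2)
    (h3 : ∀ u, (starRingEnd ℂ) (G u) * G' u + (starRingEnd ℂ) (H u) * H' u = 0)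
    (hv1 : ∀ u, 1 ≤ v u) (hper : ∀ u, v (u + 1) = v u) (hL : ∫ u in (0 : ℝ)..1, v u = L)
    (hGp : ∀ u, G (u + 1) = ζ * G u) (hHp : ∀ u, H (u + 1) = ζ * H u) :
    ∃ g h : ℝ → ℂ,
    ContDiff ℝ ∞ g ∧ ContDiff ℝ ∞ h ∧ (∀ s, ‖g s‖ ^ 2 + ‖h s‖ ^ 2 = 1) ∧
    (∀ s, ‖deriv g s‖ ^ 2 + ‖deriv h s‖ ^ 2 = 1) ∧
    (∀ s, (starRingEnd ℂ) (g s) * deriv g s + (starRingEnd ℂ) (h s) * deriv h s = 0) ∧
    (∀ s, g (s + L) = ζ * g s) ∧
    ∀ s, h (s + L) = ζ * h s := by
  have hvc : Continuous v := hv.continuous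
  set S : ℝ → ℝ := fun u => ∫ x in (0 : ℝ)..u, v x with hS
  have hSd : ∀ u, HasDerivAt S (v u) u := fun u =>
    intervalIntegral.integral_hasDerivAt_right (hvc.intervalIntegrable _ _)
      (hvc.stronglyMeasurableAtFilter _ _) hvc.continuousAt
  have hSderiv : deriv S = v := funext fun u => (hSd u).deriv
  have hSdiff : Differentiable ℝ S := fun u => (hSd u).differentiableAt
  have hSsmooth : ContDiff ℝ ∞ S := by
    rw [contDiff_infty_iff_deriv]
    exact ⟨hSdiff, by rw [hSderiv]; exact hv⟩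
  have hmono : StrictMono S := by
    apply strictMono_of_deriv_pos
    intro u
    rw [hSderiv]
    linarith [hv1 u]
  have hmono1 : Monotone (fun u => S u - u) := by
    apply monotone_of_deriv_nonneg
    · exact hSdiff.sub differentiable_id
    · intro u
      have : HasDerivAt (fun u => S u - u) (v u - 1) u := (hSd u).sub (hasDerivAt_id u)
      rw [this.deriv]
      linarith [hv1 u]
  have hS0 : S 0 = 0 := by simp [hS]
  have hsurj : Function.Surjective S := by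
    apply hSdiff.continuous.surjective
    · refine Filter.tendsto_atTop_mono' _ ?_ Filter.tendsto_id
      filter_upwards [Filter.eventually_ge_atTop (0 : ℝ)] with u hu
      have := hmono1 hu
      simp only [hS0] at this
      simp only [id]
      linarith
    · refine Filter.tendsto_atBot_mono' _ ?_ Filter.tendsto_id
      filter_upwards [Filter.eventually_le_atBot (0 : ℝ)] with u hu
      have := hmono1 hu
      simp only [hS0] at this
      simp only [id]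
      linarith
  set e : ℝ ≃o ℝ := hmono.orderIsoOfSurjective S hsurj with he
  set w : ℝ → ℝ := fun x => e.symm x with hw
  have hSw : ∀ x, S (w x) = x := fun x => by
    have := e.apply_symm_apply x
    exact this
  have hwS : ∀ x, w (S x) = x := fun x => hmono.injective (hSw _)
  have hwc : Continuous w := e.symm.continuous
  have hwd : ∀ x, HasDerivAt w (v (w x))⁻¹ x := fun x =>
    HasDerivAt.of_local_left_inverse hwc.continuousAt (hSd (w x)) (by linarith [hv1 (w x)])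
      (Filter.Eventually.of_forall hSw)
  have hwsmooth : ContDiff ℝ ∞ w := by
    rw [contDiff_iff_contDiffAt]
    intro x
    have := OpenPartialHomeomorph.contDiffAt_symm_deriv (n := ∞)
      (e.toHomeomorph.toOpenPartialHomeomorph) (f₀' := v (w x)) (a := x)
      (by linarith [hv1 (w x)]) (Set.mem_univ _) (hSd (w x)) (hSsmooth.contDiffAt)
    exact this
  have hSL : ∀ u, S (u + 1) = S u + L := by
    intro u
    have h4 : Function.Periodic v 1 := hper
    have h5 := h4.intervalIntegral_add_eq u 0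
    rw [zero_add, hL] at h5
    rw [hS]
    simp only
    rw [← h5]
    exact (intervalIntegral.integral_add_adjacent_intervals (hvc.intervalIntegrable _ _)
      (hvc.intervalIntegrable _ _)).symm
  have hwL : ∀ x, w (x + L) = w x + 1 := by
    intro x
    apply hmono.injective
    rw [hSw, hSL, hSw]
  have hgd : ∀ x, HasDerivAt (fun x => G (w x)) ((v (w x))⁻¹ • G' (w x)) x := fun x =>
    (hG' (w x)).scomp x (hwd x)
  have hhd : ∀ x, HasDerivAt (fun x => H (w x)) ((v (w x))⁻¹ • H' (w x)) x := fun x =>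
    (hH' (w x)).scomp x (hwd x)
  refine ⟨fun x => G (w x), fun x => H (w x), hG.comp hwsmooth, hH.comp hwsmooth,
    fun s => h1 _, fun s => ?_, fun s => ?_, fun s => ?_, fun s => ?_⟩
  · rw [(hgd s).deriv, (hhd s).deriv, norm_smul, norm_smul, mul_pow, mul_pow, ← mul_add, h2,
      Real.norm_eq_abs, sq_abs, ← mul_pow, inv_mul_cancel₀, one_pow]
    linarith [hv1 (w s)]
  · rw [(hgd s).deriv, (hhd s).deriv]
    simp only [Complex.real_smul]
    linear_combination (((v (w s))⁻¹ : ℝ) : ℂ) * h3 (w s)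
  · simp only [hwL, hGp]
  · simp only [hwL, hHp]

/-- the profile `sin² η` -/
noncomputable def X (a : ℝ) (M : ℕ) (b u : ℝ) : ℝ := 1 / 2 + a + b * Real.cos (2 * Real.pi * M * u)

noncomputable def dX (M : ℕ) (b u : ℝ) : ℝ := -(b * (2 * Real.pi * M)) * Real.sin (2 * Real.pi * M * u)

noncomputable def th1 (a : ℝ) (M : ℕ) (b u : ℝ) : ℝ :=
  16 * Real.pi * ((1 / 2 + a) * u + b * Real.sin (2 * Real.pi * M * u) / (2 * Real.pi * M))

noncomputable def th2 (a : ℝ) (M : ℕ) (b u : ℝ) : ℝ :=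
  -(16 * Real.pi * ((1 / 2 - a) * u - b * Real.sin (2 * Real.pi * M * u) / (2 * Real.pi * M)))

noncomputable def vel (a : ℝ) (M : ℕ) (b u : ℝ) : ℝ :=
  Real.sqrt (dX M b u ^ 2 / (4 * (X a M b u * (1 - X a M b u)))
    + (16 * Real.pi) ^ 2 * (X a M b u * (1 - X a M b u)))

variable {a b : ℝ} {M : ℕ}

theorem X_mem (ha : 0 ≤ a) (ha' : a ≤ 1 / 8) (hb : 0 ≤ b) (hb' : b ≤ 1 / 4) (u : ℝ) :
    1 / 4 ≤ X a M b u ∧ X a M b u ≤ 7 / 8 := by
  unfold X
  have h1 := Real.neg_one_le_cos (2 * Real.pi * M * u)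
  have h2 := Real.cos_le_one (2 * Real.pi * M * u)
  constructor <;> nlinarith

theorem XX_ge (ha : 0 ≤ a) (ha' : a ≤ 1 / 8) (hb : 0 ≤ b) (hb' : b ≤ 1 / 4) (u : ℝ) :
    7 / 64 ≤ X a M b u * (1 - X a M b u) := by
  obtain ⟨h1, h2⟩ := X_mem (M := M) ha ha' hb hb' u
  nlinarith

theorem hasDerivAt_X (u : ℝ) : HasDerivAt (X a M b) (dX M b u) u := by
  have h1 : HasDerivAt (fun u : ℝ => 2 * Real.pi * M * u) (2 * Real.pi * M) u := by
    simpa using (hasDerivAt_id u).const_mul (2 * Real.pi * M)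
  refine (((h1.cos).const_mul b).const_add (1 / 2 + a)).congr_deriv ?_
  unfold dX
  ring

theorem hasDerivAt_th1 (hM : 1 ≤ M) (u : ℝ) :
    HasDerivAt (th1 a M b) (16 * Real.pi * X a M b u) u := by
  have hM' : (2 * Real.pi * M) ≠ 0 := by
    have : (0 : ℝ) < M := by exact_mod_cast hM
    have := Real.pi_pos
    positivity
  have h1 : HasDerivAt (fun u : ℝ => 2 * Real.pi * M * u) (2 * Real.pi * M) u := by
    simpa using (hasDerivAt_id u).const_mul (2 * Real.pi * M)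
  have h2 : HasDerivAt (fun u : ℝ => (1 / 2 + a) * u) (1 / 2 + a) u := by
    simpa using (hasDerivAt_id u).const_mul (1 / 2 + a)
  refine ((h2.add (((h1.sin).const_mul b).div_const (2 * Real.pi * M))).const_mul
    (16 * Real.pi)).congr_deriv ?_
  unfold X
  field_simp

theorem hasDerivAt_th2 (hM : 1 ≤ M) (u : ℝ) :
    HasDerivAt (th2 a M b) (-(16 * Real.pi * (1 - X a M b u))) u := by
  have hM' : (2 * Real.pi * M) ≠ 0 := by
    have : (0 : ℝ) < M := by exact_mod_cast hM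
    have := Real.pi_pos
    positivity
  have h1 : HasDerivAt (fun u : ℝ => 2 * Real.pi * M * u) (2 * Real.pi * M) u := by
    simpa using (hasDerivAt_id u).const_mul (2 * Real.pi * M)
  have h2 : HasDerivAt (fun u : ℝ => (1 / 2 - a) * u) (1 / 2 - a) u := by
    simpa using (hasDerivAt_id u).const_mul (1 / 2 - a)
  refine (((h2.sub (((h1.sin).const_mul b).div_const (2 * Real.pi * M))).const_mul
    (16 * Real.pi)).neg).congr_deriv ?_
  unfold X
  field_simp
  ring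

theorem contDiff_X : ContDiff ℝ ∞ (X a M b) := by
  unfold X
  exact contDiff_const.add (contDiff_const.mul (Real.contDiff_cos.comp
    (contDiff_const.mul contDiff_id)))

theorem contDiff_dX : ContDiff ℝ ∞ (dX M b) := by
  unfold dX
  exact contDiff_const.mul (Real.contDiff_sin.comp (contDiff_const.mul contDiff_id))

theorem contDiff_th1 : ContDiff ℝ ∞ (th1 a M b) := by
  unfold th1
  exact contDiff_const.mul ((contDiff_const.mul contDiff_id).add
    ((contDiff_const.mul (Real.contDiff_sin.comp (contDiff_const.mul contDiff_id))).div_const _))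

theorem contDiff_th2 : ContDiff ℝ ∞ (th2 a M b) := by
  unfold th2
  exact (contDiff_const.mul ((contDiff_const.mul contDiff_id).sub
    ((contDiff_const.mul (Real.contDiff_sin.comp (contDiff_const.mul contDiff_id))).div_const _))).neg

/-- first component of the curve -/
noncomputable def G (a : ℝ) (M : ℕ) (b u : ℝ) : ℂ :=
  (Real.sqrt (1 - X a M b u) : ℂ) * Complex.exp (Complex.I * th1 a M b u)

/-- second component of the curve -/
noncomputable def H (a : ℝ) (M : ℕ) (b u : ℝ) : ℂ :=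
  (Real.sqrt (X a M b u) : ℂ) * Complex.exp (Complex.I * th2 a M b u)

noncomputable def G' (a : ℝ) (M : ℕ) (b u : ℝ) : ℂ :=
  (((-dX M b u / (2 * Real.sqrt (1 - X a M b u)) : ℝ) : ℂ) +
    Complex.I * ((Real.sqrt (1 - X a M b u) * (16 * Real.pi * X a M b u) : ℝ) : ℂ)) *
    Complex.exp (Complex.I * th1 a M b u)

noncomputable def H' (a : ℝ) (M : ℕ) (b u : ℝ) : ℂ :=
  (((dX M b u / (2 * Real.sqrt (X a M b u)) : ℝ) : ℂ) +
    Complex.I * ((-(Real.sqrt (X a M b u) * (16 * Real.pi * (1 - X a M b u))) : ℝ) : ℂ)) *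
    Complex.exp (Complex.I * th2 a M b u)

theorem hasDerivAt_G (ha : 0 ≤ a) (ha' : a ≤ 1 / 8) (hb : 0 ≤ b) (hb' : b ≤ 1 / 4) (hM : 1 ≤ M)
    (u : ℝ) : HasDerivAt (G a M b) (G' a M b u) u := by
  obtain ⟨h1, h2⟩ := X_mem (M := M) ha ha' hb hb' u
  have e1 : HasDerivAt (fun u => Real.sqrt (1 - X a M b u))
      (-dX M b u / (2 * Real.sqrt (1 - X a M b u))) u :=
    ((hasDerivAt_X u).const_sub 1).sqrt (by linarith)
  have e2 : HasDerivAt (fun u => Complex.exp (Complex.I * th1 a M b u))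
      (Complex.exp (Complex.I * th1 a M b u) * (Complex.I * (16 * Real.pi * X a M b u : ℝ))) u :=
    (((hasDerivAt_th1 hM u).ofReal_comp).const_mul Complex.I).cexp
  have e3 := (e1.ofReal_comp).mul e2
  refine e3.congr_deriv ?_
  unfold G'
  push_cast
  ring

theorem hasDerivAt_H (ha : 0 ≤ a) (ha' : a ≤ 1 / 8) (hb : 0 ≤ b) (hb' : b ≤ 1 / 4) (hM : 1 ≤ M)
    (u : ℝ) : HasDerivAt (H a M b) (H' a M b u) u := by
  obtain ⟨h1, h2⟩ := X_mem (M := M) ha ha' hb hb' u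
  have e1 : HasDerivAt (fun u => Real.sqrt (X a M b u))
      (dX M b u / (2 * Real.sqrt (X a M b u))) u :=
    (hasDerivAt_X u).sqrt (by linarith)
  have e2 : HasDerivAt (fun u => Complex.exp (Complex.I * th2 a M b u))
      (Complex.exp (Complex.I * th2 a M b u) *
        (Complex.I * (-(16 * Real.pi * (1 - X a M b u)) : ℝ))) u :=
    (((hasDerivAt_th2 hM u).ofReal_comp).const_mul Complex.I).cexp
  have e3 := (e1.ofReal_comp).mul e2
  refine e3.congr_deriv ?_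
  unfold H'
  push_cast
  ring

theorem contDiff_G (ha : 0 ≤ a) (ha' : a ≤ 1 / 8) (hb : 0 ≤ b) (hb' : b ≤ 1 / 4) :
    ContDiff ℝ ∞ (G a M b) := by
  unfold G
  apply ContDiff.mul
  · refine Complex.ofRealCLM.contDiff.comp (ContDiff.sqrt (contDiff_const.sub contDiff_X) ?_)
    intro u
    obtain ⟨h1, h2⟩ := X_mem (M := M) ha ha' hb hb' u
    linarith
  · exact (contDiff_const.mul (Complex.ofRealCLM.contDiff.comp contDiff_th1)).cexp

theorem contDiff_H (ha : 0 ≤ a) (ha' : a ≤ 1 / 8) (hb : 0 ≤ b) (hb' : b ≤ 1 / 4) :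
    ContDiff ℝ ∞ (H a M b) := by
  unfold H
  apply ContDiff.mul
  · refine Complex.ofRealCLM.contDiff.comp (ContDiff.sqrt contDiff_X ?_)
    intro u
    obtain ⟨h1, h2⟩ := X_mem (M := M) ha ha' hb hb' u
    linarith
  · exact (contDiff_const.mul (Complex.ofRealCLM.contDiff.comp contDiff_th2)).cexp

theorem contDiff_vel (ha : 0 ≤ a) (ha' : a ≤ 1 / 8) (hb : 0 ≤ b) (hb' : b ≤ 1 / 4) :
    ContDiff ℝ ∞ (vel a M b) := by
  unfold vel
  apply ContDiff.sqrt
  · apply ContDiff.add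
    · apply ContDiff.div
      · exact contDiff_dX.pow 2
      · exact contDiff_const.mul (contDiff_X.mul (contDiff_const.sub contDiff_X))
      · intro u
        have := XX_ge (M := M) ha ha' hb hb' u
        linarith
    · exact contDiff_const.mul (contDiff_X.mul (contDiff_const.sub contDiff_X))
  · intro u
    have := XX_ge (M := M) ha ha' hb hb' u
    have h2 : 0 ≤ dX M b u ^ 2 / (4 * (X a M b u * (1 - X a M b u))) := by positivity
    have := Real.pi_pos
    positivity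

theorem norm_exp_I (θ : ℝ) : ‖Complex.exp (Complex.I * θ)‖ = 1 := by
  rw [mul_comm]; exact Complex.norm_exp_ofReal_mul_I θ

theorem nrm (p q θ : ℝ) :
    ‖((p : ℂ) + Complex.I * (q : ℂ)) * Complex.exp (Complex.I * θ)‖ ^ 2 = p ^ 2 + q ^ 2 := by
  rw [norm_mul, norm_exp_I, mul_one, Complex.sq_norm, Complex.normSq_apply]
  simp
  ring

theorem conj_mul (r p q θ : ℝ) :
    (starRingEnd ℂ) ((r : ℂ) * Complex.exp (Complex.I * θ)) *
      (((p : ℂ) + Complex.I * (q : ℂ)) * Complex.exp (Complex.I * θ)) =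
      (r : ℂ) * ((p : ℂ) + Complex.I * (q : ℂ)) := by
  have h1 : (starRingEnd ℂ) (Complex.exp (Complex.I * θ)) * Complex.exp (Complex.I * θ) = 1 := by
    rw [← Complex.exp_conj, ← Complex.exp_add]
    simp
  rw [map_mul, Complex.conj_ofReal]
  linear_combination ((r : ℂ) * ((p : ℂ) + Complex.I * (q : ℂ))) * h1

theorem vel_sq (ha : 0 ≤ a) (ha' : a ≤ 1 / 8) (hb : 0 ≤ b) (hb' : b ≤ 1 / 4) (u : ℝ) :
    vel a M b u ^ 2 = dX M b u ^ 2 / (4 * (X a M b u * (1 - X a M b u)))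
    + (16 * Real.pi) ^ 2 * (X a M b u * (1 - X a M b u)) := by
  unfold vel
  rw [Real.sq_sqrt]
  have := XX_ge (M := M) ha ha' hb hb' u
  have h2 : 0 ≤ dX M b u ^ 2 / (4 * (X a M b u * (1 - X a M b u))) := by positivity
  positivity

theorem one_le_vel (ha : 0 ≤ a) (ha' : a ≤ 1 / 8) (hb : 0 ≤ b) (hb' : b ≤ 1 / 4) (u : ℝ) :
    1 ≤ vel a M b u := by
  unfold vel
  rw [Real.one_le_sqrt]
  have := XX_ge (M := M) ha ha' hb hb' u
  have h2 : 0 ≤ dX M b u ^ 2 / (4 * (X a M b u * (1 - X a M b u))) := by positivity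
  have h3 := Real.pi_gt_three
  have h4 : (48 : ℝ) ^ 2 ≤ (16 * Real.pi) ^ 2 := pow_le_pow_left₀ (by norm_num) (by linarith) 2
  nlinarith

theorem norm_GH (ha : 0 ≤ a) (ha' : a ≤ 1 / 8) (hb : 0 ≤ b) (hb' : b ≤ 1 / 4) (u : ℝ) :
    ‖G a M b u‖ ^ 2 + ‖H a M b u‖ ^ 2 = 1 := by
  obtain ⟨h1, h2⟩ := X_mem (M := M) ha ha' hb hb' u
  unfold G H
  rw [norm_mul, norm_mul, norm_exp_I, norm_exp_I, mul_one, mul_one, Complex.norm_real,
    Complex.norm_real, Real.norm_eq_abs, Real.norm_eq_abs, sq_abs, sq_abs,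
    Real.sq_sqrt (by linarith), Real.sq_sqrt (by linarith)]
  ring

theorem norm_GH' (ha : 0 ≤ a) (ha' : a ≤ 1 / 8) (hb : 0 ≤ b) (hb' : b ≤ 1 / 4) (u : ℝ) :
    ‖G' a M b u‖ ^ 2 + ‖H' a M b u‖ ^ 2 = vel a M b u ^ 2 := by
  obtain ⟨h1, h2⟩ := X_mem (M := M) ha ha' hb hb' u
  rw [vel_sq ha ha' hb hb']
  unfold G' H'
  rw [nrm, nrm]
  have e1 : Real.sqrt (1 - X a M b u) ^ 2 = 1 - X a M b u := Real.sq_sqrt (by linarith)
  have e2 : Real.sqrt (X a M b u) ^ 2 = X a M b u := Real.sq_sqrt (by linarith)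
  have h3 : X a M b u ≠ 0 := by linarith
  have h4 : 1 - X a M b u ≠ 0 := by linarith
  have e3 : (-dX M b u / (2 * Real.sqrt (1 - X a M b u))) ^ 2 =
      dX M b u ^ 2 / (4 * (1 - X a M b u)) := by
    rw [div_pow, neg_sq, mul_pow, e1]; norm_num
  have e4 : (dX M b u / (2 * Real.sqrt (X a M b u))) ^ 2 = dX M b u ^ 2 / (4 * X a M b u) := by
    rw [div_pow, mul_pow, e2]; norm_num
  have e5 : (Real.sqrt (1 - X a M b u) * (16 * Real.pi * X a M b u)) ^ 2 =
      (1 - X a M b u) * (16 * Real.pi * X a M b u) ^ 2 := by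
    rw [mul_pow, e1]
  have e6 : (-(Real.sqrt (X a M b u) * (16 * Real.pi * (1 - X a M b u)))) ^ 2 =
      X a M b u * (16 * Real.pi * (1 - X a M b u)) ^ 2 := by
    rw [neg_sq, mul_pow, e2]
  rw [e3, e4, e5, e6]
  field_simp
  ring

theorem horizontal (ha : 0 ≤ a) (ha' : a ≤ 1 / 8) (hb : 0 ≤ b) (hb' : b ≤ 1 / 4) (u : ℝ) :
    (starRingEnd ℂ) (G a M b u) * G' a M b u + (starRingEnd ℂ) (H a M b u) * H' a M b u = 0 := by
  obtain ⟨h1, h2⟩ := X_mem (M := M) ha ha' hb hb' u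
  unfold G' H' G H
  rw [conj_mul, conj_mul]
  have e1 : Real.sqrt (1 - X a M b u) ^ 2 = 1 - X a M b u := Real.sq_sqrt (by linarith)
  have e2 : Real.sqrt (X a M b u) ^ 2 = X a M b u := Real.sq_sqrt (by linarith)
  have h3 : Real.sqrt (1 - X a M b u) ≠ 0 := by
    rw [Real.sqrt_ne_zero']; linarith
  have h4 : Real.sqrt (X a M b u) ≠ 0 := by
    rw [Real.sqrt_ne_zero']; linarith
  have e3 : Real.sqrt (1 - X a M b u) * (-dX M b u / (2 * Real.sqrt (1 - X a M b u)))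
      = -dX M b u / 2 := by
    field_simp
  have e4 : Real.sqrt (X a M b u) * (dX M b u / (2 * Real.sqrt (X a M b u)))
      = dX M b u / 2 := by
    field_simp
  have e5 : Real.sqrt (1 - X a M b u) * (Real.sqrt (1 - X a M b u) * (16 * Real.pi * X a M b u))
      = 16 * Real.pi * (X a M b u * (1 - X a M b u)) := by
    linear_combination (16 * Real.pi * X a M b u) * e1
  have e6 : Real.sqrt (X a M b u) * (-(Real.sqrt (X a M b u) * (16 * Real.pi * (1 - X a M b u))))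
      = -(16 * Real.pi * (X a M b u * (1 - X a M b u))) := by
    linear_combination -(16 * Real.pi * (1 - X a M b u)) * e2
  rw [mul_add, mul_add, mul_left_comm _ Complex.I, mul_left_comm _ Complex.I,
    ← Complex.ofReal_mul, ← Complex.ofReal_mul, ← Complex.ofReal_mul, ← Complex.ofReal_mul,
    e3, e4, e5, e6]
  push_cast
  ring

theorem arg_add (u : ℝ) : 2 * Real.pi * M * (u + 1) = 2 * Real.pi * M * u + M * (2 * Real.pi) := by
  ring

theorem X_add (u : ℝ) : X a M b (u + 1) = X a M b u := by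
  unfold X
  rw [arg_add, Real.cos_add_nat_mul_two_pi]

theorem dX_add (u : ℝ) : dX M b (u + 1) = dX M b u := by
  unfold dX
  rw [arg_add, Real.sin_add_nat_mul_two_pi]

theorem vel_add (u : ℝ) : vel a M b (u + 1) = vel a M b u := by
  unfold vel
  rw [X_add, dX_add]

theorem th1_add (u : ℝ) : th1 a M b (u + 1) = th1 a M b u + 16 * Real.pi * (1 / 2 + a) := by
  unfold th1
  rw [arg_add, Real.sin_add_nat_mul_two_pi]
  ring

theorem th2_add (u : ℝ) : th2 a M b (u + 1) = th2 a M b u - 16 * Real.pi * (1 / 2 - a) := by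
  unfold th2
  rw [arg_add, Real.sin_add_nat_mul_two_pi]
  ring

theorem G_add {α : ℝ} {n : ℤ} (hα : 16 * Real.pi * a = α - n * (2 * Real.pi)) (u : ℝ) :
    G a M b (u + 1) = Complex.exp (Complex.I * α) * G a M b u := by
  unfold G
  rw [X_add, th1_add]
  have h1 : Complex.exp (Complex.I * ((th1 a M b u + 16 * Real.pi * (1 / 2 + a) : ℝ) : ℂ)) =
      Complex.exp (Complex.I * α) * Complex.exp (Complex.I * th1 a M b u) := by
    rw [← Complex.exp_add, Complex.exp_eq_exp_iff_exists_int]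
    refine ⟨4 - n, ?_⟩
    have h2 : (th1 a M b u + 16 * Real.pi * (1 / 2 + a)) =
        α + th1 a M b u + (4 - n) * (2 * Real.pi) := by linear_combination hα
    rw [h2]
    push_cast
    ring
  rw [h1]
  ring

theorem H_add {α : ℝ} {n : ℤ} (hα : 16 * Real.pi * a = α - n * (2 * Real.pi)) (u : ℝ) :
    H a M b (u + 1) = Complex.exp (Complex.I * α) * H a M b u := by
  unfold H
  rw [X_add, th2_add]
  have h1 : Complex.exp (Complex.I * ((th2 a M b u - 16 * Real.pi * (1 / 2 - a) : ℝ) : ℂ)) =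
      Complex.exp (Complex.I * α) * Complex.exp (Complex.I * th2 a M b u) := by
    rw [← Complex.exp_add, Complex.exp_eq_exp_iff_exists_int]
    refine ⟨-4 - n, ?_⟩
    have h2 : (th2 a M b u - 16 * Real.pi * (1 / 2 - a)) =
        α + th2 a M b u + (-4 - n) * (2 * Real.pi) := by linear_combination hα
    rw [h2]
    push_cast
    ring
  rw [h1]
  ring

/-- the length with no oscillation -/
theorem length_zero (ha : 0 ≤ a) (ha' : a ≤ 1 / 8) :
    ∫ u in (0 : ℝ)..1, vel a M 0 u ≤ 8 * Real.pi := by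
  have hpi := Real.pi_pos
  have h1 : ∀ u ∈ Set.Icc (0 : ℝ) 1, vel a M 0 u ≤ 8 * Real.pi := by
    intro u _
    unfold vel
    rw [Real.sqrt_le_left (by positivity)]
    have h2 : dX M 0 u = 0 := by simp [dX]
    rw [h2]
    have h3 : X a M 0 u * (1 - X a M 0 u) ≤ 1 / 4 := by nlinarith [sq_nonneg (X a M 0 u - 1 / 2)]
    have h4 : (0 : ℝ) ≤ (16 * Real.pi) ^ 2 := by positivity
    rw [zero_pow two_ne_zero, zero_div, zero_add]
    nlinarith
  have h2 := intervalIntegral.integral_mono_on (a := 0) (b := 1) (by norm_num)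
    ((contDiff_vel (a := a) (b := 0) (M := M) ha ha' le_rfl (by norm_num)).continuous.intervalIntegrable 0 1)
    (continuous_const.intervalIntegrable 0 1 (μ := MeasureTheory.volume) (u := fun _ => 8 * Real.pi))
    h1
  refine h2.trans ?_
  simp

theorem integral_sin_sq' (hM : 1 ≤ M) :
    ∫ u in (0 : ℝ)..1, Real.sin (2 * Real.pi * M * u) ^ 2 = 1 / 2 := by
  have hM' : (2 * Real.pi * M) ≠ 0 := by
    have : (0 : ℝ) < M := by exact_mod_cast hM
    have := Real.pi_pos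
    positivity
  rw [intervalIntegral.integral_comp_mul_left (fun x => Real.sin x ^ 2) hM', integral_sin_sq]
  have h1 : Real.sin (2 * Real.pi * M * 1) = 0 := by
    have := Real.sin_nat_mul_pi (2 * M)
    rw [← this]
    push_cast
    congr 1
    ring
  rw [h1]
  simp only [mul_zero, Real.sin_zero, zero_mul, mul_one, smul_eq_mul, sub_zero, zero_add]
  field_simp

/-- the length with a large oscillation -/
theorem length_one (ha : 0 ≤ a) (ha' : a ≤ 1 / 8) (hM : 1 ≤ M) :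
    Real.pi * M / 4 ≤ ∫ u in (0 : ℝ)..1, vel a M (1 / 4) u := by
  have hpi := Real.pi_pos
  have h1 : ∀ u ∈ Set.Icc (0 : ℝ) 1,
      (Real.pi * M / 2) * Real.sin (2 * Real.pi * M * u) ^ 2 ≤ vel a M (1 / 4) u := by
    intro u _
    have hx := XX_ge (M := M) (a := a) (b := 1 / 4) ha ha' (by norm_num) le_rfl u
    have h3 : X a M (1 / 4) u * (1 - X a M (1 / 4) u) ≤ 1 / 4 := by
      nlinarith [sq_nonneg (X a M (1 / 4) u - 1 / 2)]
    have h4 : |dX M (1 / 4) u| ≤ vel a M (1 / 4) u := by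
      unfold vel
      apply Real.le_sqrt_of_sq_le
      rw [sq_abs]
      have h5 : dX M (1 / 4) u ^ 2 ≤ dX M (1 / 4) u ^ 2 /
          (4 * (X a M (1 / 4) u * (1 - X a M (1 / 4) u))) := by
        rw [le_div_iff₀ (by linarith)]
        nlinarith [sq_nonneg (dX M (1 / 4) u)]
      have h6 : 0 ≤ (16 * Real.pi) ^ 2 * (X a M (1 / 4) u * (1 - X a M (1 / 4) u)) := by
        have : 0 ≤ X a M (1 / 4) u * (1 - X a M (1 / 4) u) := by linarith
        positivity
      linarith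
    refine le_trans ?_ h4
    unfold dX
    have h7 : |(-(1 / 4 * (2 * Real.pi * M)) * Real.sin (2 * Real.pi * M * u))| =
        (Real.pi * M / 2) * |Real.sin (2 * Real.pi * M * u)| := by
      rw [abs_mul, abs_neg, abs_of_nonneg (by positivity)]
      ring
    rw [h7]
    apply mul_le_mul_of_nonneg_left _ (by positivity)
    rw [← sq_abs]
    have h8 := Real.abs_sin_le_one (2 * Real.pi * M * u)
    have h9 := abs_nonneg (Real.sin (2 * Real.pi * M * u))
    nlinarith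
  have h2 := intervalIntegral.integral_mono_on (a := 0) (b := 1) (by norm_num)
    (Continuous.intervalIntegrable (μ := MeasureTheory.volume)
      (u := fun u => (Real.pi * M / 2) * Real.sin (2 * Real.pi * M * u) ^ 2) (by fun_prop) 0 1)
    ((contDiff_vel (a := a) (b := 1 / 4) (M := M) ha ha' (by norm_num)
      le_rfl).continuous.intervalIntegrable 0 1) h1
  refine le_trans ?_ h2
  rw [intervalIntegral.integral_const_mul, integral_sin_sq' hM]
  apply le_of_eq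
  ring

/-- prescribed length, by the intermediate value theorem -/
theorem exists_length {L : ℝ} (hL : 8 * Real.pi ≤ L) (hLM : L ≤ Real.pi * M / 4) (ha : 0 ≤ a)
    (ha' : a ≤ 1 / 8) (hM : 1 ≤ M) :
    ∃ b : ℝ, 0 ≤ b ∧ b ≤ 1 / 4 ∧ ∫ u in (0 : ℝ)..1, vel a M b u = L := by
  have hb : ∀ t : ℝ, 0 ≤ Real.sin t ^ 2 / 4 ∧ Real.sin t ^ 2 / 4 ≤ 1 / 4 := by
    intro t
    have := Real.sin_sq_le_one t
    constructor
    · positivity
    · linarith
  have hcont : Continuous fun t : ℝ => ∫ u in (0 : ℝ)..1, vel a M (Real.sin t ^ 2 / 4) u := by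
    apply intervalIntegral.continuous_parametric_intervalIntegral_of_continuous'
    unfold Function.uncurry
    have hX : Continuous fun p : ℝ × ℝ => X a M (Real.sin p.1 ^ 2 / 4) p.2 := by
      unfold X; fun_prop
    have hdX : Continuous fun p : ℝ × ℝ => dX M (Real.sin p.1 ^ 2 / 4) p.2 := by
      unfold dX; fun_prop
    unfold vel
    apply Continuous.sqrt
    apply Continuous.add
    · apply Continuous.div
      · exact hdX.pow 2
      · exact continuous_const.mul (hX.mul (continuous_const.sub hX))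
      · intro p
        have := XX_ge (M := M) ha ha' (hb p.1).1 (hb p.1).2 p.2
        linarith
    · exact continuous_const.mul (hX.mul (continuous_const.sub hX))
  have h0 : ∫ u in (0 : ℝ)..1, vel a M (Real.sin 0 ^ 2 / 4) u ≤ L := by
    have := length_zero (M := M) ha ha'
    simp only [Real.sin_zero, ne_eq, OfNat.ofNat_ne_zero, not_false_eq_true, zero_pow, zero_div]
    linarith
  have h1 : L ≤ ∫ u in (0 : ℝ)..1, vel a M (Real.sin (Real.pi / 2) ^ 2 / 4) u := by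
    have := length_one (M := M) ha ha' hM
    simp only [Real.sin_pi_div_two, one_pow]
    linarith
  obtain ⟨t, _, ht⟩ := intermediate_value_Icc (by positivity : (0 : ℝ) ≤ Real.pi / 2)
    hcont.continuousOn ⟨h0, h1⟩
  exact ⟨_, (hb t).1, (hb t).2, ht⟩

end Hopf

open Hopf

/-- Horizontal unit speed curves in `S³ ⊂ ℂ²` with prescribed length and holonomy. -/
theorem hopf : ∃ L₀ : ℝ, 0 < L₀ ∧ ∀ L : ℝ, L₀ ≤ L → ∀ α : ℝ, ∃ g h : ℝ → ℂ,
    ContDiff ℝ ∞ g ∧ ContDiff ℝ ∞ h ∧ (∀ s, ‖g s‖ ^ 2 + ‖h s‖ ^ 2 = 1) ∧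
    (∀ s, ‖deriv g s‖ ^ 2 + ‖deriv h s‖ ^ 2 = 1) ∧
    (∀ s, (starRingEnd ℂ) (g s) * deriv g s + (starRingEnd ℂ) (h s) * deriv h s = 0) ∧
    (∀ s, g (s + L) = Complex.exp (Complex.I * α) * g s) ∧
    ∀ s, h (s + L) = Complex.exp (Complex.I * α) * h s := by
  have hpi := Real.pi_pos
  refine ⟨8 * Real.pi, by positivity, fun L hL α => ?_⟩
  obtain ⟨M, hM⟩ := exists_nat_ge (2 * L)
  have hM1 : 1 ≤ M := by
    have h3 := Real.pi_gt_three
    have h1 : (1 : ℝ) ≤ M := by linarith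
    exact_mod_cast h1
  have hLM : L ≤ Real.pi * M / 4 := by
    have h3 := Real.pi_gt_three
    have h4 : (0 : ℝ) ≤ M := by positivity
    nlinarith
  set n : ℤ := ⌊α / (2 * Real.pi)⌋ with hn
  set a : ℝ := (α - n * (2 * Real.pi)) / (16 * Real.pi) with ha
  have h1 : (n : ℝ) ≤ α / (2 * Real.pi) := Int.floor_le _
  have h2 : α / (2 * Real.pi) < n + 1 := Int.lt_floor_add_one _
  rw [le_div_iff₀ (by positivity)] at h1
  rw [div_lt_iff₀ (by positivity)] at h2
  have ha0 : 0 ≤ a := div_nonneg (by linarith) (by positivity)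
  have ha1 : a ≤ 1 / 8 := by
    rw [ha, div_le_iff₀ (by positivity)]
    linarith
  have hα : 16 * Real.pi * a = α - n * (2 * Real.pi) := by
    rw [ha]; field_simp
  obtain ⟨b, hb0, hb1, hb⟩ := exists_length hL hLM ha0 ha1 hM1
  exact reparam (contDiff_G ha0 ha1 hb0 hb1) (contDiff_H ha0 ha1 hb0 hb1)
    (contDiff_vel ha0 ha1 hb0 hb1) (hasDerivAt_G ha0 ha1 hb0 hb1 hM1)
    (hasDerivAt_H ha0 ha1 hb0 hb1 hM1) (norm_GH ha0 ha1 hb0 hb1) (norm_GH' ha0 ha1 hb0 hb1)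
    (horizontal ha0 ha1 hb0 hb1) (one_le_vel ha0 ha1 hb0 hb1) vel_add hb (G_add hα) (H_add hα)

namespace Hopf

/-- `hopf` with a shift of either sign -/
theorem hopf_signed : ∃ L₀ : ℝ, 0 < L₀ ∧ ∀ σ : ℝ, L₀ ≤ |σ| → ∀ α : ℝ, ∃ g h : ℝ → ℂ,
    ContDiff ℝ ∞ g ∧ ContDiff ℝ ∞ h ∧ (∀ s, ‖g s‖ ^ 2 + ‖h s‖ ^ 2 = 1) ∧
    (∀ s, ‖deriv g s‖ ^ 2 + ‖deriv h s‖ ^ 2 = 1) ∧
    (∀ s, (starRingEnd ℂ) (g s) * deriv g s + (starRingEnd ℂ) (h s) * deriv h s = 0) ∧
    (∀ s, g (s + σ) = Complex.exp (Complex.I * α) * g s) ∧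
    ∀ s, h (s + σ) = Complex.exp (Complex.I * α) * h s := by
  obtain ⟨L₀, hL₀, h⟩ := hopf
  refine ⟨L₀, hL₀, fun σ hσ α => ?_⟩
  rcases le_total 0 σ with h0 | h0
  · rw [abs_of_nonneg h0] at hσ
    exact h σ hσ α
  · rw [abs_of_nonpos h0] at hσ
    obtain ⟨g, k, h1, h2, h3, h4, h5, h6, h7⟩ := h (-σ) hσ (-α)
    refine ⟨g, k, h1, h2, h3, h4, h5, fun s => ?_, fun s => ?_⟩
    · have h8 := h6 (s + σ)
      rw [add_neg_cancel_right] at h8
      rw [h8, ← mul_assoc, ← Complex.exp_add]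
      simp
    · have h8 := h7 (s + σ)
      rw [add_neg_cancel_right] at h8
      rw [h8, ← mul_assoc, ← Complex.exp_add]
      simp

/-- the coordinate along `τ` -/
noncomputable def T (τ : ℂ) : ℂ →L[ℝ] ℝ :=
  Complex.reCLM.comp ((ContinuousLinearMap.mul ℝ ℂ).flip ((starRingEnd ℂ) τ))

/-- the coordinate orthogonal to `τ` -/
noncomputable def S (τ : ℂ) : ℂ →L[ℝ] ℝ :=
  Complex.imCLM.comp ((ContinuousLinearMap.mul ℝ ℂ).flip ((starRingEnd ℂ) τ))

theorem T_apply (τ z : ℂ) : T τ z = (z * (starRingEnd ℂ) τ).re := rfl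

theorem S_apply (τ z : ℂ) : S τ z = (z * (starRingEnd ℂ) τ).im := rfl

theorem T_S (τ z : ℂ) (hτ : ‖τ‖ = 1) : T τ z ^ 2 + S τ z ^ 2 = ‖z‖ ^ 2 := by
  rw [T_apply, S_apply]
  have h1 : ‖z * (starRingEnd ℂ) τ‖ = ‖z‖ := by
    rw [norm_mul, Complex.norm_conj, hτ, mul_one]
  rw [← h1, Complex.sq_norm, Complex.normSq_apply]
  ring

/-- the map `z ↦ e exp (i T z / e) g (S z / e)` -/
noncomputable def Phi (e : ℝ) (τ : ℂ) (g : ℝ → ℂ) (z : ℂ) : ℂ :=
  (e : ℂ) * (Complex.exp (Complex.I * ((T τ z / e : ℝ) : ℂ)) * g (S τ z / e))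

theorem fderiv_Phi {e : ℝ} (he : 0 < e) (τ : ℂ) {g : ℝ → ℂ} (hg : ContDiff ℝ ∞ g) (z a : ℂ) :
    fderiv ℝ (Phi e τ g) z a = Complex.exp (Complex.I * ((T τ z / e : ℝ) : ℂ)) *
      (Complex.I * (T τ a : ℂ) * g (S τ z / e) + (S τ a : ℂ) * deriv g (S τ z / e)) := by
  have h1 : HasDerivAt (fun t : ℝ => Complex.exp (Complex.I * ((t / e : ℝ) : ℂ)))
      (Complex.exp (Complex.I * ((T τ z / e : ℝ) : ℂ)) * (Complex.I * ((1 / e : ℝ) : ℂ)))
      (T τ z) :=
    ((((hasDerivAt_id (T τ z)).div_const e).ofReal_comp).const_mul Complex.I).cexp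
  have h2 : HasDerivAt (fun t : ℝ => g (t / e)) ((1 / e) • deriv g (S τ z / e)) (S τ z) :=
    HasDerivAt.scomp (S τ z)
      ((hg.differentiable (by simp)) (S τ z / e)).hasDerivAt ((hasDerivAt_id (S τ z)).div_const e)
  have h3 := h1.hasFDerivAt.comp z (T τ).hasFDerivAt
  have h4 := h2.hasFDerivAt.comp z (S τ).hasFDerivAt
  have h5 := (h3.mul h4).const_mul (e : ℂ)
  have h6 : HasFDerivAt (Phi e τ g) _ z := h5
  rw [h6.fderiv]
  have he' : (e : ℂ) ≠ 0 := by exact_mod_cast he.ne'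
  simp
  field_simp
  ring

theorem contDiff_Phi {e : ℝ} (τ : ℂ) {g : ℝ → ℂ} (hg : ContDiff ℝ ∞ g) :
    ContDiff ℝ ∞ (Phi e τ g) := by
  unfold Phi
  refine contDiff_const.mul (ContDiff.mul ?_ ?_)
  · exact (contDiff_const.mul (Complex.ofRealCLM.contDiff.comp
      ((T τ).contDiff.div_const e))).cexp
  · exact hg.comp ((S τ).contDiff.div_const e)

theorem norm_Phi {e : ℝ} (τ : ℂ) (g : ℝ → ℂ) (z : ℂ) :
    ‖Phi e τ g z‖ ^ 2 = e ^ 2 * ‖g (S τ z / e)‖ ^ 2 := by
  unfold Phi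
  rw [norm_mul, norm_mul, norm_exp_I, one_mul, mul_pow, Complex.norm_real, Real.norm_eq_abs,
    sq_abs]

theorem norm_ident (t s : ℝ) (g h p q : ℂ) :
    ‖Complex.I * (t : ℂ) * g + (s : ℂ) * p‖ ^ 2 + ‖Complex.I * (t : ℂ) * h + (s : ℂ) * q‖ ^ 2 =
      t ^ 2 * (‖g‖ ^ 2 + ‖h‖ ^ 2) + s ^ 2 * (‖p‖ ^ 2 + ‖q‖ ^ 2)
        + 2 * t * s * ((starRingEnd ℂ) g * p + (starRingEnd ℂ) h * q).im := by
  simp only [Complex.sq_norm, Complex.normSq_apply]
  simp
  ring

theorem Phi_add {e : ℝ} {τ V : ℂ} {g : ℝ → ℂ}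
    (h : ∀ x, g (x + S τ V / e) = Complex.exp (-(Complex.I * ((T τ V / e : ℝ) : ℂ))) * g x)
    (z : ℂ) : Phi e τ g (z + V) = Phi e τ g z := by
  unfold Phi
  have h1 : T τ (z + V) / e = T τ z / e + T τ V / e := by rw [map_add]; ring
  have h2 : S τ (z + V) / e = S τ z / e + S τ V / e := by rw [map_add]; ring
  rw [h1, h2, h]
  congr 1
  rw [Complex.ofReal_add, mul_add, Complex.exp_add]
  have h3 : Complex.exp (Complex.I * ((T τ V / e : ℝ) : ℂ)) *
      Complex.exp (-(Complex.I * ((T τ V / e : ℝ) : ℂ))) = 1 := by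
    rw [← Complex.exp_add, add_neg_cancel, Complex.exp_zero]
  linear_combination (Complex.exp (Complex.I * ((T τ z / e : ℝ) : ℂ)) * g (S τ z / e)) * h3

end Hopf

/-- Flat tori in the sphere of radius `e`. -/
theorem psi : ∃ L₀ : ℝ, 0 < L₀ ∧ ∀ (e : ℝ) (m : ℕ) (V₁ V₂ : ℂ), 0 < e → 1 ≤ m →
    ‖V₁‖ = 2 * Real.pi * m * e → L₀ * e * ‖V₁‖ ≤ |((starRingEnd ℂ) V₁ * V₂).im| →
    ∃ g h : ℂ → ℂ, ContDiff ℝ ∞ g ∧ ContDiff ℝ ∞ h ∧ (∀ z, ‖g z‖ ^ 2 + ‖h z‖ ^ 2 = e ^ 2) ∧
      (∀ z a, ‖fderiv ℝ g z a‖ ^ 2 + ‖fderiv ℝ h z a‖ ^ 2 = ‖a‖ ^ 2) ∧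
      (∀ z, g (z + V₁) = g z) ∧ (∀ z, h (z + V₁) = h z) ∧
      (∀ z, g (z + V₂) = g z) ∧ ∀ z, h (z + V₂) = h z := by
  obtain ⟨L₀, hL₀, hh⟩ := hopf_signed
  refine ⟨L₀, hL₀, fun e m V₁ V₂ he hm hV₁ hV₂ => ?_⟩
  have hm' : (0 : ℝ) < m := by exact_mod_cast hm
  have hpi := Real.pi_pos
  have hpos : 0 < ‖V₁‖ := by rw [hV₁]; positivity
  have hne : (‖V₁‖ : ℂ) ≠ 0 := by exact_mod_cast hpos.ne'
  set τ : ℂ := V₁ / ‖V₁‖ with hτ
  have hτ1 : ‖τ‖ = 1 := by
    rw [hτ, norm_div, Complex.norm_real, norm_norm, div_self hpos.ne']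
  have hconj : (starRingEnd ℂ) τ = (starRingEnd ℂ) V₁ / ‖V₁‖ := by
    rw [hτ, map_div₀, Complex.conj_ofReal]
  have hV1τ : V₁ * (starRingEnd ℂ) τ = ‖V₁‖ := by
    rw [hconj, ← mul_div_assoc, Complex.mul_conj, Complex.normSq_eq_norm_sq]
    push_cast
    field_simp
  have hT1 : T τ V₁ = ‖V₁‖ := by rw [T_apply, hV1τ, Complex.ofReal_re]
  have hS1 : S τ V₁ = 0 := by rw [S_apply, hV1τ, Complex.ofReal_im]
  have hS2 : S τ V₂ = ((starRingEnd ℂ) V₁ * V₂).im / ‖V₁‖ := by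
    rw [S_apply, hconj, ← mul_div_assoc, mul_comm V₂, Complex.div_ofReal_im]
  have hσ : L₀ ≤ |S τ V₂ / e| := by
    rw [hS2, abs_div, abs_div, abs_of_pos he, abs_of_pos hpos, div_div, le_div_iff₀ (by positivity)]
    linarith
  obtain ⟨g, h, h1, h2, h3, h4, h5, h6, h7⟩ := hh (S τ V₂ / e) hσ (-(T τ V₂ / e))
  have hper1 : ∀ k : ℝ → ℂ, ∀ x, k (x + S τ V₁ / e) =
      Complex.exp (-(Complex.I * ((T τ V₁ / e : ℝ) : ℂ))) * k x := by
    intro k x
    rw [hS1, hT1, zero_div, add_zero, hV₁]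
    have h8 : Complex.exp (-(Complex.I * ((2 * Real.pi * m * e / e : ℝ) : ℂ))) = 1 := by
      rw [Complex.exp_eq_one_iff]
      refine ⟨-m, ?_⟩
      rw [mul_div_assoc, div_self he.ne', mul_one]
      push_cast
      ring
    rw [h8, one_mul]
  refine ⟨Phi e τ g, Phi e τ h, contDiff_Phi τ h1, contDiff_Phi τ h2, fun z => ?_, fun z a => ?_,
    Phi_add (hper1 g), Phi_add (hper1 h), Phi_add fun x => ?_, Phi_add fun x => ?_⟩
  · rw [norm_Phi, norm_Phi, ← mul_add, h3, mul_one]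
  · rw [fderiv_Phi he τ h1, fderiv_Phi he τ h2, norm_mul, norm_mul, norm_exp_I, one_mul, one_mul,
      norm_ident, h3, h4, h5, Complex.zero_im, mul_zero, add_zero, mul_one, mul_one, T_S τ a hτ1]
  · rw [h6]
    congr 2
    push_cast
    ring
  · rw [h7]
    congr 2
    push_cast
    ring

end Vale.Agent.P205
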