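import Vale.Agent.Lib.P205.WienerSmooth

/-!
# P205 stage 2: the Wiener algebra acting on `ℓ²(ℤ × ℤ)` by convolution
-/

open scoped ENNReal ContDiff

namespace Vale.Agent.P205

/-- square summable sequences -/
abbrev L2 : Type := lp (fun _ : ℤ × ℤ => ℂ) 2

namespace L2

open WA

theorem summable_sq (e : L2) : Summable fun n => ‖e n‖ ^ 2 := by
  have := (lp.memℓp e).summable (by simp)
  simpa using this

theorem norm_sq (e : L2) : ‖e‖ ^ 2 = ∑' n, ‖e n‖ ^ 2 := by
  have := lp.norm_rpow_eq_tsum (p := 2) (by simp) e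
  simpa using this

theorem norm_le {e : L2} {C : ℝ} (hC : 0 ≤ C) (h : ∑' n, ‖e n‖ ^ 2 ≤ C ^ 2) : ‖e‖ ≤ C := by
  rw [← norm_sq] at h
  exact (sq_le_sq₀ (norm_nonneg _) hC).1 h

/-- constructor -/
def mk (c : ℤ × ℤ → ℂ) (h : Summable fun n => ‖c n‖ ^ 2) : L2 :=
  ⟨c, memℓp_gen (by simpa using h)⟩

@[simp] theorem mk_apply (c : ℤ × ℤ → ℂ) (h : Summable fun n => ‖c n‖ ^ 2) (n : ℤ × ℤ) :
    mk c h n = c n := rfl

theorem ext' {e e' : L2} (h : ∀ n, e n = e' n) : e = e' := lp.ext (funext h)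

theorem add_apply' (e e' : L2) (n : ℤ × ℤ) : (e + e') n = e n + e' n := rfl

theorem sub_apply' (e e' : L2) (n : ℤ × ℤ) : (e - e') n = e n - e' n := rfl

theorem smul_apply' (c : ℂ) (e : L2) (n : ℤ × ℤ) : (c • e) n = c * e n := rfl

theorem summable_shift (k : ℤ × ℤ) (e : L2) : Summable fun n => ‖e (n - k)‖ ^ 2 :=
  (Equiv.subRight k).summable_iff.2 (summable_sq e)

/-- shift -/
noncomputable def sh (k : ℤ × ℤ) : L2 →L[ℂ] L2 :=
  LinearMap.mkContinuous
    { toFun := fun e => mk (fun n => e (n - k)) (summable_shift k e)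
      map_add' := fun _ _ => rfl
      map_smul' := fun _ _ => rfl } 1 fun e => by
      rw [one_mul]
      apply norm_le (norm_nonneg _)
      rw [norm_sq]
      exact ((Equiv.subRight k).tsum_eq fun n => ‖e n‖ ^ 2).le

@[simp] theorem sh_apply (k : ℤ × ℤ) (e : L2) (n : ℤ × ℤ) : sh k e n = e (n - k) := rfl

theorem norm_sh_le (k : ℤ × ℤ) : ‖sh k‖ ≤ 1 := LinearMap.mkContinuous_norm_le _ zero_le_one _

theorem sh_add (k l : ℤ × ℤ) : sh (k + l) = (sh k).comp (sh l) := by
  ext e n
  simp only [sh_apply, ContinuousLinearMap.comp_apply]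
  rw [sub_sub]

/-- multiplier on `ℓ²` -/
noncomputable def mu (σ : ℤ × ℤ → ℂ) (C : ℝ) (hσ : ∀ k, ‖σ k‖ ≤ C) : L2 →L[ℂ] L2 :=
  have hs : ∀ e : L2, Summable fun n => ‖σ n * e n‖ ^ 2 := fun e => by
    apply Summable.of_nonneg_of_le (fun n => by positivity) _ ((summable_sq e).mul_left (C ^ 2))
    intro n
    rw [norm_mul, mul_pow]
    gcongr
    exact hσ n
  LinearMap.mkContinuous
    { toFun := fun e => mk (fun n => σ n * e n) (hs e)
      map_add' := fun e e' => ext' fun n => by
        simp only [mk_apply, add_apply']; ring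
      map_smul' := fun c e => ext' fun n => by
        simp only [mk_apply, smul_apply', RingHom.id_apply]; ring } C fun e => by
      have hC : 0 ≤ C := (norm_nonneg _).trans (hσ 0)
      apply norm_le (by positivity)
      rw [mul_pow, norm_sq, ← tsum_mul_left]
      apply (hs e).tsum_le_tsum _ ((summable_sq e).mul_left (C ^ 2))
      intro n
      change ‖σ n * e n‖ ^ 2 ≤ _
      rw [norm_mul, mul_pow]
      gcongr
      exact hσ n

@[simp] theorem mu_apply (σ : ℤ × ℤ → ℂ) (C : ℝ) (hσ : ∀ k, ‖σ k‖ ≤ C) (e : L2) (n : ℤ × ℤ) :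
    mu σ C hσ e n = σ n * e n := rfl

/-- coefficient functional -/
noncomputable def co (k : ℤ × ℤ) : L2 →L[ℂ] ℂ :=
  LinearMap.mkContinuous
    { toFun := fun e => e k
      map_add' := fun _ _ => rfl
      map_smul' := fun _ _ => rfl } 1 fun e => by
      rw [one_mul]
      have h := (summable_sq e).le_tsum k fun _ _ => by positivity
      rw [← norm_sq] at h
      exact (sq_le_sq₀ (norm_nonneg _) (norm_nonneg _)).1 h

@[simp] theorem co_apply (k : ℤ × ℤ) (e : L2) : co k e = e k := rfl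

/-- convolution operators -/
noncomputable def CO : WA →L[ℂ] (L2 →L[ℂ] L2) := WA.lift (fun k => sh k) 1 norm_sh_le

@[simp] theorem CO_delta (k : ℤ × ℤ) : CO (delta k) = sh k := by simp [CO]

theorem CO_one : CO 1 = ContinuousLinearMap.id ℂ L2 := by
  rw [one_def, CO_delta]
  ext e n
  simp

theorem CO_mul (a b : WA) : CO (a * b) = (CO a).comp (CO b) := by
  have h1 : ∀ k, CO (delta k * b) = (sh k).comp (CO b) := by
    intro k
    have : CO.comp (mulL (delta k)) = (ContinuousLinearMap.compL ℂ L2 L2 L2 (sh k)).comp CO := by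
      apply ext_clm
      intro l
      simp only [ContinuousLinearMap.comp_apply, mulL_delta, CO_delta,
        ContinuousLinearMap.compL_apply]
      exact sh_add k l
    exact DFunLike.congr_fun this b
  have : CO.comp (mulL.flip b) = ((ContinuousLinearMap.compL ℂ L2 L2 L2).flip (CO b)).comp CO := by
    apply ext_clm
    intro k
    simp only [ContinuousLinearMap.comp_apply, ContinuousLinearMap.flip_apply,
      ContinuousLinearMap.compL_apply, CO_delta]
    exact h1 k
  exact DFunLike.congr_fun this a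

theorem inner_eq (x y : L2) : inner ℂ x y = ∑' n, (starRingEnd ℂ) (x n) * y n := by
  rw [lp.inner_eq_tsum]
  congr 1
  funext n
  rw [RCLike.inner_apply, mul_comm]

theorem inner_sh (k : ℤ × ℤ) (x y : L2) : inner ℂ (sh (-k) x) y = inner ℂ x (sh k y) := by
  rw [inner_eq, inner_eq, ← (Equiv.subRight k).tsum_eq]
  congr 1
  funext n
  simp

theorem inner_CO (a : WA) (x y : L2) : inner ℂ (CO (cj a) x) y = inner ℂ x (CO a y) := by
  -- both sides are real linear in `a`
  let A₁ : WA →L[ℝ] ℂ := ((innerSL ℂ x).comp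
    ((ContinuousLinearMap.apply ℂ L2 y).comp CO)).restrictScalars ℝ
  let A₂ : WA →L[ℝ] ℂ := (Complex.conjCLE : ℂ →L[ℝ] ℂ).comp (((innerSL ℂ y).comp
    ((ContinuousLinearMap.apply ℂ L2 x).comp CO)).restrictScalars ℝ |>.comp cjL)
  have h : A₂ = A₁ := by
    apply ext_real
    intro c k
    change (starRingEnd ℂ) (inner ℂ y (CO (cj (c • delta k)) x)) = inner ℂ x (CO (c • delta k) y)
    rw [inner_conj_symm, cj_smul, cj_delta, map_smul, map_smul, CO_delta, CO_delta]
    change inner ℂ ((starRingEnd ℂ) c • sh (-k) x) y = inner ℂ x (c • sh k y)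
    rw [inner_smul_left, inner_smul_right, Complex.conj_conj, inner_sh]
  have h2 := DFunLike.congr_fun h a
  change (starRingEnd ℂ) (inner ℂ y (CO (cj a) x)) = inner ℂ x (CO a y) at h2
  rw [inner_conj_symm] at h2
  exact h2

theorem inner_mu (σ : ℤ × ℤ → ℂ) (C : ℝ) (hσ : ∀ k, ‖σ k‖ ≤ C) (x y : L2) :
    inner ℂ (mu (fun k => (starRingEnd ℂ) (σ k)) C (fun k => by
      rw [RCLike.norm_conj]; exact hσ k) x) y = inner ℂ x (mu σ C hσ y) := by
  rw [inner_eq, inner_eq]
  congr 1
  funext n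
  simp only [mu_apply, map_mul, Complex.conj_conj]
  ring

/-- the basis vector at the origin -/
noncomputable def d0 : L2 := mk (fun n => if n = 0 then 1 else 0) (by
  apply summable_of_ne_finset_zero (s := {0})
  intro n hn
  simp at hn
  simp [hn])

@[simp] theorem d0_apply (n : ℤ × ℤ) : d0 n = if n = 0 then 1 else 0 := rfl

/-- the embedding `ℓ¹ ⊂ ℓ²` -/
noncomputable def io (a : WA) : L2 := CO a d0

theorem io_apply (a : WA) (k : ℤ × ℤ) : io a k = cf a k := by
  have : (co k).comp ((ContinuousLinearMap.apply ℂ L2 d0).comp CO) = cfL k := by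
    apply ext_clm
    intro l
    simp only [ContinuousLinearMap.comp_apply, CO_delta, ContinuousLinearMap.apply_apply,
      co_apply, sh_apply, d0_apply, cfL_apply, cf_delta, sub_eq_zero]
  exact DFunLike.congr_fun this a

theorem CO_io (a b : WA) : CO a (io b) = io (a * b) := by
  rw [io, io, CO_mul]; rfl

theorem mu_io (σ : ℤ × ℤ → ℂ) (C : ℝ) (hσ : ∀ k, ‖σ k‖ ≤ C) (a : WA) :
    mu σ C hσ (io a) = io (mult σ C hσ a) := by
  apply ext'
  intro n
  rw [mu_apply, io_apply, io_apply, cf_mult]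

section characters
variable (α β : ℤ × ℤ →+ ℝ)

/-- translations on `ℓ²` -/
noncomputable def UU (h : ℝ × ℝ) : L2 →L[ℂ] L2 :=
  mu (fun k => chr α β k h) 1 fun k => (norm_chr α β k h).le

@[simp] theorem UU_apply (h : ℝ × ℝ) (e : L2) (n : ℤ × ℤ) :
    UU α β h e n = chr α β n h * e n := rfl

theorem UU_mu (h : ℝ × ℝ) (σ : ℤ × ℤ → ℂ) (C : ℝ) (hσ : ∀ k, ‖σ k‖ ≤ C) (e : L2) :
    UU α β h (mu σ C hσ e) = mu σ C hσ (UU α β h e) := by
  apply ext'
  intro n
  simp only [UU_apply, mu_apply]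
  ring

theorem UU_CO (h : ℝ × ℝ) (a : WA) (e : L2) :
    UU α β h (CO a e) = CO (tau α β h a) (UU α β h e) := by
  have : (((ContinuousLinearMap.apply ℂ L2 e).comp
      (ContinuousLinearMap.compL ℂ L2 L2 L2 (UU α β h))).comp CO) =
      (((ContinuousLinearMap.apply ℂ L2 (UU α β h e))).comp CO).comp (tau α β h) := by
    apply ext_clm
    intro k
    simp only [ContinuousLinearMap.comp_apply, ContinuousLinearMap.apply_apply,
      ContinuousLinearMap.compL_apply, CO_delta, tau_delta, map_smul]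
    apply ext'
    intro n
    rw [UU_apply, sh_apply, smul_apply', sh_apply, UU_apply, ← mul_assoc, ← chr_add]
    congr 2
    abel
  exact DFunLike.congr_fun this a

theorem UU_d0 (h : ℝ × ℝ) : UU α β h d0 = d0 := by
  apply ext'
  intro n
  rw [UU_apply, d0_apply]
  by_cases hn : n = 0
  · subst hn; simp
  · simp [hn]

theorem UU_io (h : ℝ × ℝ) (a : WA) : UU α β h (io a) = io (tau α β h a) := by
  rw [io, UU_CO, UU_d0]; rfl

end characters

end L2

end Vale.Agent.P205
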