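import Vale.Agent.Lib.P205.L2
import Vale.Agent.Lib.P205.Solve

/-!
# P205 stage 2: a coercive operator on `ℓ²(ℤ × ℤ)`
-/

open scoped ENNReal ContDiff NNReal

namespace Vale.Agent.P205

namespace LinOp

open WA L2 Solve

section symbols
variable (α β : ℤ × ℤ →+ ℝ)

/-- length of the frequency -/
noncomputable def NR (k : ℤ × ℤ) : ℝ := Real.sqrt (α k ^ 2 + β k ^ 2)

/-- symbol of `(-Δ)^{-1/2}` -/
noncomputable def r0 (k : ℤ × ℤ) : ℂ := ((1 / NR α β k : ℝ) : ℂ)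
/-- symbol of `∂₁ (-Δ)^{-1/2}` -/
noncomputable def r1 (k : ℤ × ℤ) : ℂ := Complex.I * ((α k / NR α β k : ℝ) : ℂ)
/-- symbol of `∂₂ (-Δ)^{-1/2}` -/
noncomputable def r2 (k : ℤ × ℤ) : ℂ := Complex.I * ((β k / NR α β k : ℝ) : ℂ)
/-- symbol of the mean -/
noncomputable def rq (k : ℤ × ℤ) : ℂ := if k = 0 then 1 else 0

theorem NR_sq (k : ℤ × ℤ) : NR α β k ^ 2 = α k ^ 2 + β k ^ 2 := Real.sq_sqrt (by positivity)

theorem NR_nonneg (k : ℤ × ℤ) : 0 ≤ NR α β k := Real.sqrt_nonneg _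

theorem norm_r1_le (k : ℤ × ℤ) : ‖r1 α β k‖ ≤ 1 := by
  rw [r1, norm_mul, Complex.norm_I, one_mul, Complex.norm_real, Real.norm_eq_abs, abs_div,
    abs_of_nonneg (NR_nonneg α β k)]
  apply div_le_one_of_le₀ _ (NR_nonneg α β k)
  apply Real.abs_le_sqrt
  nlinarith [sq_nonneg (β k)]

theorem norm_r2_le (k : ℤ × ℤ) : ‖r2 α β k‖ ≤ 1 := by
  rw [r2, norm_mul, Complex.norm_I, one_mul, Complex.norm_real, Real.norm_eq_abs, abs_div,
    abs_of_nonneg (NR_nonneg α β k)]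
  apply div_le_one_of_le₀ _ (NR_nonneg α β k)
  apply Real.abs_le_sqrt
  nlinarith [sq_nonneg (α k)]

theorem norm_rq_le (k : ℤ × ℤ) : ‖rq k‖ ≤ 1 := by
  unfold rq
  split_ifs <;> simp

theorem norm_r0_le {C : ℝ} (hF : Freq α β C) (k : ℤ × ℤ) : ‖r0 α β k‖ ≤ C := by
  rw [r0, Complex.norm_real, Real.norm_eq_abs,
    abs_of_nonneg (div_nonneg zero_le_one (NR_nonneg α β k))]
  have h1 := hF.inv k
  have hC := hF.one_le
  have h2 : (1 / NR α β k) ^ 2 ≤ C := by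
    rw [div_pow, one_pow, NR_sq]
    exact h1
  have h3 : 0 ≤ 1 / NR α β k := div_nonneg zero_le_one (NR_nonneg α β k)
  nlinarith

/-- `R₁` -/
noncomputable def R1 : L2 →L[ℂ] L2 := mu (r1 α β) 1 (norm_r1_le α β)
/-- `R₂` -/
noncomputable def R2 : L2 →L[ℂ] L2 := mu (r2 α β) 1 (norm_r2_le α β)
/-- the mean -/
noncomputable def QQ' : L2 →L[ℂ] L2 := mu rq 1 norm_rq_le
/-- adjoint of `R₁` -/
noncomputable def R1s : L2 →L[ℂ] L2 := mu (fun k => (starRingEnd ℂ) (r1 α β k)) 1 fun k => by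
  rw [RCLike.norm_conj]; exact norm_r1_le α β k
/-- adjoint of `R₂` -/
noncomputable def R2s : L2 →L[ℂ] L2 := mu (fun k => (starRingEnd ℂ) (r2 α β k)) 1 fun k => by
  rw [RCLike.norm_conj]; exact norm_r2_le α β k

theorem inner_R1s (x y : L2) : inner ℂ (R1s α β x) y = inner ℂ x (R1 α β y) :=
  inner_mu _ _ (norm_r1_le α β) x y

theorem inner_R2s (x y : L2) : inner ℂ (R2s α β x) y = inner ℂ x (R2 α β y) :=
  inner_mu _ _ (norm_r2_le α β) x y

/-- partition of the norm -/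
theorem norm_split {C : ℝ} (hF : Freq α β C) (f : L2) :
    ‖R1 α β f‖ ^ 2 + ‖R2 α β f‖ ^ 2 + ‖QQ' f‖ ^ 2 = ‖f‖ ^ 2 := by
  rw [norm_sq, norm_sq, norm_sq, norm_sq, ← (summable_sq (R1 α β f)).tsum_add
    (summable_sq (R2 α β f)), ← ((summable_sq (R1 α β f)).add
    (summable_sq (R2 α β f))).tsum_add (summable_sq (QQ' f))]
  congr 1
  funext n
  change ‖r1 α β n * f n‖ ^ 2 + ‖r2 α β n * f n‖ ^ 2 + ‖rq n * f n‖ ^ 2 = _
  rw [norm_mul, norm_mul, norm_mul, mul_pow, mul_pow, mul_pow, ← add_mul, ← add_mul]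
  have : ‖r1 α β n‖ ^ 2 + ‖r2 α β n‖ ^ 2 + ‖rq n‖ ^ 2 = 1 := by
    rw [r1, r2, norm_mul, norm_mul, Complex.norm_I, one_mul, one_mul, Complex.norm_real,
      Complex.norm_real, Real.norm_eq_abs, Real.norm_eq_abs, sq_abs, sq_abs, div_pow, div_pow,
      NR_sq]
    by_cases h : n = 0
    · subst h
      simp [rq]
    · have h0 := hF.ne n h
      rw [rq, if_neg h, norm_zero, ← add_div]
      field_simp
      ring
  rw [this, one_mul]

/-- the operator -/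
noncomputable def TT (a b c : WA) : L2 →L[ℂ] L2 :=
  (R1s α β).comp ((CO a).comp (R1 α β)) + (R1s α β).comp ((CO b).comp (R2 α β)) +
    (R2s α β).comp ((CO b).comp (R1 α β)) + (R2s α β).comp ((CO c).comp (R2 α β)) + QQ'

theorem TT_apply (a b c : WA) (f : L2) : TT α β a b c f =
    R1s α β (CO a (R1 α β f) + CO b (R2 α β f)) +
      R2s α β (CO b (R1 α β f) + CO c (R2 α β f)) + QQ' f := by
  rw [map_add, map_add]
  change R1s α β (CO a (R1 α β f)) + R1s α β (CO b (R2 α β f)) +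
    R2s α β (CO b (R1 α β f)) + R2s α β (CO c (R2 α β f)) + QQ' f = _
  abel

theorem coercive {C : ℝ} (hF : Freq α β C) {l : ℝ} (hl : l ≤ 1) {s1 s2 s3 : WA}
    (h1 : cj s1 = s1) (h2 : cj s2 = s2) (h3 : cj s3 = s3) (f : L2) :
    l * ‖f‖ ^ 2 ≤ (inner ℂ (TT α β ((l : ℂ) • (1 : WA) + s1 * s1) (s1 * s2)
      ((l : ℂ) • (1 : WA) + s2 * s2 + s3 * s3) f) f).re := by
  set e1 := R1 α β f with he1
  set e2 := R2 α β f with he2
  set g := CO s1 e1 + CO s2 e2 with hg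
  have k1 : CO ((l : ℂ) • (1 : WA) + s1 * s1) e1 + CO (s1 * s2) e2 = (l : ℂ) • e1 + CO s1 g := by
    rw [map_add, map_smul, CO_one, CO_mul, CO_mul, hg, map_add]
    change (l : ℂ) • e1 + CO s1 (CO s1 e1) + CO s1 (CO s2 e2) = _
    abel
  have k2 : CO (s1 * s2) e1 + CO ((l : ℂ) • (1 : WA) + s2 * s2 + s3 * s3) e2 =
      (l : ℂ) • e2 + CO s2 g + CO s3 (CO s3 e2) := by
    rw [mul_comm s1 s2, map_add, map_add, map_smul, CO_one, CO_mul, CO_mul, CO_mul, hg, map_add]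
    change CO s2 (CO s1 e1) + ((l : ℂ) • e2 + CO s2 (CO s2 e2) + CO s3 (CO s3 e2)) = _
    abel
  have k3 : ∀ (s : WA), cj s = s → ∀ x y : L2, inner ℂ (CO s x) y = inner ℂ x (CO s y) := by
    intro s hs x y
    have := inner_CO s x y
    rwa [hs] at this
  have k4 : inner ℂ (QQ' f) f = inner ℂ (QQ' f) (QQ' f) := by
    have h4 := inner_mu rq 1 norm_rq_le f f
    have h5 : ∀ x : L2, mu (fun k => (starRingEnd ℂ) (rq k)) 1 (fun k => by
        rw [RCLike.norm_conj]; exact norm_rq_le k) x = QQ' x := by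
      intro x
      apply ext'
      intro n
      change (starRingEnd ℂ) (rq n) * x n = rq n * x n
      unfold rq
      split_ifs <;> simp
    have h6 := inner_mu rq 1 norm_rq_le (QQ' f) f
    rw [h5] at h6
    have h7 : QQ' (QQ' f) = QQ' f := by
      apply ext'
      intro n
      change rq n * (rq n * f n) = rq n * f n
      unfold rq
      split_ifs <;> simp
    rw [h7] at h6
    exact h6
  have k5 : inner ℂ (TT α β ((l : ℂ) • (1 : WA) + s1 * s1) (s1 * s2)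
      ((l : ℂ) • (1 : WA) + s2 * s2 + s3 * s3) f) f =
      (l : ℂ) * inner ℂ e1 e1 + (l : ℂ) * inner ℂ e2 e2 + inner ℂ g g +
        inner ℂ (CO s3 e2) (CO s3 e2) + inner ℂ (QQ' f) (QQ' f) := by
    rw [TT_apply, ← he1, ← he2, k1, k2, inner_add_left, inner_add_left, inner_R1s, inner_R2s,
      ← he1, ← he2, inner_add_left, inner_add_left, inner_add_left, inner_smul_left,
      inner_smul_left, Complex.conj_ofReal, k3 s1 h1 g e1, k3 s2 h2 g e2,
      k3 s3 h3 (CO s3 e2) e2, k4]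
    have : inner ℂ g g = inner ℂ g (CO s1 e1) + inner ℂ g (CO s2 e2) := by
      rw [← inner_add_right]
    rw [this]
    ring
  rw [k5]
  have k6 : ∀ x : L2, inner ℂ x x = ((‖x‖ ^ 2 : ℝ) : ℂ) := by
    intro x
    rw [inner_self_eq_norm_sq_to_K]
    push_cast
    rfl
  rw [k6, k6, k6, k6, k6, ← Complex.ofReal_mul, ← Complex.ofReal_mul, ← Complex.ofReal_add,
    ← Complex.ofReal_add, ← Complex.ofReal_add, ← Complex.ofReal_add, Complex.ofReal_re,
    ← norm_split α β hF f, ← he1, ← he2]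
  have h5 := sq_nonneg ‖g‖
  have h6 := sq_nonneg ‖CO s3 e2‖
  have h7 : l * ‖QQ' f‖ ^ 2 ≤ ‖QQ' f‖ ^ 2 := by
    nlinarith [sq_nonneg ‖QQ' f‖]
  nlinarith

theorem isUnit_TT {C : ℝ} (hF : Freq α β C) {l : ℝ} (hl0 : 0 < l) (hl : l ≤ 1) {s1 s2 s3 : WA}
    (h1 : cj s1 = s1) (h2 : cj s2 = s2) (h3 : cj s3 = s3) :
    IsUnit (TT α β ((l : ℂ) • (1 : WA) + s1 * s1) (s1 * s2)
      ((l : ℂ) • (1 : WA) + s2 * s2 + s3 * s3)) := by
  apply ContinuousLinearMap.isUnit_of_forall_le_norm_inner_map _ (c := ⟨l, hl0.le⟩) hl0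
  intro f
  have h := coercive α β hF hl h1 h2 h3 f
  refine le_trans ?_ (h.trans ((le_abs_self _).trans (Complex.abs_re_le_norm _)))
  change ‖f‖ ^ 2 * l ≤ l * ‖f‖ ^ 2
  rw [mul_comm]

end symbols

end LinOp

end Vale.Agent.P205
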