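import Vale.Agent.Lib.P205.LinOp

/-!
# P205 stage 2: regularity of the solution of the linear equation
-/

open scoped ENNReal ContDiff NNReal

namespace Vale.Agent.P205

namespace LinOp

open WA L2 Solve

section reg
variable (α β : ℤ × ℤ →+ ℝ)

theorem hasDerivAt_chr1 (k : ℤ × ℤ) (x : ℝ × ℝ) :
    HasDerivAt (fun t : ℝ => chr α β k (x + t • (1, 0))) (Complex.I * α k * chr α β k x) 0 := by
  have h := hasDerivAt_ev1 α β (delta k) ((Complex.I * α k) • delta k) (fun l => by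
    rw [cf_smul, cf_delta]
    by_cases hl : l = k
    · subst hl; rfl
    · simp [hl]) x
  simpa only [ev_delta, map_smul, smul_eq_mul] using h

theorem hasDerivAt_chr2 (k : ℤ × ℤ) (x : ℝ × ℝ) :
    HasDerivAt (fun t : ℝ => chr α β k (x + t • (0, 1))) (Complex.I * β k * chr α β k x) 0 := by
  have h := hasDerivAt_ev2 α β (delta k) ((Complex.I * β k) • delta k) (fun l => by
    rw [cf_smul, cf_delta]
    by_cases hl : l = k
    · subst hl; rfl
    · simp [hl]) x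
  simpa only [ev_delta, map_smul, smul_eq_mul] using h

theorem hasDerivAt_line {E : Type*} [NormedAddCommGroup E] [NormedSpace ℝ E] {F : ℝ × ℝ → E}
    (hF : ContDiff ℝ ∞ F) (x v : ℝ × ℝ) :
    HasDerivAt (fun t : ℝ => F (x + t • v)) (fderiv ℝ F x v) 0 := by
  have h1 : HasFDerivAt F (fderiv ℝ F x) (x + (0 : ℝ) • v) := by
    rw [zero_smul, add_zero]
    exact (hF.differentiable (by simp)).differentiableAt.hasFDerivAt
  have h2 : HasDerivAt (fun t : ℝ => x + t • v) v 0 := by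
    simpa using ((hasDerivAt_id (0 : ℝ)).smul_const v).const_add x
  exact h1.comp_hasDerivAt (0 : ℝ) h2

theorem contDiff_D1 {E : Type*} [NormedAddCommGroup E] [NormedSpace ℝ E] {F : ℝ × ℝ → E}
    (hF : ContDiff ℝ ∞ F) : ContDiff ℝ ∞ (D1 F) :=
  (hF.fderiv_right (m := ∞) (by simp)).clm_apply contDiff_const

theorem contDiff_D2 {E : Type*} [NormedAddCommGroup E] [NormedSpace ℝ E] {F : ℝ × ℝ → E}
    (hF : ContDiff ℝ ∞ F) : ContDiff ℝ ∞ (D2 F) :=
  (hF.fderiv_right (m := ∞) (by simp)).clm_apply contDiff_const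

theorem coef_D1 {F : ℝ × ℝ → L2} (hF : ContDiff ℝ ∞ F) {s : ℤ × ℤ → ℂ}
    (h : ∀ x k, F x k = s k * chr α β k x) (x : ℝ × ℝ) (k : ℤ × ℤ) :
    D1 F x k = Complex.I * α k * s k * chr α β k x := by
  have h1 := hasDerivAt_line hF x (1, 0)
  have h2 := ((co k).restrictScalars ℝ).hasFDerivAt.comp_hasDerivAt (0 : ℝ) h1
  have h3 := (hasDerivAt_chr1 α β k x).const_mul (s k)
  have h4 : (fun t : ℝ => s k * chr α β k (x + t • (1, 0))) =
      ((co k).restrictScalars ℝ) ∘ fun t : ℝ => F (x + t • (1, 0)) := by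
    funext t
    exact (h _ k).symm
  rw [h4] at h3
  have h5 := h2.unique h3
  change D1 F x k = _ at h5
  rw [h5]
  ring

theorem coef_D2 {F : ℝ × ℝ → L2} (hF : ContDiff ℝ ∞ F) {s : ℤ × ℤ → ℂ}
    (h : ∀ x k, F x k = s k * chr α β k x) (x : ℝ × ℝ) (k : ℤ × ℤ) :
    D2 F x k = Complex.I * β k * s k * chr α β k x := by
  have h1 := hasDerivAt_line hF x (0, 1)
  have h2 := ((co k).restrictScalars ℝ).hasFDerivAt.comp_hasDerivAt (0 : ℝ) h1
  have h3 := (hasDerivAt_chr2 α β k x).const_mul (s k)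
  have h4 : (fun t : ℝ => s k * chr α β k (x + t • (0, 1))) =
      ((co k).restrictScalars ℝ) ∘ fun t : ℝ => F (x + t • (0, 1)) := by
    funext t
    exact (h _ k).symm
  rw [h4] at h3
  have h5 := h2.unique h3
  change D2 F x k = _ at h5
  rw [h5]
  ring

theorem coef_iter {F : ℝ × ℝ → L2} (hF : ContDiff ℝ ∞ F) {s : ℤ × ℤ → ℂ}
    (h : ∀ x k, F x k = s k * chr α β k x) (m : ℕ) :
    ∃ G : ℝ × ℝ → L2, ContDiff ℝ ∞ G ∧
      ∀ x k, G x k = (((1 + (α k ^ 2 + β k ^ 2)) ^ m : ℝ) : ℂ) * s k * chr α β k x := by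
  induction m with
  | zero => exact ⟨F, hF, fun x k => by simp [h]⟩
  | succ m ih =>
    obtain ⟨G, hG, hGk⟩ := ih
    refine ⟨fun x => G x - D1 (D1 G) x - D2 (D2 G) x,
      (hG.sub (contDiff_D1 (contDiff_D1 hG))).sub (contDiff_D2 (contDiff_D2 hG)), fun x k => ?_⟩
    rw [sub_apply', sub_apply',
      coef_D1 α β (contDiff_D1 hG) (fun x k => coef_D1 α β hG hGk x k),
      coef_D2 α β (contDiff_D2 hG) (fun x k => coef_D2 α β hG hGk x k), hGk]
    push_cast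
    linear_combination (-(α k : ℂ) ^ 2 - (β k : ℂ) ^ 2) *
      (1 + ((α k : ℂ) ^ 2 + (β k : ℂ) ^ 2)) ^ m * s k * chr α β k x * Complex.I_sq

/-- rapidly decreasing sequences -/
def RD (s : ℤ × ℤ → ℂ) : Prop := ∀ m : ℕ, Summable fun k => (1 + |α k| + |β k|) ^ m * ‖s k‖

theorem norm_coef_le (e : L2) (k : ℤ × ℤ) : ‖e k‖ ≤ ‖e‖ := by
  have h := (summable_sq e).le_tsum k fun _ _ => by positivity
  rw [← norm_sq] at h
  exact (sq_le_sq₀ (norm_nonneg _) (norm_nonneg _)).1 h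

theorem rapid (hS : Summable fun k => ((1 + (α k ^ 2 + β k ^ 2)) ^ 2)⁻¹) {F : ℝ × ℝ → L2}
    (hF : ContDiff ℝ ∞ F) {s : ℤ × ℤ → ℂ} (h : ∀ x k, F x k = s k * chr α β k x) : RD α β s := by
  intro m
  obtain ⟨G, hG, hGk⟩ := coef_iter α β hF h (m + 2)
  apply Summable.of_nonneg_of_le (fun k => by positivity) _ (hS.mul_left (2 ^ m * ‖G 0‖))
  intro k
  have h1 : ‖G 0 k‖ = (1 + (α k ^ 2 + β k ^ 2)) ^ (m + 2) * ‖s k‖ := by
    rw [hGk, norm_mul, norm_chr, mul_one, norm_mul, Complex.norm_real, Real.norm_eq_abs,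
      abs_of_nonneg (by positivity)]
  have h2 := norm_coef_le (G 0) k
  rw [h1] at h2
  have h3 : 1 + |α k| + |β k| ≤ 2 * (1 + (α k ^ 2 + β k ^ 2)) := by
    nlinarith [sq_nonneg (|α k| - 1), sq_nonneg (|β k| - 1), sq_abs (α k), sq_abs (β k)]
  have h4 : (1 + |α k| + |β k|) ^ m ≤ 2 ^ m * (1 + (α k ^ 2 + β k ^ 2)) ^ m := by
    rw [← mul_pow]
    exact pow_le_pow_left₀ (by positivity) h3 m
  rw [← div_eq_mul_inv, le_div_iff₀ (by positivity)]
  calc (1 + |α k| + |β k|) ^ m * ‖s k‖ * (1 + (α k ^ 2 + β k ^ 2)) ^ 2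
      ≤ 2 ^ m * (1 + (α k ^ 2 + β k ^ 2)) ^ m * ‖s k‖ * (1 + (α k ^ 2 + β k ^ 2)) ^ 2 := by
        gcongr
    _ = 2 ^ m * ((1 + (α k ^ 2 + β k ^ 2)) ^ (m + 2) * ‖s k‖) := by ring
    _ ≤ 2 ^ m * ‖G 0‖ := by gcongr

/-- sequences whose translates depend smoothly on the translation -/
def Sm (a : WA) : Prop := ContDiff ℝ ∞ fun h : ℝ × ℝ => tau α β h a

variable {α β}

theorem RD.sm {a : WA} (h : RD α β (cf a)) : Sm α β a := contDiff_tau α β a h

theorem Sm.add {a b : WA} (ha : Sm α β a) (hb : Sm α β b) : Sm α β (a + b) := by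
  unfold Sm at *
  simp only [map_add]
  exact ContDiff.add ha hb

theorem Sm.sub {a b : WA} (ha : Sm α β a) (hb : Sm α β b) : Sm α β (a - b) := by
  unfold Sm at *
  simp only [map_sub]
  exact ContDiff.sub ha hb

theorem Sm.mul {a b : WA} (ha : Sm α β a) (hb : Sm α β b) : Sm α β (a * b) := by
  unfold Sm at *
  simp only [tau_mul]
  exact ContDiff.mul ha hb

theorem sm_one : Sm α β 1 := by
  unfold Sm
  simp only [tau_one]
  exact contDiff_const

theorem Sm.smul {a : WA} (ha : Sm α β a) (z : ℂ) : Sm α β (z • a) := by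
  unfold Sm at *
  simp only [map_smul]
  exact ContDiff.const_smul z ha

theorem Sm.mult {a : WA} (ha : Sm α β a) (σ : ℤ × ℤ → ℂ) (C : ℝ) (hσ : ∀ k, ‖σ k‖ ≤ C) :
    Sm α β (WA.mult σ C hσ a) := by
  unfold Sm at *
  simp only [tau_mult]
  exact ((WA.mult σ C hσ).restrictScalars ℝ).contDiff.comp ha

theorem Sm.ev {a : WA} (ha : Sm α β a) : ContDiff ℝ ∞ fun x => ev α β x a := by
  have h1 : (fun x => WA.ev α β x a) = fun x => WA.ev α β 0 (tau α β x a) := by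
    funext x
    rw [ev_tau, zero_add]
  rw [h1]
  exact ((WA.ev α β 0).restrictScalars ℝ).contDiff.comp ha

theorem cf_tau (h : ℝ × ℝ) (a : WA) (k : ℤ × ℤ) : cf (tau α β h a) k = chr α β k h * cf a k :=
  cf_mult _ _ _ _ _

theorem Sm.exists_d1 {a : WA} (ha : Sm α β a) : ∃ a', ∀ k, cf a' k = Complex.I * α k * cf a k := by
  refine ⟨D1 (fun h : ℝ × ℝ => tau α β h a) 0, fun k => ?_⟩
  have h1 := hasDerivAt_line ha 0 (1, 0)
  have h2 := ((cfL k).restrictScalars ℝ).hasFDerivAt.comp_hasDerivAt (0 : ℝ) h1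
  have h3 := (hasDerivAt_chr1 α β k 0).mul_const (cf a k)
  have h4 : (fun t : ℝ => chr α β k (0 + t • (1, 0)) * cf a k) =
      ((cfL k).restrictScalars ℝ) ∘ fun t : ℝ => tau α β (0 + t • (1, 0)) a := by
    funext t
    exact (cf_tau _ a k).symm
  rw [h4] at h3
  have h5 := h2.unique h3
  change cf (D1 (fun h : ℝ × ℝ => tau α β h a) 0) k = _ at h5
  rw [h5]
  simp [chr]

theorem Sm.exists_d2 {a : WA} (ha : Sm α β a) : ∃ a', ∀ k, cf a' k = Complex.I * β k * cf a k := by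
  refine ⟨D2 (fun h : ℝ × ℝ => tau α β h a) 0, fun k => ?_⟩
  have h1 := hasDerivAt_line ha 0 (0, 1)
  have h2 := ((cfL k).restrictScalars ℝ).hasFDerivAt.comp_hasDerivAt (0 : ℝ) h1
  have h3 := (hasDerivAt_chr2 α β k 0).mul_const (cf a k)
  have h4 : (fun t : ℝ => chr α β k (0 + t • (0, 1)) * cf a k) =
      ((cfL k).restrictScalars ℝ) ∘ fun t : ℝ => tau α β (0 + t • (0, 1)) a := by
    funext t
    exact (cf_tau _ a k).symm
  rw [h4] at h3
  have h5 := h2.unique h3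
  change cf (D2 (fun h : ℝ × ℝ => tau α β h a) 0) k = _ at h5
  rw [h5]
  simp [chr]

theorem cj_tau (h : ℝ × ℝ) (a : WA) : cj (tau α β h a) = tau α β h (cj a) := by
  apply cj_mult
  intro k
  unfold chr
  rw [← Complex.exp_conj]
  congr 1
  simp
  ring

end reg

end LinOp

end Vale.Agent.P205
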