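import Vale.Agent.Lib.P205.LinReg

/-!
# P205 stage 2: solution of the linear equation
-/

open scoped ENNReal ContDiff NNReal

namespace Vale.Agent.P205

namespace LinOp

open WA L2 Solve

section sol
variable {α β : ℤ × ℤ →+ ℝ}

theorem UU_QQ (h : ℝ × ℝ) (e : L2) : UU α β h (QQ' e) = QQ' (UU α β h e) :=
  UU_mu α β h rq 1 norm_rq_le e

theorem UU_R1 (h : ℝ × ℝ) (e : L2) : UU α β h (R1 α β e) = R1 α β (UU α β h e) :=
  UU_mu α β h _ 1 (norm_r1_le α β) e

theorem UU_R2 (h : ℝ × ℝ) (e : L2) : UU α β h (R2 α β e) = R2 α β (UU α β h e) :=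
  UU_mu α β h _ 1 (norm_r2_le α β) e

theorem UU_R1s (h : ℝ × ℝ) (e : L2) : UU α β h (R1s α β e) = R1s α β (UU α β h e) :=
  UU_mu α β h _ 1 _ e

theorem UU_R2s (h : ℝ × ℝ) (e : L2) : UU α β h (R2s α β e) = R2s α β (UU α β h e) :=
  UU_mu α β h _ 1 _ e

theorem UU_TT (h : ℝ × ℝ) (a b c : WA) (f : L2) : UU α β h (TT α β a b c f) =
    TT α β (tau α β h a) (tau α β h b) (tau α β h c) (UU α β h f) := by
  rw [TT_apply, TT_apply]
  simp only [map_add, UU_R1s, UU_R2s, UU_QQ, UU_CO, UU_R1, UU_R2]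

/-- `L ↦ A L B` -/
noncomputable def sand (A B : L2 →L[ℂ] L2) : (L2 →L[ℂ] L2) →L[ℂ] (L2 →L[ℂ] L2) :=
  (ContinuousLinearMap.compL ℂ L2 L2 L2 A).comp ((ContinuousLinearMap.compL ℂ L2 L2 L2).flip B)

theorem contDiff_sand {a : WA} (ha : Sm α β a) (A B : L2 →L[ℂ] L2) :
    ContDiff ℝ ∞ fun h : ℝ × ℝ => A.comp ((CO (tau α β h a)).comp B) :=
  (((sand A B).comp CO).restrictScalars ℝ).contDiff.comp ha

theorem contDiff_TT {a b c : WA} (ha : Sm α β a) (hb : Sm α β b) (hc : Sm α β c) :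
    ContDiff ℝ ∞ fun h : ℝ × ℝ => TT α β (tau α β h a) (tau α β h b) (tau α β h c) := by
  unfold TT
  exact ((((contDiff_sand ha _ _).add (contDiff_sand hb _ _)).add (contDiff_sand hb _ _)).add
    (contDiff_sand hc _ _)).add contDiff_const

theorem contDiff_apply {T : ℝ × ℝ → L2 →L[ℂ] L2} {v : ℝ × ℝ → L2} (hT : ContDiff ℝ ∞ T)
    (hv : ContDiff ℝ ∞ v) : ContDiff ℝ ∞ fun h => T h (v h) := by
  have h1 : ContDiff ℝ ∞ fun h => (T h).restrictScalars ℝ :=
    (ContinuousLinearMap.restrictScalarsL ℂ L2 L2 ℝ ℝ).contDiff.comp hT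
  exact h1.clm_apply hv

theorem contDiff_inverse {T : ℝ × ℝ → L2 →L[ℂ] L2} (hT : ContDiff ℝ ∞ T)
    (hu : ∀ h, IsUnit (T h)) : ContDiff ℝ ∞ fun h => Ring.inverse (T h) := by
  rw [contDiff_iff_contDiffAt]
  intro h
  obtain ⟨u, hu⟩ := hu h
  have h1 : ContDiffAt ℝ ∞ Ring.inverse (T h) := by
    rw [← hu]
    exact contDiffAt_ringInverse ℝ u
  exact ContDiffAt.comp (g := Ring.inverse) (f := T) h h1 hT.contDiffAt

/-- existence and regularity in `ℓ²` -/
theorem exists_l2 {C : ℝ} (hF : Freq α β C)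
    (hS : Summable fun k => ((1 + (α k ^ 2 + β k ^ 2)) ^ 2)⁻¹) {l : ℝ} (hl0 : 0 < l) (hl : l ≤ 1)
    {s1 s2 s3 g1 g2 : WA} (h1 : cj s1 = s1) (h2 : cj s2 = s2) (h3 : cj s3 = s3)
    (m1 : Sm α β s1) (m2 : Sm α β s2) (m3 : Sm α β s3) (n1 : Sm α β g1) (n2 : Sm α β g2) :
    ∃ f : WA, RD α β (cf f) ∧ TT α β ((l : ℂ) • (1 : WA) + s1 * s1) (s1 * s2)
      ((l : ℂ) • (1 : WA) + s2 * s2 + s3 * s3) (io f) =
      R1s α β (io g1) + R2s α β (io g2) := by
  set a := (l : ℂ) • (1 : WA) + s1 * s1 with ha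
  set b := s1 * s2 with hb
  set c := (l : ℂ) • (1 : WA) + s2 * s2 + s3 * s3 with hc
  have ma : Sm α β a := (sm_one.smul _).add (m1.mul m1)
  have mb : Sm α β b := m1.mul m2
  have mc : Sm α β c := ((sm_one.smul _).add (m2.mul m2)).add (m3.mul m3)
  have hu : ∀ h, IsUnit (TT α β (tau α β h a) (tau α β h b) (tau α β h c)) := by
    intro h
    have k1 : cj (tau α β h s1) = tau α β h s1 := by rw [cj_tau, h1]
    have k2 : cj (tau α β h s2) = tau α β h s2 := by rw [cj_tau, h2]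
    have k3 : cj (tau α β h s3) = tau α β h s3 := by rw [cj_tau, h3]
    have := isUnit_TT α β hF hl0 hl k1 k2 k3
    rw [ha, hb, hc]
    simp only [map_add, map_smul, tau_one, tau_mul]
    exact this
  have hT := contDiff_TT ma mb mc
  have hr : ContDiff ℝ ∞ fun h : ℝ × ℝ =>
      R1s α β (io (tau α β h g1)) + R2s α β (io (tau α β h g2)) := by
    have k1 : ContDiff ℝ ∞ fun h : ℝ × ℝ => R1s α β (io (tau α β h g1)) :=
      (((R1s α β).comp ((ContinuousLinearMap.apply ℂ L2 d0).comp CO)).restrictScalars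
        ℝ).contDiff.comp n1
    have k2 : ContDiff ℝ ∞ fun h : ℝ × ℝ => R2s α β (io (tau α β h g2)) :=
      (((R2s α β).comp ((ContinuousLinearMap.apply ℂ L2 d0).comp CO)).restrictScalars
        ℝ).contDiff.comp n2
    exact k1.add k2
  have hf := contDiff_apply (contDiff_inverse hT hu) hr
  set f0 : L2 := Ring.inverse (TT α β (tau α β 0 a) (tau α β 0 b) (tau α β 0 c))
    (R1s α β (io (tau α β 0 g1)) + R2s α β (io (tau α β 0 g2))) with hf0
  have hinv : ∀ (T : L2 →L[ℂ] L2) (_ : IsUnit T) (x : L2), T (Ring.inverse T x) = x := by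
    intro T hT x
    have := Ring.mul_inverse_cancel T hT
    exact DFunLike.congr_fun this x
  have hinv' : ∀ (T : L2 →L[ℂ] L2) (_ : IsUnit T) (x : L2), Ring.inverse T (T x) = x := by
    intro T hT x
    have := Ring.inverse_mul_cancel T hT
    exact DFunLike.congr_fun this x
  have he : TT α β a b c f0 = R1s α β (io g1) + R2s α β (io g2) := by
    have := hinv _ (hu 0) (R1s α β (io (tau α β 0 g1)) + R2s α β (io (tau α β 0 g2)))
    rw [← hf0] at this
    simpa only [tau_zero] using this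
  have hU : ∀ h, Ring.inverse (TT α β (tau α β h a) (tau α β h b) (tau α β h c))
      (R1s α β (io (tau α β h g1)) + R2s α β (io (tau α β h g2))) = UU α β h f0 := by
    intro h
    have k1 := congrArg (UU α β h) he
    rw [UU_TT, map_add (UU α β h), UU_R1s, UU_R2s, UU_io, UU_io] at k1
    rw [← k1]
    exact hinv' _ (hu h) _
  have hrd : RD α β (f0 : ℤ × ℤ → ℂ) := by
    apply rapid α β hS hf
    intro x k
    rw [hU, UU_apply, mul_comm]
  have hsum : Summable fun k => ‖f0 k‖ := by simpa using hrd 0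
  refine ⟨WA.mk f0 hsum, hrd, ?_⟩
  have : io (WA.mk f0 hsum) = f0 := by
    apply ext'
    intro n
    rw [io_apply, cf_mk]
  rw [this]
  exact he

end sol

end LinOp

end Vale.Agent.P205
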