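import Vale.Agent.Lib.P205.LinSol
import Vale.Agent.Lib.P205.Family1

/-!
# P205 stage 2: linear divergence form equations on the torus
-/

open scoped ENNReal ContDiff NNReal

namespace Vale.Agent.P205

namespace LinOp

open WA L2 Solve

section
variable {α β : ℤ × ℤ →+ ℝ}

theorem exists_wa {C : ℝ} (hF : Freq α β C)
    (hS : Summable fun k => ((1 + (α k ^ 2 + β k ^ 2)) ^ 2)⁻¹) {l : ℝ} (hl0 : 0 < l) (hl : l ≤ 1)
    {s1 s2 s3 g1 g2 : WA} (h1 : cj s1 = s1) (h2 : cj s2 = s2) (h3 : cj s3 = s3)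
    (m1 : Sm α β s1) (m2 : Sm α β s2) (m3 : Sm α β s3) (n1 : Sm α β g1) (n2 : Sm α β g2) :
    ∃ p e1 e2 : WA, Sm α β p ∧ Sm α β e1 ∧ Sm α β e2 ∧
      (∀ k, cf e1 k = Complex.I * α k * cf p k) ∧ (∀ k, cf e2 k = Complex.I * β k * cf p k) ∧
      ∀ k, Complex.I * α k * cf ((((l : ℂ) • (1 : WA) + s1 * s1) * e1 + (s1 * s2) * e2) - g1) k +
        Complex.I * β k * cf (((s1 * s2) * e1 + ((l : ℂ) • (1 : WA) + s2 * s2 + s3 * s3) * e2)
          - g2) k = 0 := by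
  obtain ⟨f, hf, he⟩ := exists_l2 hF hS hl0 hl h1 h2 h3 m1 m2 m3 n1 n2
  set a := (l : ℂ) • (1 : WA) + s1 * s1 with ha
  set b := s1 * s2 with hb
  set c := (l : ℂ) • (1 : WA) + s2 * s2 + s3 * s3 with hc
  have hfs : Sm α β f := hf.sm
  set p := mult (r0 α β) C (norm_r0_le α β hF) f with hp
  set e1 := mult (r1 α β) 1 (norm_r1_le α β) f with he1
  set e2 := mult (r2 α β) 1 (norm_r2_le α β) f with he2
  refine ⟨p, e1, e2, hfs.mult _ _ _, hfs.mult _ _ _, hfs.mult _ _ _, ?_, ?_, ?_⟩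
  · intro k
    rw [he1, hp, cf_mult, cf_mult, r1, r0]
    push_cast
    ring
  · intro k
    rw [he2, hp, cf_mult, cf_mult, r2, r0]
    push_cast
    ring
  · intro k
    have k1 : R1 α β (io f) = io e1 := mu_io _ _ _ _
    have k2 : R2 α β (io f) = io e2 := mu_io _ _ _ _
    rw [TT_apply, k1, k2, CO_io, CO_io, CO_io, CO_io] at he
    have k3 := congrArg (fun e : L2 => e k) he
    change (starRingEnd ℂ) (r1 α β k) * (io (a * e1) k + io (b * e2) k) +
      (starRingEnd ℂ) (r2 α β k) * (io (b * e1) k + io (c * e2) k) + rq k * io f k =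
      (starRingEnd ℂ) (r1 α β k) * io g1 k + (starRingEnd ℂ) (r2 α β k) * io g2 k at k3
    simp only [io_apply] at k3
    by_cases hk : k = 0
    · subst hk
      simp
    · have hN : 0 < NR α β k := Real.sqrt_pos.2 (hF.ne k hk)
      have hN' : (NR α β k : ℂ) ≠ 0 := by exact_mod_cast hN.ne'
      rw [rq, if_neg hk, zero_mul, add_zero, r1, r2, map_mul, map_mul, Complex.conj_I,
        Complex.conj_ofReal, Complex.conj_ofReal] at k3
      push_cast at k3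
      rw [cf_sub, cf_add, cf_sub, cf_add]
      have k4 : (Complex.I * (α k : ℂ) * (cf (a * e1) k + cf (b * e2) k - cf g1 k) +
        Complex.I * (β k : ℂ) * (cf (b * e1) k + cf (c * e2) k - cf g2 k)) / (NR α β k : ℂ) = 0 := by
        linear_combination (-1 : ℂ) * k3
      rcases div_eq_zero_iff.1 k4 with h | h
      · exact h
      · exact absurd h hN'

/-- the real form -/
theorem real_form {C : ℝ} (hF : Freq α β C)
    (hS : Summable fun k => ((1 + (α k ^ 2 + β k ^ 2)) ^ 2)⁻¹) {l : ℝ} (hl0 : 0 < l) (hl : l ≤ 1)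
    {s1 s2 s3 g1 g2 : WA} (h1 : cj s1 = s1) (h2 : cj s2 = s2) (h3 : cj s3 = s3)
    (m1 : Sm α β s1) (m2 : Sm α β s2) (m3 : Sm α β s3) (n1 : Sm α β g1) (n2 : Sm α β g2) :
    ∃ p : WA, ContDiff ℝ ∞ (R α β p) ∧ ∀ x,
      D1 (fun y => (l + R α β s1 y ^ 2) * D1 (R α β p) y +
        (R α β s1 y * R α β s2 y) * D2 (R α β p) y) x +
      D2 (fun y => (R α β s1 y * R α β s2 y) * D1 (R α β p) y +
        (l + R α β s2 y ^ 2 + R α β s3 y ^ 2) * D2 (R α β p) y) x =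
      D1 (R α β g1) x + D2 (R α β g2) x := by
  obtain ⟨p, e1, e2, sp, se1, se2, he1, he2, he⟩ :=
    exists_wa hF hS hl0 hl h1 h2 h3 m1 m2 m3 n1 n2
  have d1 : D1 (R α β p) = R α β e1 := D1_R sp.ev he1
  have d2 : D2 (R α β p) = R α β e2 := D2_R sp.ev he2
  refine ⟨p, contDiff_R sp.ev, fun x => ?_⟩
  rw [d1, d2]
  set y1 := (((l : ℂ) • (1 : WA) + s1 * s1) * e1 + (s1 * s2) * e2) - g1 with hy1
  set y2 := ((s1 * s2) * e1 + ((l : ℂ) • (1 : WA) + s2 * s2 + s3 * s3) * e2) - g2 with hy2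
  have ma : Sm α β ((l : ℂ) • (1 : WA) + s1 * s1) := (sm_one.smul _).add (m1.mul m1)
  have mb : Sm α β (s1 * s2) := m1.mul m2
  have mc : Sm α β ((l : ℂ) • (1 : WA) + s2 * s2 + s3 * s3) :=
    ((sm_one.smul _).add (m2.mul m2)).add (m3.mul m3)
  have sy1 : Sm α β y1 := ((ma.mul se1).add (mb.mul se2)).sub n1
  have sy2 : Sm α β y2 := ((mb.mul se1).add (mc.mul se2)).sub n2
  obtain ⟨z1, hz1⟩ := sy1.exists_d1
  obtain ⟨z2, hz2⟩ := sy2.exists_d2
  have hz : z1 + z2 = 0 := by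
    apply WA.ext
    intro k
    rw [cf_add, hz1, hz2, cf_zero]
    exact he k
  have c1 : D1 (R α β y1) = R α β z1 := D1_R sy1.ev hz1
  have c2 : D2 (R α β y2) = R α β z2 := D2_R sy2.ev hz2
  have f1 : (fun y => (l + R α β s1 y ^ 2) * R α β e1 y + (R α β s1 y * R α β s2 y) *
      R α β e2 y) = fun y => R α β y1 y + R α β g1 y := by
    funext y
    rw [hy1]
    simp only [R, map_sub, map_add, map_smul, ev_mul, ev_one]
    rw [← ofReal_R h1 y, ← ofReal_R h2 y]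
    simp only [smul_eq_mul, mul_one, Complex.sub_re, Complex.add_re, Complex.mul_re,
      Complex.ofReal_re, Complex.ofReal_im, Complex.add_im, Complex.mul_im]
    ring
  have f2 : (fun y => (R α β s1 y * R α β s2 y) * R α β e1 y +
      (l + R α β s2 y ^ 2 + R α β s3 y ^ 2) * R α β e2 y) = fun y => R α β y2 y + R α β g2 y := by
    funext y
    rw [hy2]
    simp only [R, map_sub, map_add, map_smul, ev_mul, ev_one]
    rw [← ofReal_R h1 y, ← ofReal_R h2 y, ← ofReal_R h3 y]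
    simp only [smul_eq_mul, mul_one, Complex.sub_re, Complex.add_re, Complex.mul_re,
      Complex.ofReal_re, Complex.ofReal_im, Complex.add_im, Complex.mul_im]
    ring
  rw [f1, f2, D1_add (contDiff_R sy1.ev) (contDiff_R n1.ev),
    D2_add (contDiff_R sy2.ev) (contDiff_R n2.ev)]
  simp only
  rw [c1, c2]
  have : R α β z1 x + R α β z2 x = 0 := by
    rw [← R_add, hz]
    simp [R]
  linarith

end

theorem summable_std : Summable fun k : ℤ × ℤ =>
    ((1 + (alH (1, 0) (0, 1) k ^ 2 + beH (1, 0) (0, 1) k ^ 2)) ^ 2)⁻¹ := by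
  have h1 : Summable fun k : ℤ × ℤ => ((1 + |(k.1 : ℝ)|) ^ 2)⁻¹ * ((1 + |(k.2 : ℝ)|) ^ 2)⁻¹ :=
    Four.summable_int.mul_of_nonneg Four.summable_int (fun k => by positivity)
      (fun k => by positivity)
  refine Summable.of_nonneg_of_le (fun k => by positivity) (fun k => ?_) (h1.mul_left 4)
  have hv : dt (1, 0) (0, 1) ≠ 0 := by simp [dt]
  have e1 : alH (1, 0) (0, 1) k = 2 * Real.pi * k.1 := by
    have := freq_v1 hv k
    simpa using this
  have e2 : beH (1, 0) (0, 1) k = 2 * Real.pi * k.2 := by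
    have := freq_v2 hv k
    simpa using this
  rw [e1, e2]
  set x := |(k.1 : ℝ)| with hx
  set y := |(k.2 : ℝ)| with hy
  have hx2 : (k.1 : ℝ) ^ 2 = x ^ 2 := (sq_abs _).symm
  have hy2 : (k.2 : ℝ) ^ 2 = y ^ 2 := (sq_abs _).symm
  have hx0 : 0 ≤ x := abs_nonneg _
  have hy0 : 0 ≤ y := abs_nonneg _
  have hpi : 1 ≤ (2 * Real.pi) ^ 2 := by nlinarith [Real.pi_gt_three]
  set N := 1 + ((2 * Real.pi * (k.1 : ℝ)) ^ 2 + (2 * Real.pi * (k.2 : ℝ)) ^ 2) with hN
  have hN1 : 1 + x ^ 2 + y ^ 2 ≤ N := by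
    rw [hN, mul_pow (2 * Real.pi), mul_pow (2 * Real.pi), hx2, hy2]
    nlinarith [mul_nonneg (sub_nonneg.2 hpi) (sq_nonneg x),
      mul_nonneg (sub_nonneg.2 hpi) (sq_nonneg y)]
  have a1 : (1 + x) ^ 2 ≤ 2 * N := by nlinarith [sq_nonneg (x - 1), sq_nonneg y]
  have a2 : (1 + y) ^ 2 ≤ 2 * N := by nlinarith [sq_nonneg (y - 1), sq_nonneg x]
  have hN0 : 0 < N := by nlinarith [sq_nonneg x, sq_nonneg y]
  have a3 : (1 + x) ^ 2 * (1 + y) ^ 2 ≤ (2 * N) * (2 * N) :=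
    mul_le_mul a1 a2 (by positivity) (by positivity)
  rw [← mul_inv, ← one_div, ← div_eq_mul_inv, div_le_div_iff₀ (by positivity) (by positivity)]
  nlinarith

end LinOp

open LinOp Solve

theorem lin_solve {a b c f₁ f₂ : ℝ × ℝ → ℝ} (ha : ContDiff ℝ ∞ a) (hb : ContDiff ℝ ∞ b)
    (hc : ContDiff ℝ ∞ c) (hf₁ : ContDiff ℝ ∞ f₁) (hf₂ : ContDiff ℝ ∞ f₂)
    (pa : Per (1, 0) (0, 1) a) (pb : Per (1, 0) (0, 1) b) (pc : Per (1, 0) (0, 1) c)
    (pf₁ : Per (1, 0) (0, 1) f₁) (pf₂ : Per (1, 0) (0, 1) f₂) (hpos : ∀ x, 0 < a x)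
    (hdet : ∀ x, 0 < a x * c x - b x ^ 2) :
    ∃ φ : ℝ × ℝ → ℝ, ContDiff ℝ ∞ φ ∧ Per (1, 0) (0, 1) φ ∧
      ∀ x, D1 (fun y => a y * D1 φ y + b y * D2 φ y) x +
        D2 (fun y => b y * D1 φ y + c y * D2 φ y) x = D1 f₁ x + D2 f₂ x := by
  have hv : dt (1, 0) (0, 1) ≠ 0 := by simp [dt]
  obtain ⟨C, hF⟩ := freq_lattice hv
  have hcpos : ∀ x, 0 < c x := by
    intro x
    have h1 := hpos x
    have h2 := hdet x
    by_contra hcon
    push Not at hcon
    nlinarith [sq_nonneg (b x), mul_nonneg h1.le (neg_nonneg.2 hcon)]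
  -- the ellipticity constant
  set m : ℝ × ℝ → ℝ := fun x => min (a x) ((a x * c x - b x ^ 2) / (a x + c x)) with hm
  have hmc : Continuous fun x => -m x := by
    have h1 := ha.continuous
    have h2 := hb.continuous
    have h3 := hc.continuous
    apply Continuous.neg
    apply h1.min
    exact ((h1.mul h3).sub (h2.pow 2)).div (h1.add h3) fun x => by
      have := hpos x
      have := hcpos x
      positivity
  obtain ⟨x₀, hx₀⟩ := exists_max hv (f := fun x => -m x) hmc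
    ⟨fun x => by simp only [hm, pa.1, pb.1, pc.1], fun x => by simp only [hm, pa.2, pb.2, pc.2]⟩
  have hm0 : 0 < m x₀ := lt_min (hpos x₀) (div_pos (hdet x₀) (add_pos (hpos x₀) (hcpos x₀)))
  obtain ⟨l, hl⟩ : ∃ l, l = min 1 (m x₀ / 2) := ⟨_, rfl⟩
  have hl0 : 0 < l := by rw [hl]; exact lt_min one_pos (by positivity)
  have hl1 : l ≤ 1 := by rw [hl]; exact min_le_left _ _
  have hlm : l < m x₀ := by
    have : l ≤ m x₀ / 2 := by rw [hl]; exact min_le_right _ _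
    linarith
  have hmx : ∀ x, m x₀ ≤ m x := fun x => by linarith [hx₀ x]
  have hla : ∀ x, 0 < a x - l := fun x => by
    have h1 : m x ≤ a x := min_le_left _ _
    linarith [hmx x]
  have hld : ∀ x, 0 < (a x - l) * (c x - l) - b x ^ 2 := fun x => by
    have h1 : m x ≤ (a x * c x - b x ^ 2) / (a x + c x) := min_le_right _ _
    have h2 : l < (a x * c x - b x ^ 2) / (a x + c x) := by linarith [hmx x]
    rw [lt_div_iff₀ (add_pos (hpos x) (hcpos x))] at h2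
    nlinarith [sq_nonneg l]
  set t1 : ℝ × ℝ → ℝ := fun x => Real.sqrt (a x - l) with ht1
  set t2 : ℝ × ℝ → ℝ := fun x => b x / Real.sqrt (a x - l) with ht2
  set t3 : ℝ × ℝ → ℝ := fun x => Real.sqrt (((a x - l) * (c x - l) - b x ^ 2) / (a x - l)) with ht3
  have c1 : ContDiff ℝ ∞ t1 := (ha.sub contDiff_const).sqrt fun x => (hla x).ne'
  have c2 : ContDiff ℝ ∞ t2 := hb.div c1 fun x => (Real.sqrt_pos.2 (hla x)).ne'
  have c3 : ContDiff ℝ ∞ t3 := by
    apply ContDiff.sqrt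
    · exact (((ha.sub contDiff_const).mul (hc.sub contDiff_const)).sub (hb.pow 2)).div
        (ha.sub contDiff_const) fun x => (hla x).ne'
    · exact fun x => (div_pos (hld x) (hla x)).ne'
  have p1 : Per (1, 0) (0, 1) t1 :=
    ⟨fun x => by simp only [ht1, pa.1], fun x => by simp only [ht1, pa.2]⟩
  have p2 : Per (1, 0) (0, 1) t2 :=
    ⟨fun x => by simp only [ht2, pa.1, pb.1], fun x => by simp only [ht2, pa.2, pb.2]⟩
  have p3 : Per (1, 0) (0, 1) t3 :=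
    ⟨fun x => by simp only [ht3, pa.1, pb.1, pc.1], fun x => by simp only [ht3, pa.2, pb.2, pc.2]⟩
  obtain ⟨w1, hw1⟩ := exists_WD hv t1 c1 p1
  obtain ⟨w2, hw2⟩ := exists_WD hv t2 c2 p2
  obtain ⟨w3, hw3⟩ := exists_WD hv t3 c3 p3
  obtain ⟨u1, hu1⟩ := exists_WD hv f₁ hf₁ pf₁
  obtain ⟨u2, hu2⟩ := exists_WD hv f₂ hf₂ pf₂
  obtain ⟨p, hp, he⟩ := real_form hF summable_std hl0 hl1 w1.r0 w2.r0 w3.r0
    (RD.sm w1.d0) (RD.sm w2.d0) (RD.sm w3.d0) (RD.sm u1.d0) (RD.sm u2.d0)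
  rw [← hw1, ← hw2, ← hw3, ← hu1, ← hu2] at he
  have ea : ∀ x, l + t1 x ^ 2 = a x := fun x => by
    rw [ht1]
    simp only
    rw [Real.sq_sqrt (hla x).le]
    ring
  have eb : ∀ x, t1 x * t2 x = b x := fun x => by
    rw [ht1, ht2]
    simp only
    rw [mul_div_cancel₀ _ (Real.sqrt_pos.2 (hla x)).ne']
  have ec : ∀ x, l + t2 x ^ 2 + t3 x ^ 2 = c x := fun x => by
    rw [ht2, ht3]
    simp only
    rw [div_pow, Real.sq_sqrt (hla x).le, Real.sq_sqrt (div_pos (hld x) (hla x)).le]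
    have := (hla x).ne'
    field_simp
    ring
  simp only [ea, eb, ec] at he
  exact ⟨R (alH (1, 0) (0, 1)) (beH (1, 0) (0, 1)) p, hp,
    ⟨fun x => R_per (fun k => ⟨k.1, freq_v1 hv k⟩) p x,
      fun x => R_per (fun k => ⟨k.2, freq_v2 hv k⟩) p x⟩, he⟩

end Vale.Agent.P205
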