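import Vale.Agent.Lib.P205.Basic

/-!
# P205: the Wiener algebra `ℓ¹(ℤ × ℤ)` with the convolution product
-/

open scoped ENNReal ContDiff

namespace Vale.Agent.P205

/-- Absolutely summable sequences indexed by `ℤ × ℤ`; the product below is the convolution. -/
def WA : Type := lp (fun _ : ℤ × ℤ => ℂ) 1

namespace WA

/-- the underlying element of `lp` -/
def toLp (a : WA) : lp (fun _ : ℤ × ℤ => ℂ) 1 := a

/-- an element of `WA` from an element of `lp` -/
def ofLp (a : lp (fun _ : ℤ × ℤ => ℂ) 1) : WA := a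

noncomputable instance : NormedAddCommGroup WA :=
  inferInstanceAs (NormedAddCommGroup (lp (fun _ : ℤ × ℤ => ℂ) 1))

noncomputable instance : NormedSpace ℂ WA :=
  inferInstanceAs (NormedSpace ℂ (lp (fun _ : ℤ × ℤ => ℂ) 1))

instance : CompleteSpace WA :=
  inferInstanceAs (CompleteSpace (lp (fun _ : ℤ × ℤ => ℂ) 1))

/-- coefficients -/
def cf (a : WA) (k : ℤ × ℤ) : ℂ := (toLp a) k

theorem ext {a b : WA} (h : ∀ k, cf a k = cf b k) : a = b :=
  lp.ext (funext h)

theorem summable_norm (a : WA) : Summable fun k => ‖cf a k‖ := by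
  have := (lp.memℓp (toLp a)).summable (by simp)
  simpa [cf] using this

theorem norm_eq (a : WA) : ‖a‖ = ∑' k, ‖cf a k‖ := by
  have := lp.norm_eq_tsum_rpow (p := 1) (by simp) (toLp a)
  simp only [ENNReal.toReal_one, Real.rpow_one, div_one] at this
  exact this

/-- constructor -/
noncomputable def mk (c : ℤ × ℤ → ℂ) (h : Summable fun k => ‖c k‖) : WA :=
  ofLp ⟨c, memℓp_gen (by simpa using h)⟩

@[simp] theorem cf_mk (c : ℤ × ℤ → ℂ) (h : Summable fun k => ‖c k‖) (k : ℤ × ℤ) :
    cf (mk c h) k = c k := rfl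

@[simp] theorem cf_add (a b : WA) (k : ℤ × ℤ) : cf (a + b) k = cf a k + cf b k := rfl

@[simp] theorem cf_sub (a b : WA) (k : ℤ × ℤ) : cf (a - b) k = cf a k - cf b k := rfl

@[simp] theorem cf_smul (c : ℂ) (a : WA) (k : ℤ × ℤ) : cf (c • a) k = c * cf a k := rfl

@[simp] theorem cf_zero (k : ℤ × ℤ) : cf 0 k = 0 := rfl

/-- the sequence `δ_k` -/
noncomputable def delta (k : ℤ × ℤ) : WA :=
  ofLp (lp.single (E := fun _ : ℤ × ℤ => ℂ) 1 k (1 : ℂ))

theorem cf_delta (k l : ℤ × ℤ) : cf (delta k) l = if l = k then 1 else 0 := by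
  change (lp.single (E := fun _ : ℤ × ℤ => ℂ) 1 k (1 : ℂ)) l = _
  by_cases h : l = k
  · subst h
    simp
  · simp [h]

@[simp] theorem norm_delta (k : ℤ × ℤ) : ‖delta k‖ = 1 := by
  have := lp.norm_single (E := fun _ : ℤ × ℤ => ℂ) (p := 1) (by simp) k (1 : ℂ)
  rw [norm_one] at this
  exact this

theorem hasSum_delta (a : WA) : HasSum (fun k => cf a k • delta k) a := by
  have h := lp.hasSum_single (E := fun _ : ℤ × ℤ => ℂ) (p := 1) (by simp) (toLp a)
  have h2 : (fun k => cf a k • delta k) = fun k => ofLp (lp.single 1 k ((toLp a) k)) := by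
    funext k
    apply ext
    intro l
    rw [cf_smul, cf_delta]
    change _ = (lp.single (E := fun _ : ℤ × ℤ => ℂ) 1 k ((toLp a) k)) l
    by_cases hl : l = k
    · subst hl
      simp [cf]
    · simp [hl]
  rw [h2]
  exact h

section lift
variable {B : Type*} [NormedAddCommGroup B] [NormedSpace ℂ B] [CompleteSpace B]

theorem summable_lift (a : WA) (v : ℤ × ℤ → B) {C : ℝ} (hC : ∀ k, ‖v k‖ ≤ C) :
    Summable fun k => cf a k • v k := by
  apply Summable.of_norm
  apply Summable.of_nonneg_of_le (fun k => norm_nonneg _) _ ((summable_norm a).mul_right C)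
  intro k
  rw [norm_smul]
  exact mul_le_mul_of_nonneg_left (hC k) (norm_nonneg _)

/-- The linear map sending `δ_k` to `v k`. -/
noncomputable def lift (v : ℤ × ℤ → B) (C : ℝ) (hC : ∀ k, ‖v k‖ ≤ C) : WA →L[ℂ] B :=
  LinearMap.mkContinuous
    { toFun := fun a => ∑' k, cf a k • v k
      map_add' := by
        intro a b
        simp only [cf_add, add_smul]
        exact (summable_lift a v hC).tsum_add (summable_lift b v hC)
      map_smul' := by
        intro c a
        simp only [cf_smul, mul_smul, RingHom.id_apply]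
        exact (summable_lift a v hC).tsum_const_smul c } C (by
      intro a
      have hs : Summable fun k => ‖cf a k‖ * C := (summable_norm a).mul_right C
      calc ‖∑' k, cf a k • v k‖ ≤ ∑' k, ‖cf a k‖ * C := by
            apply tsum_of_norm_bounded hs.hasSum
            intro k
            rw [norm_smul]
            exact mul_le_mul_of_nonneg_left (hC k) (norm_nonneg _)
        _ = C * ‖a‖ := by rw [tsum_mul_right, norm_eq, mul_comm])

theorem lift_apply (v : ℤ × ℤ → B) (C : ℝ) (hC : ∀ k, ‖v k‖ ≤ C) (a : WA) :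
    lift v C hC a = ∑' k, cf a k • v k := rfl

theorem norm_lift_le (v : ℤ × ℤ → B) (C : ℝ) (h0 : 0 ≤ C) (hC : ∀ k, ‖v k‖ ≤ C) :
    ‖lift v C hC‖ ≤ C :=
  LinearMap.mkContinuous_norm_le _ h0 _

@[simp] theorem lift_delta (v : ℤ × ℤ → B) (C : ℝ) (hC : ∀ k, ‖v k‖ ≤ C) (k : ℤ × ℤ) :
    lift v C hC (delta k) = v k := by
  rw [lift_apply, tsum_eq_single k]
  · rw [cf_delta, if_pos rfl, one_smul]
  · intro l hl
    rw [cf_delta, if_neg hl, zero_smul]

end lift

/-- continuous linear maps are determined by their values on the `δ_k` -/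
theorem ext_clm {B : Type*} [AddCommGroup B] [Module ℂ B] [TopologicalSpace B] [T2Space B]
    {L L' : WA →L[ℂ] B} (h : ∀ k, L (delta k) = L' (delta k)) : L = L' := by
  ext a
  have h1 := (hasSum_delta a).mapL L
  have h2 := (hasSum_delta a).mapL L'
  simp only [map_smul, h] at h1 h2
  exact h1.unique h2

/-- the product, as a bilinear map -/
noncomputable def mulL : WA →L[ℂ] WA →L[ℂ] WA :=
  lift (fun k => lift (fun l => delta (k + l)) 1 fun _ => (norm_delta _).le) 1
    fun _ => norm_lift_le _ _ zero_le_one _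

theorem norm_mulL_le (a b : WA) : ‖mulL a b‖ ≤ ‖a‖ * ‖b‖ := by
  calc ‖mulL a b‖ ≤ ‖mulL a‖ * ‖b‖ := (mulL a).le_opNorm b
    _ ≤ (‖mulL‖ * ‖a‖) * ‖b‖ := mul_le_mul_of_nonneg_right (mulL.le_opNorm a) (norm_nonneg _)
    _ ≤ (1 * ‖a‖) * ‖b‖ := by
        gcongr
        exact norm_lift_le _ _ zero_le_one _
    _ = _ := by rw [one_mul]

@[simp] theorem mulL_delta (k l : ℤ × ℤ) : mulL (delta k) (delta l) = delta (k + l) := by
  simp [mulL]

theorem mulL_comm (a b : WA) : mulL a b = mulL b a := by
  have h : mulL = mulL.flip := by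
    apply ext_clm
    intro k
    apply ext_clm
    intro l
    rw [ContinuousLinearMap.flip_apply, mulL_delta, mulL_delta, add_comm]
  calc mulL a b = mulL.flip a b := by rw [← h]
    _ = _ := rfl

theorem mulL_assoc (a b c : WA) : mulL (mulL a b) c = mulL a (mulL b c) := by
  have h1 : ∀ k l m, mulL (mulL (delta k) (delta l)) (delta m) =
      mulL (delta k) (mulL (delta l) (delta m)) := by
    intro k l m
    simp [add_assoc]
  have h2 : ∀ k l, mulL (mulL (delta k) (delta l)) c = mulL (delta k) (mulL (delta l) c) := by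
    intro k l
    have : mulL (mulL (delta k) (delta l)) = (mulL (delta k)).comp (mulL (delta l)) :=
      ext_clm fun m => h1 k l m
    rw [this]; rfl
  have h3 : ∀ k, mulL (mulL (delta k) b) c = mulL (delta k) (mulL b c) := by
    intro k
    have : (mulL.flip c).comp (mulL (delta k)) = (mulL (delta k)).comp (mulL.flip c) :=
      ext_clm fun l => h2 k l
    exact DFunLike.congr_fun this b
  have : (mulL.flip c).comp (mulL.flip b) = mulL.flip (mulL b c) :=
    ext_clm fun k => h3 k
  exact DFunLike.congr_fun this a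

theorem one_mulL (a : WA) : mulL (delta 0) a = a := by
  have : mulL (delta 0) = ContinuousLinearMap.id ℂ WA := ext_clm fun k => by simp
  rw [this]; rfl

noncomputable instance : NormedCommRing WA :=
  { (inferInstance : NormedAddCommGroup WA) with
    mul := fun a b => mulL a b
    one := delta 0
    mul_assoc := mulL_assoc
    one_mul := one_mulL
    mul_one := fun a => (mulL_comm a (delta 0)).trans (one_mulL a)
    left_distrib := fun a b c => map_add (mulL a) b c
    right_distrib := fun a b c => by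
      change mulL (a + b) c = mulL a c + mulL b c
      rw [map_add]; rfl
    mul_comm := mulL_comm
    zero_mul := fun a => by change mulL 0 a = 0; rw [map_zero]; rfl
    mul_zero := fun a => map_zero (mulL a)
    norm_mul_le := norm_mulL_le }

theorem mul_def (a b : WA) : a * b = mulL a b := rfl

theorem one_def : (1 : WA) = delta 0 := rfl

@[simp] theorem delta_mul (k l : ℤ × ℤ) : delta k * delta l = delta (k + l) := mulL_delta k l

noncomputable instance : NormedAlgebra ℂ WA :=
  { Algebra.ofModule (fun c a b => by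
      change mulL (c • a) b = c • mulL a b
      rw [map_smul]; rfl) (fun c a b => by
      change mulL a (c • b) = c • mulL a b
      rw [map_smul]) with
    norm_smul_le := fun c a => (norm_smul c a).le }

/-- exponentials and continuous multiplicative maps -/
theorem map_exp {B : Type*} [NormedCommRing B] [NormedAlgebra ℂ B] [CompleteSpace B]
    (L : WA →L[ℂ] B) (h1 : L 1 = 1) (hmul : ∀ a b, L (a * b) = L a * L b) (a : WA) :
    L (NormedSpace.exp a) = NormedSpace.exp (L a) := by
  have hpow : ∀ n : ℕ, L (a ^ n) = L a ^ n := by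
    intro n
    induction n with
    | zero => simp [h1]
    | succ n ih => rw [pow_succ, pow_succ, hmul, ih]
  have h2 := (NormedSpace.exp_series_hasSum_exp' (𝕂 := ℂ) a).mapL L
  have h3 := NormedSpace.exp_series_hasSum_exp' (𝕂 := ℂ) (L a)
  simp only [map_smul, hpow] at h2
  exact h2.unique h3

theorem contDiff_exp : ContDiff ℝ ∞ (NormedSpace.exp : WA → WA) := by
  have : AnalyticOnNhd ℝ (NormedSpace.exp : WA → WA) Set.univ :=
    fun x _ => NormedSpace.exp_analytic x
  exact this.contDiff

/-- multiplier -/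
noncomputable def mult (σ : ℤ × ℤ → ℂ) (C : ℝ) (hσ : ∀ k, ‖σ k‖ ≤ C) : WA →L[ℂ] WA :=
  lift (fun k => σ k • delta k) C fun k => by rw [norm_smul, norm_delta, mul_one]; exact hσ k

@[simp] theorem mult_delta (σ : ℤ × ℤ → ℂ) (C : ℝ) (hσ : ∀ k, ‖σ k‖ ≤ C) (k : ℤ × ℤ) :
    mult σ C hσ (delta k) = σ k • delta k := by
  simp [mult]

/-- coefficient functional -/
noncomputable def cfL (k : ℤ × ℤ) : WA →L[ℂ] ℂ :=
  LinearMap.mkContinuous
    { toFun := fun a => cf a k
      map_add' := fun _ _ => rfl
      map_smul' := fun _ _ => rfl } 1 (by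
      intro a
      rw [one_mul, norm_eq]
      exact (summable_norm a).le_tsum k fun _ _ => norm_nonneg _)

@[simp] theorem cfL_apply (k : ℤ × ℤ) (a : WA) : cfL k a = cf a k := rfl

theorem cf_mult (σ : ℤ × ℤ → ℂ) (C : ℝ) (hσ : ∀ k, ‖σ k‖ ≤ C) (a : WA) (k : ℤ × ℤ) :
    cf (mult σ C hσ a) k = σ k * cf a k := by
  have : (cfL k).comp (mult σ C hσ) = σ k • cfL k := by
    apply ext_clm
    intro l
    simp only [ContinuousLinearMap.comp_apply, mult_delta, map_smul, cfL_apply,
      smul_apply, cf_delta, smul_eq_mul]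
    by_cases h : k = l
    · subst h; rfl
    · simp [h]
  exact DFunLike.congr_fun this a

section characters
variable (α β : ℤ × ℤ →+ ℝ)

/-- the character with frequency `(α k, β k)` -/
noncomputable def chr (k : ℤ × ℤ) (x : ℝ × ℝ) : ℂ :=
  Complex.exp (Complex.I * (α k * x.1 + β k * x.2))

theorem norm_chr (k : ℤ × ℤ) (x : ℝ × ℝ) : ‖chr α β k x‖ = 1 := by
  unfold chr
  have : Complex.I * (α k * x.1 + β k * x.2) = ((α k * x.1 + β k * x.2 : ℝ) : ℂ) * Complex.I := by
    push_cast; ring
  rw [this, Complex.norm_exp_ofReal_mul_I]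

theorem chr_add (k l : ℤ × ℤ) (x : ℝ × ℝ) : chr α β (k + l) x = chr α β k x * chr α β l x := by
  unfold chr
  rw [← Complex.exp_add, map_add, map_add]
  congr 1
  push_cast; ring

theorem chr_add' (k : ℤ × ℤ) (x y : ℝ × ℝ) : chr α β k (x + y) = chr α β k x * chr α β k y := by
  unfold chr
  rw [← Complex.exp_add]
  congr 1
  simp only [Prod.fst_add, Prod.snd_add]
  push_cast; ring

@[simp] theorem chr_zero (x : ℝ × ℝ) : chr α β 0 x = 1 := by
  simp [chr]

/-- evaluation at a point -/
noncomputable def ev (x : ℝ × ℝ) : WA →L[ℂ] ℂ :=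
  lift (fun k => chr α β k x) 1 fun k => (norm_chr α β k x).le

@[simp] theorem ev_delta (x : ℝ × ℝ) (k : ℤ × ℤ) : ev α β x (delta k) = chr α β k x := by
  simp [ev]

theorem ev_apply (x : ℝ × ℝ) (a : WA) : ev α β x a = ∑' k, cf a k * chr α β k x := rfl

theorem norm_ev_le (x : ℝ × ℝ) (a : WA) : ‖ev α β x a‖ ≤ ‖a‖ := by
  have h := (ev α β x).le_of_opNorm_le (norm_lift_le _ _ zero_le_one _) a
  rwa [one_mul] at h

theorem ev_one (x : ℝ × ℝ) : ev α β x 1 = 1 := by
  rw [one_def, ev_delta, chr_zero]

theorem ev_mul (x : ℝ × ℝ) (a b : WA) : ev α β x (a * b) = ev α β x a * ev α β x b := by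
  have h1 : ∀ k, ev α β x (delta k * b) = ev α β x (delta k) * ev α β x b := by
    intro k
    have : (ev α β x).comp (mulL (delta k)) = (ev α β x (delta k)) • ev α β x := by
      apply ext_clm
      intro l
      simp only [ContinuousLinearMap.comp_apply, mulL_delta, ev_delta, chr_add,
        smul_apply, smul_eq_mul]
    exact DFunLike.congr_fun this b
  have : (ev α β x).comp (mulL.flip b) = (ev α β x b) • ev α β x := by
    apply ext_clm
    intro k
    simp only [ContinuousLinearMap.comp_apply, ContinuousLinearMap.flip_apply,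
      smul_apply, smul_eq_mul]
    rw [mul_comm (ev α β x b)]
    exact h1 k
  have h2 := DFunLike.congr_fun this a
  simp only [ContinuousLinearMap.comp_apply, ContinuousLinearMap.flip_apply,
      smul_apply, smul_eq_mul] at h2
  rw [mul_comm (ev α β x a)]
  exact h2

theorem ev_exp (x : ℝ × ℝ) (a : WA) :
    ev α β x (NormedSpace.exp a) = Complex.exp (ev α β x a) := by
  rw [map_exp (ev α β x) (ev_one α β x) (ev_mul α β x), ← Complex.exp_eq_exp_ℂ]

/-- translation -/
noncomputable def tau (h : ℝ × ℝ) : WA →L[ℂ] WA :=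
  mult (fun k => chr α β k h) 1 fun k => (norm_chr α β k h).le

theorem tau_delta (h : ℝ × ℝ) (k : ℤ × ℤ) : tau α β h (delta k) = chr α β k h • delta k :=
  mult_delta _ _ _ _

theorem norm_mult_le (σ : ℤ × ℤ → ℂ) (C : ℝ) (h0 : 0 ≤ C) (hσ : ∀ k, ‖σ k‖ ≤ C) (a : WA) :
    ‖mult σ C hσ a‖ ≤ C * ‖a‖ :=
  (mult σ C hσ).le_of_opNorm_le (norm_lift_le _ _ h0 _) a

theorem norm_tau_le (h : ℝ × ℝ) (a : WA) : ‖tau α β h a‖ ≤ ‖a‖ := by
  have := norm_mult_le (fun k => chr α β k h) 1 zero_le_one
    (fun k => (norm_chr α β k h).le) a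
  rwa [one_mul] at this

theorem tau_one (h : ℝ × ℝ) : tau α β h 1 = 1 := by
  rw [one_def, tau_delta, chr_zero, one_smul]

theorem tau_mul (h : ℝ × ℝ) (a b : WA) :
    tau α β h (a * b) = tau α β h a * tau α β h b := by
  have h1 : ∀ k, tau α β h (delta k * b) = tau α β h (delta k) * tau α β h b := by
    intro k
    have : (tau α β h).comp (mulL (delta k)) =
        (mulL (tau α β h (delta k))).comp (tau α β h) := by
      apply ext_clm
      intro l
      simp only [ContinuousLinearMap.comp_apply, mulL_delta, tau_delta, chr_add, map_smul,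
        smul_apply, smul_smul]
      rw [mul_comm]
    exact DFunLike.congr_fun this b
  have : (tau α β h).comp (mulL.flip b) = (mulL.flip (tau α β h b)).comp (tau α β h) := by
    apply ext_clm
    intro k
    exact h1 k
  exact DFunLike.congr_fun this a

theorem tau_exp (h : ℝ × ℝ) (a : WA) :
    tau α β h (NormedSpace.exp a) = NormedSpace.exp (tau α β h a) :=
  map_exp (tau α β h) (tau_one α β h) (tau_mul α β h) a

theorem ev_tau (x h : ℝ × ℝ) (a : WA) : ev α β x (tau α β h a) = ev α β (x + h) a := by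
  have : (ev α β x).comp (tau α β h) = ev α β (x + h) := by
    apply ext_clm
    intro k
    simp only [ContinuousLinearMap.comp_apply, tau_delta, map_smul, ev_delta, chr_add',
      smul_eq_mul]
    rw [mul_comm]
  exact DFunLike.congr_fun this a

theorem tau_mult (h : ℝ × ℝ) (σ : ℤ × ℤ → ℂ) (C : ℝ) (hσ : ∀ k, ‖σ k‖ ≤ C) (a : WA) :
    tau α β h (mult σ C hσ a) = mult σ C hσ (tau α β h a) := by
  have : (tau α β h).comp (mult σ C hσ) = (mult σ C hσ).comp (tau α β h) := by
    apply ext_clm
    intro k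
    simp only [ContinuousLinearMap.comp_apply, tau_delta, mult_delta, map_smul, smul_smul]
    rw [mul_comm]
  exact DFunLike.congr_fun this a

theorem tau_zero (a : WA) : tau α β 0 a = a := by
  have : tau α β 0 = ContinuousLinearMap.id ℂ WA := by
    apply ext_clm
    intro k
    rw [tau_delta]
    simp [chr]
  rw [this]; rfl

end characters

end WA

end Vale.Agent.P205
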