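import Vale.Agent.Lib.P205.Wiener

/-!
# P205: smoothness of translations in the Wiener algebra, derivatives, conjugation
-/

open scoped ENNReal ContDiff

namespace Vale.Agent.P205

namespace WA

theorem iteratedDeriv_cexp_I (m : ℕ) : iteratedDeriv m (fun t : ℝ => Complex.exp (Complex.I * t)) =
    fun t : ℝ => Complex.I ^ m * Complex.exp (Complex.I * t) := by
  induction m with
  | zero => funext t; simp
  | succ m ih =>
    rw [iteratedDeriv_succ, ih]
    funext t
    have h1 : HasDerivAt (fun t : ℝ => Complex.exp (Complex.I * t))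
        (Complex.exp (Complex.I * t) * (Complex.I * 1)) t :=
      ((Complex.ofRealCLM.hasDerivAt (x := t)).const_mul Complex.I).cexp
    rw [(h1.const_mul (Complex.I ^ m)).deriv]
    ring

section characters
variable (α β : ℤ × ℤ →+ ℝ)

/-- the linear form of a character -/
noncomputable def lin (k : ℤ × ℤ) : ℝ × ℝ →L[ℝ] ℝ :=
  α k • ContinuousLinearMap.fst ℝ ℝ ℝ + β k • ContinuousLinearMap.snd ℝ ℝ ℝ

theorem lin_apply (k : ℤ × ℤ) (x : ℝ × ℝ) : lin α β k x = α k * x.1 + β k * x.2 := by
  simp [lin]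

theorem norm_lin_le (k : ℤ × ℤ) : ‖lin α β k‖ ≤ |α k| + |β k| := by
  apply ContinuousLinearMap.opNorm_le_bound _ (by positivity)
  intro x
  rw [lin_apply, Real.norm_eq_abs]
  calc |α k * x.1 + β k * x.2| ≤ |α k * x.1| + |β k * x.2| := abs_add_le _ _
    _ = |α k| * |x.1| + |β k| * |x.2| := by rw [abs_mul, abs_mul]
    _ ≤ |α k| * ‖x‖ + |β k| * ‖x‖ := by
        gcongr
        · exact norm_fst_le x
        · exact norm_snd_le x
    _ = _ := by ring

theorem chr_eq (k : ℤ × ℤ) : chr α β k =
    (fun t : ℝ => Complex.exp (Complex.I * t)) ∘ (lin α β k) := by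
  funext x
  simp [chr, lin_apply]

theorem contDiff_chr (k : ℤ × ℤ) : ContDiff ℝ ∞ (chr α β k) := by
  rw [chr_eq]
  apply ContDiff.comp _ (lin α β k).contDiff
  have : ContDiff ℝ ∞ fun t : ℝ => Complex.I * (t : ℂ) :=
    contDiff_const.mul Complex.ofRealCLM.contDiff
  exact this.cexp

theorem norm_iteratedFDeriv_chr (k : ℤ × ℤ) (m : ℕ) (x : ℝ × ℝ) :
    ‖iteratedFDeriv ℝ m (chr α β k) x‖ ≤ (|α k| + |β k|) ^ m := by
  have hc : ContDiff ℝ ∞ fun t : ℝ => Complex.exp (Complex.I * (t : ℂ)) := by
    have : ContDiff ℝ ∞ fun t : ℝ => Complex.I * (t : ℂ) :=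
      contDiff_const.mul Complex.ofRealCLM.contDiff
    exact this.cexp
  rw [chr_eq, ContinuousLinearMap.iteratedFDeriv_comp_right (lin α β k) hc x
    (i := m) (by exact_mod_cast le_top)]
  refine (ContinuousMultilinearMap.norm_compContinuousLinearMap_le _ _).trans ?_
  rw [Finset.prod_const, Finset.card_univ, Fintype.card_fin, norm_iteratedFDeriv_eq_norm_iteratedDeriv,
    iteratedDeriv_cexp_I]
  have h1 : ‖Complex.I ^ m * Complex.exp (Complex.I * ((lin α β k x : ℝ) : ℂ))‖ = 1 := by
    rw [norm_mul, norm_pow, Complex.norm_I, one_pow, one_mul, mul_comm,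
      Complex.norm_exp_ofReal_mul_I]
  rw [h1, one_mul]
  exact pow_le_pow_left₀ (norm_nonneg _) (norm_lin_le α β k) m

theorem tau_apply (x : ℝ × ℝ) (a : WA) :
    tau α β x a = ∑' k, cf a k • (chr α β k x • delta k) := rfl

/-- smoothness of the translates of a rapidly decreasing sequence -/
theorem contDiff_tau (a : WA)
    (h : ∀ m : ℕ, Summable fun k => (1 + |α k| + |β k|) ^ m * ‖cf a k‖) :
    ContDiff ℝ ∞ fun x => tau α β x a := by
  have h1 : (fun x => tau α β x a) = fun x => ∑' k, (cf a k * chr α β k x) • delta k := by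
    funext x
    rw [tau_apply]
    congr 1
    funext k
    rw [smul_smul]
  rw [h1]
  apply contDiff_tsum (v := fun m k => (1 + |α k| + |β k|) ^ m * ‖cf a k‖)
  · intro k
    exact (contDiff_const.mul (contDiff_chr α β k)).smul contDiff_const
  · intro m _
    exact h m
  · intro m k x _
    -- composition with the linear map `z ↦ z • (cf a k • delta k)`
    let L : ℂ →L[ℝ] WA :=
      ((ContinuousLinearMap.toSpanSingleton ℂ (cf a k • delta k)).restrictScalars ℝ)
    have h2 : (fun x => (cf a k * chr α β k x) • delta k) = L ∘ (chr α β k) := by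
      funext x
      change _ = (chr α β k x) • (cf a k • delta k)
      rw [smul_smul, mul_comm]
    rw [h2, ContinuousLinearMap.iteratedFDeriv_comp_left L (contDiff_chr α β k).contDiffAt
      (i := m) (by exact_mod_cast le_top)]
    refine (ContinuousLinearMap.norm_compContinuousMultilinearMap_le _ _).trans ?_
    have h3 : ‖L‖ ≤ ‖cf a k‖ := by
      apply ContinuousLinearMap.opNorm_le_bound _ (norm_nonneg _)
      intro z
      change ‖z • (cf a k • delta k)‖ ≤ _
      rw [norm_smul, norm_smul, norm_delta, mul_one, mul_comm]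
    have h4 := norm_iteratedFDeriv_chr α β k m x
    have h5 : (|α k| + |β k|) ^ m ≤ (1 + |α k| + |β k|) ^ m :=
      pow_le_pow_left₀ (by positivity) (by linarith) m
    calc ‖L‖ * ‖iteratedFDeriv ℝ m (chr α β k) x‖
        ≤ ‖cf a k‖ * (1 + |α k| + |β k|) ^ m :=
          mul_le_mul h3 (h4.trans h5) (norm_nonneg _) (norm_nonneg _)
      _ = _ := mul_comm _ _

/-- derivative in the first direction -/
theorem hasDerivAt_ev1 (a a' : WA) (h : ∀ k, cf a' k = Complex.I * α k * cf a k) (x : ℝ × ℝ) :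
    HasDerivAt (fun t : ℝ => ev α β (x + t • (1, 0)) a) (ev α β x a') 0 := by
  have key := hasDerivAt_tsum (𝕜 := ℝ) (F := ℂ) (u := fun k => ‖cf a' k‖)
    (g := fun k t => cf a k * chr α β k (x + t • (1, 0)))
    (g' := fun k t => cf a' k * chr α β k (x + t • (1, 0))) (y₀ := 0) (summable_norm a')
    ?_ ?_ ?_ 0
  · simp only [zero_smul, add_zero] at key
    exact key
  · intro k t
    have h1 : HasDerivAt (fun t : ℝ => Complex.I * (α k * ((x.1 + t * 1 : ℝ) : ℂ) +
        β k * ((x.2 + t * 0 : ℝ) : ℂ))) (Complex.I * (α k * ((0 + 1 * 1 : ℝ) : ℂ) +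
        β k * ((0 + 1 * 0 : ℝ) : ℂ))) t := by
      apply HasDerivAt.const_mul
      apply HasDerivAt.add
      · apply HasDerivAt.const_mul
        exact (((hasDerivAt_const t x.1).add ((hasDerivAt_id t).mul_const 1))).ofReal_comp
      · apply HasDerivAt.const_mul
        exact (((hasDerivAt_const t x.2).add ((hasDerivAt_id t).mul_const 0))).ofReal_comp
    have h2 := (h1.cexp).const_mul (cf a k)
    have h3 : cf a' k * chr α β k (x + t • (1, 0)) = cf a k *
        (Complex.exp (Complex.I * (α k * ((x.1 + t * 1 : ℝ) : ℂ) +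
        β k * ((x.2 + t * 0 : ℝ) : ℂ))) * (Complex.I * (α k * ((0 + 1 * 1 : ℝ) : ℂ) +
        β k * ((0 + 1 * 0 : ℝ) : ℂ)))) := by
      rw [h k]
      simp only [chr, Prod.fst_add, Prod.snd_add, Prod.smul_fst, Prod.smul_snd, smul_eq_mul]
      push_cast
      ring
    rw [h3]
    exact h2
  · intro k t
    rw [norm_mul, norm_chr, mul_one]
  · apply Summable.of_norm
    simp only [norm_mul, norm_chr, mul_one]
    exact summable_norm a

/-- derivative in the second direction -/
theorem hasDerivAt_ev2 (a a' : WA) (h : ∀ k, cf a' k = Complex.I * β k * cf a k) (x : ℝ × ℝ) :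
    HasDerivAt (fun t : ℝ => ev α β (x + t • (0, 1)) a) (ev α β x a') 0 := by
  have key := hasDerivAt_tsum (𝕜 := ℝ) (F := ℂ) (u := fun k => ‖cf a' k‖)
    (g := fun k t => cf a k * chr α β k (x + t • (0, 1)))
    (g' := fun k t => cf a' k * chr α β k (x + t • (0, 1))) (y₀ := 0) (summable_norm a')
    ?_ ?_ ?_ 0
  · simp only [zero_smul, add_zero] at key
    exact key
  · intro k t
    have h1 : HasDerivAt (fun t : ℝ => Complex.I * (α k * ((x.1 + t * 0 : ℝ) : ℂ) +
        β k * ((x.2 + t * 1 : ℝ) : ℂ))) (Complex.I * (α k * ((0 + 1 * 0 : ℝ) : ℂ) +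
        β k * ((0 + 1 * 1 : ℝ) : ℂ))) t := by
      apply HasDerivAt.const_mul
      apply HasDerivAt.add
      · apply HasDerivAt.const_mul
        exact (((hasDerivAt_const t x.1).add ((hasDerivAt_id t).mul_const 0))).ofReal_comp
      · apply HasDerivAt.const_mul
        exact (((hasDerivAt_const t x.2).add ((hasDerivAt_id t).mul_const 1))).ofReal_comp
    have h2 := (h1.cexp).const_mul (cf a k)
    have h3 : cf a' k * chr α β k (x + t • (0, 1)) = cf a k *
        (Complex.exp (Complex.I * (α k * ((x.1 + t * 0 : ℝ) : ℂ) +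
        β k * ((x.2 + t * 1 : ℝ) : ℂ))) * (Complex.I * (α k * ((0 + 1 * 0 : ℝ) : ℂ) +
        β k * ((0 + 1 * 1 : ℝ) : ℂ)))) := by
      rw [h k]
      simp only [chr, Prod.fst_add, Prod.snd_add, Prod.smul_fst, Prod.smul_snd, smul_eq_mul]
      push_cast
      ring
    rw [h3]
    exact h2
  · intro k t
    rw [norm_mul, norm_chr, mul_one]
  · apply Summable.of_norm
    simp only [norm_mul, norm_chr, mul_one]
    exact summable_norm a

end characters

/-! ### Conjugation -/

theorem summable_neg {c : ℤ × ℤ → ℂ} (h : Summable fun k => ‖c k‖) :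
    Summable fun k => ‖(starRingEnd ℂ) (c (-k))‖ := by
  have := (Equiv.neg (ℤ × ℤ)).summable_iff.2 h
  simpa [Function.comp_def] using this

/-- the coefficients of the conjugate function -/
noncomputable def cj (a : WA) : WA :=
  mk (fun k => (starRingEnd ℂ) (cf a (-k))) (summable_neg (summable_norm a))

@[simp] theorem cf_cj (a : WA) (k : ℤ × ℤ) : cf (cj a) k = (starRingEnd ℂ) (cf a (-k)) := rfl

theorem norm_cj (a : WA) : ‖cj a‖ = ‖a‖ := by
  rw [norm_eq, norm_eq]
  simp only [cf_cj, RCLike.norm_conj]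
  exact (Equiv.neg (ℤ × ℤ)).tsum_eq (fun k => ‖cf a k‖)

/-- conjugation as a real linear map -/
noncomputable def cjL : WA →L[ℝ] WA :=
  LinearMap.mkContinuous
    { toFun := cj
      map_add' := fun a b => ext fun k => by simp
      map_smul' := fun c a => ext fun k => by
        change (starRingEnd ℂ) ((c : ℂ) * cf a (-k)) = (c : ℂ) * (starRingEnd ℂ) (cf a (-k))
        rw [map_mul, Complex.conj_ofReal] } 1 fun a => by
      change ‖cj a‖ ≤ 1 * ‖a‖
      rw [norm_cj, one_mul]

@[simp] theorem cjL_apply (a : WA) : cjL a = cj a := rfl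

theorem cj_smul (c : ℂ) (a : WA) : cj (c • a) = (starRingEnd ℂ) c • cj a :=
  ext fun k => by simp

theorem cj_delta (k : ℤ × ℤ) : cj (delta k) = delta (-k) := by
  apply ext
  intro l
  rw [cf_cj, cf_delta, cf_delta]
  by_cases h : l = -k
  · subst h; simp
  · have h' : -l ≠ k := fun h2 => h (by rw [← h2, neg_neg])
    simp [h, h']

theorem ext_real {B : Type*} [AddCommGroup B] [Module ℝ B] [TopologicalSpace B] [T2Space B]
    {L L' : WA →L[ℝ] B} (h : ∀ (c : ℂ) k, L (c • delta k) = L' (c • delta k)) : L = L' := by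
  ext a
  have h1 := (hasSum_delta a).mapL L
  have h2 := (hasSum_delta a).mapL L'
  simp only [h] at h1 h2
  exact h1.unique h2

theorem cj_mul (a b : WA) : cj (a * b) = cj a * cj b := by
  have h1 : ∀ (c : ℂ) (k : ℤ × ℤ), cj ((c • delta k) * b) = cj (c • delta k) * cj b := by
    intro c k
    have : cjL.comp ((mulL (c • delta k)).restrictScalars ℝ) =
        ((mulL (cj (c • delta k))).restrictScalars ℝ).comp cjL := by
      apply ext_real
      intro d l
      change cj ((c • delta k) * (d • delta l)) = cj (c • delta k) * cj (d • delta l)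
      rw [smul_mul_smul_comm, delta_mul, cj_smul, cj_smul, cj_smul, smul_mul_smul_comm, map_mul,
        cj_delta, cj_delta, cj_delta, delta_mul, neg_add]
    exact DFunLike.congr_fun this b
  have : cjL.comp ((mulL.flip b).restrictScalars ℝ) =
      ((mulL.flip (cj b)).restrictScalars ℝ).comp cjL := by
    apply ext_real
    intro c k
    exact h1 c k
  exact DFunLike.congr_fun this a

theorem cj_one : cj 1 = 1 := by
  rw [one_def, cj_delta, neg_zero]

theorem cj_add (a b : WA) : cj (a + b) = cj a + cj b := map_add cjL a b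

theorem cj_sub (a b : WA) : cj (a - b) = cj a - cj b := map_sub cjL a b

theorem cj_rsmul (c : ℝ) (a : WA) : cj (c • a) = c • cj a := map_smul cjL c a

theorem cj_exp (a : WA) : cj (NormedSpace.exp a) = NormedSpace.exp (cj a) := by
  have hpow : ∀ n : ℕ, cj (a ^ n) = cj a ^ n := by
    intro n
    induction n with
    | zero => simp [cj_one]
    | succ n ih => rw [pow_succ, pow_succ, cj_mul, ih]
  have h2 := (NormedSpace.exp_series_hasSum_exp' (𝕂 := ℝ) a).mapL cjL
  have h3 := NormedSpace.exp_series_hasSum_exp' (𝕂 := ℝ) (cj a)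
  simp only [map_smul, cjL_apply, hpow] at h2
  exact h2.unique h3

theorem cj_mult (σ : ℤ × ℤ → ℂ) (C : ℝ) (hσ : ∀ k, ‖σ k‖ ≤ C)
    (h : ∀ k, (starRingEnd ℂ) (σ (-k)) = σ k) (a : WA) :
    cj (mult σ C hσ a) = mult σ C hσ (cj a) := by
  apply ext
  intro k
  rw [cf_cj, cf_mult, cf_mult, map_mul, h, cf_cj]

theorem ev_cj (α β : ℤ × ℤ →+ ℝ) (x : ℝ × ℝ) (a : WA) :
    ev α β x (cj a) = (starRingEnd ℂ) (ev α β x a) := by
  rw [ev_apply, ev_apply, Complex.conj_tsum, ← (Equiv.neg (ℤ × ℤ)).tsum_eq]
  congr 1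
  funext k
  rw [Equiv.neg_apply, cf_cj, neg_neg, map_mul]
  congr 1
  unfold chr
  rw [← Complex.exp_conj]
  congr 1
  simp
  ring

end WA

end Vale.Agent.P205
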